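import Vale.Agent.P220.H64.Jordan
import Vale.Agent.P116.FK.M
import Vale.Agent.P116.Slow.S45

/-!
# The Riemann map of an analytic Jordan domain
-/

open Set Metric Filter Topology Complex Bornology
open scoped ComplexConjugate Real

namespace Vale.Agent.P220.H64

open Vale.Agent.P116.FK

/-- logarithms on a disc -/
theorem exists_log_ball {f : ℂ → ℂ} {r : ℝ} (hr : 0 < r) (hf : DifferentiableOn ℂ f (ball 0 r))
    (h0 : ∀ z ∈ ball (0 : ℂ) r, f z ≠ 0) :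
    ∃ g : ℂ → ℂ, DifferentiableOn ℂ g (ball 0 r) ∧ ∀ z ∈ ball (0 : ℂ) r, f z = exp (g z) := by
  have h1 : DifferentiableOn ℂ (fun z => deriv f z / f z) (ball 0 r) :=
    (hf.deriv isOpen_ball).div hf h0
  obtain ⟨P, hP0, hP⟩ := h1.isExactOn_ball.with_val_at 0 (Complex.log (f 0))
  have hPd : DifferentiableOn ℂ P (ball 0 r) := fun z hz =>
    (hP z hz).differentiableAt.differentiableWithinAt
  refine ⟨P, hPd, ?_⟩
  have h2 : ∀ z ∈ ball (0 : ℂ) r, HasDerivAt (fun z => f z * exp (-P z)) 0 z := by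
    intro z hz
    have h3 : HasDerivAt f (deriv f z) z := (hf.differentiableAt (isOpen_ball.mem_nhds hz)).hasDerivAt
    have h4 := h3.mul ((hP z hz).neg.cexp)
    have h5 := h0 z hz
    have h6 : deriv f z * exp (-P z) + f z * (exp (-P z) * -(deriv f z / f z)) = 0 := by
      rw [show f z * (exp (-P z) * -(deriv f z / f z)) =
        -(exp (-P z) * (f z * (deriv f z / f z))) by ring, mul_div_cancel₀ _ h5]
      ring
    rw [← h6]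
    exact h4
  obtain ⟨c, hc⟩ := isOpen_ball.exists_is_const_of_deriv_eq_zero
    (convex_ball (0 : ℂ) r).isPreconnected (f := fun z => f z * exp (-P z))
    (fun z hz => (h2 z hz).differentiableAt.differentiableWithinAt) (fun z hz => (h2 z hz).deriv)
  intro z hz
  have h5 := hc z hz
  have h6 := hc 0 (mem_ball_self hr)
  simp only [hP0, exp_neg, exp_log (h0 0 (mem_ball_self hr))] at h5 h6
  rw [mul_inv_cancel₀ (h0 0 (mem_ball_self hr))] at h6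
  rw [← h6] at h5
  have := exp_ne_zero (P z)
  field_simp at h5
  exact h5

/-- maximum principle on an annulus -/
theorem max_ann {a' a b b' : ℝ} (ha : a' < a) (hb : b < b') {f : ℂ → ℂ}
    (hf : DifferentiableOn ℂ f (ann a' b')) {C : ℝ} (h1 : ∀ z : ℂ, ‖z‖ = a → ‖f z‖ ≤ C)
    (h2 : ∀ z : ℂ, ‖z‖ = b → ‖f z‖ ≤ C) {z : ℂ} (hz : a ≤ ‖z‖) (hz' : ‖z‖ ≤ b) : ‖f z‖ ≤ C := by
  rcases hz.eq_or_lt with h | h
  · exact h1 z h.symm
  rcases hz'.eq_or_lt with h' | h'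
  · exact h2 z h'
  have hcl : closure (ann a b) ⊆ {z : ℂ | a ≤ ‖z‖ ∧ ‖z‖ ≤ b} := by
    refine closure_minimal (fun w hw => ⟨hw.1.le, hw.2.le⟩) ?_
    exact (isClosed_le continuous_const continuous_norm).inter
      (isClosed_le continuous_norm continuous_const)
  refine Complex.norm_le_of_forall_mem_frontier_norm_le (U := ann a b) ?_ ?_ ?_
    (subset_closure (show z ∈ ann a b from ⟨h, h'⟩))
  · exact (isBounded_ball (x := (0 : ℂ)) (r := b)).subset fun w hw => mem_ball_zero_iff.2 hw.2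
  · refine DifferentiableOn.diffContOnCl (hf.mono fun w hw => ?_)
    have := hcl hw
    exact ⟨ha.trans_le this.1, this.2.trans_lt hb⟩
  · intro w hw
    rw [(isOpen_ann a b).frontier_eq] at hw
    have h3 := hcl hw.1
    rcases h3.1.eq_or_lt with h4 | h4
    · exact h1 w h4.symm
    rcases h3.2.eq_or_lt with h5 | h5
    · exact h2 w h5
    · exact absurd ⟨h4, h5⟩ hw.2

theorem inv_mem_ann {R : ℝ} (hR : 0 < R) {ζ : ℂ} (hζ : ζ ∈ ann R⁻¹ R) : ζ⁻¹ ∈ ann R⁻¹ R := by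
  have h1 : 0 < ‖ζ‖ := (inv_pos.2 hR).trans hζ.1
  constructor
  · rw [norm_inv]; exact inv_strictAnti₀ h1 hζ.2
  · rw [norm_inv]; exact inv_lt_of_inv_lt₀ hR hζ.1

namespace AC

variable {R : ℝ} {Γ : ℂ → ℂ}

theorem nz (h : AC R Γ) {ζ : ℂ} (hζ : ζ ∈ ann R⁻¹ R) : ζ ≠ 0 := by
  intro h0
  have := hζ.1
  rw [h0, norm_zero] at this
  exact absurd this (not_lt.2 h.Ri0.le)

/-- the dual curve -/
theorem dual (h : AC R Γ) : AC R (fun ζ => (Γ ζ⁻¹)⁻¹) := by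
  have hinv : DifferentiableOn ℂ (fun ζ : ℂ => ζ⁻¹) (ann R⁻¹ R) := fun ζ hζ =>
    (differentiableAt_inv (h.nz hζ)).differentiableWithinAt
  refine ⟨h.hR, ?_, ?_, ?_⟩
  · exact (h.diff.comp hinv fun ζ hζ => inv_mem_ann h.R0 hζ).inv
      fun ζ hζ => h.ne0 (inv_mem_ann h.R0 hζ)
  · intro ζ hζ ζ' hζ' heq
    exact inv_injective (h.inj (inv_mem_ann h.R0 hζ) (inv_mem_ann h.R0 hζ') (inv_injective heq))
  · obtain ⟨p, hp, hΓ⟩ := h.deg
    refine ⟨fun ζ => -p ζ⁻¹, (hp.comp hinv fun ζ hζ => inv_mem_ann h.R0 hζ).neg, fun ζ hζ => ?_⟩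
    rw [hΓ _ (inv_mem_ann h.R0 hζ), mul_inv, inv_inv, exp_neg]

end AC

/-- conformal data of an analytic Jordan curve -/
structure CM (R : ℝ) (Γ : ℂ → ℂ) (Ω : Set ℂ) (φ ψ g Φ : ℂ → ℂ) : Prop where
  isOpen : IsOpen Ω
  conn : IsPreconnected Ω
  h0 : (0 : ℂ) ∈ Ω
  bdd : IsBounded Ω
  mem : ∀ ζ ∈ ann R⁻¹ R, Γ ζ ∈ Ω ↔ ‖ζ‖ < 1
  clo : closure Ω ⊆ Ω ∪ Γ '' sphere 0 1
  φd : DifferentiableOn ℂ φ Ω
  φm : ∀ w ∈ Ω, ‖φ w‖ < 1
  φ0 : φ 0 = 0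
  ψd : DifferentiableOn ℂ ψ (ball 0 1)
  ψm : ∀ z ∈ ball (0 : ℂ) 1, ψ z ∈ Ω
  φψ : ∀ z ∈ ball (0 : ℂ) 1, φ (ψ z) = z
  ψφ : ∀ w ∈ Ω, ψ (φ w) = w
  gd : DifferentiableOn ℂ g (ball 0 1)
  g0 : (g 0).im = 0
  ψg : ∀ z ∈ ball (0 : ℂ) 1, ψ z = z * exp (g z)
  Φd : DifferentiableOn ℂ Φ (ann R⁻¹ R)
  Φin : ∀ ζ ∈ ann R⁻¹ R, ‖ζ‖ < 1 → Φ ζ = φ (Γ ζ)
  Φr : ∀ ζ ∈ ann R⁻¹ R, conj (Φ ζ) * Φ (conj ζ)⁻¹ = 1

/-- existence of the domain -/
theorem AC.exists_dom {R : ℝ} {Γ : ℂ → ℂ} (h : AC R Γ) : ∃ Ω : Set ℂ, IsOpen Ω ∧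
    IsPreconnected Ω ∧ (0 : ℂ) ∈ Ω ∧ IsBounded Ω ∧ (∀ ζ ∈ ann R⁻¹ R, Γ ζ ∈ Ω ↔ ‖ζ‖ < 1) ∧
    closure Ω ⊆ Ω ∪ Γ '' sphere 0 1 ∧ SqrtProp Ω := by
  obtain ⟨K, hK, hKc, hKc', h0K, hKm, hKf⟩ := h.dual.exists_K
  have h0J : (0 : ℂ) ∉ (fun ζ => (Γ ζ⁻¹)⁻¹) '' sphere (0 : ℂ) 1 := by
    rintro ⟨z, hz, h0⟩
    exact h.dual.ne0 (h.sph h.Ri h.hR hz) h0
  have h0n : K ∈ 𝓝 (0 : ℂ) := by
    have h1 : (0 : ℂ) ∉ closure Kᶜ := fun h2 => h0J (hKf 0 h0K h2)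
    have h2 : (closure Kᶜ)ᶜ ∈ 𝓝 (0 : ℂ) := isClosed_closure.isOpen_compl.mem_nhds h1
    filter_upwards [h2] with x hx
    by_contra h3
    exact hx (subset_closure h3)
  obtain ⟨δ, hδ, hball⟩ := Metric.mem_nhds_iff.1 h0n
  have hnt : K.Nontrivial := by
    refine ⟨0, h0K, ((δ / 2 : ℝ) : ℂ), hball ?_, ?_⟩
    · rw [mem_ball_zero_iff, Complex.norm_real, Real.norm_of_nonneg (by positivity)]
      linarith
    · intro h0
      have := Complex.ofReal_eq_zero.1 h0.symm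
      linarith
  have hCont : Cont K := ⟨hK, hKc, hnt⟩
  have hmem : ∀ ζ ∈ ann R⁻¹ R, Γ ζ ∈ invDom K 0 ↔ ‖ζ‖ < 1 := by
    intro ζ hζ
    rw [invDom_ne (h.ne0 hζ), zero_add]
    have h1 := hKm ζ⁻¹ (inv_mem_ann h.R0 hζ)
    simp only [inv_inv] at h1
    rw [h1, norm_inv, inv_le_one_iff₀, not_or, not_le, not_le]
    constructor
    · exact fun h2 => h2.2
    · exact fun h2 => ⟨norm_pos_iff.2 (h.nz hζ), h2⟩
  refine ⟨invDom K 0, isOpen_invDom hK, isPreconnected_invDom hK hKc' h0K, invDom_zero, ?_, hmem,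
    ?_, sqrtProp_invDom Vale.Agent.P116.Slow.SS.s5 hCont hKc' h0K⟩
  · refine (isBounded_closedBall (x := (0 : ℂ)) (r := δ⁻¹)).subset fun w hw => ?_
    rw [mem_closedBall_zero_iff]
    by_cases hw0 : w = 0
    · rw [hw0, norm_zero]; positivity
    · by_contra hcon
      rw [invDom_ne hw0, zero_add] at hw
      refine hw (hball ?_)
      rw [mem_ball_zero_iff, norm_inv]
      exact inv_lt_of_inv_lt₀ hδ (not_le.1 hcon)
  · intro w hw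
    by_cases hwΩ : w ∈ invDom K 0
    · exact Or.inl hwΩ
    · right
      have hw0 : w ≠ 0 := fun h0 => hwΩ (by rw [h0]; exact invDom_zero)
      have h1 : w⁻¹ ∈ K := by
        rw [invDom_ne hw0, zero_add, not_not] at hwΩ
        exact hwΩ
      have h2 : w⁻¹ ∈ closure Kᶜ := by
        rw [mem_closure_iff_nhds]
        intro t ht
        have h3 : (fun z : ℂ => z⁻¹) ⁻¹' t ∩ {0}ᶜ ∈ 𝓝 w :=
          inter_mem ((continuousAt_inv₀ hw0).preimage_mem_nhds ht) (isOpen_ne.mem_nhds hw0)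
        obtain ⟨x, ⟨hx1, hx2⟩, hx3⟩ := mem_closure_iff_nhds.1 hw _ h3
        refine ⟨x⁻¹, hx1, ?_⟩
        rwa [invDom_ne hx2, zero_add] at hx3
      obtain ⟨ζ, hζ, h3⟩ := hKf _ h1 h2
      refine ⟨ζ⁻¹, ?_, inv_injective h3⟩
      rw [mem_sphere_zero_iff_norm] at hζ ⊢
      rw [norm_inv, hζ, inv_one]

theorem mob_conj_pos {a : ℝ} : ‖exp (-(a : ℂ) * I)‖ = 1 := by
  rw [show -(a : ℂ) * I = ((-a : ℝ) : ℂ) * I by push_cast; ring, Complex.norm_exp_ofReal_mul_I]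

/-- existence of the conformal data -/
theorem AC.exists_cm {R : ℝ} {Γ : ℂ → ℂ} (h : AC R Γ) : ∃ Ω φ ψ g Φ, CM R Γ Ω φ ψ g Φ := by
  obtain ⟨Ω, hΩ, hconn, h0, hbdd, hmem, hclo, hS⟩ := h.exists_dom
  have hne : Ω ≠ univ := by
    intro h1
    have h2 := (hmem 1 (h.mem1 (by simp))).1 (by rw [h1]; trivial)
    simp at h2
  obtain ⟨f, hf, hfi, hfim, hfd, hf0⟩ := exists_onto_disc hΩ hconn hS hne h0
  obtain ⟨k, hk, hkf⟩ := E.exists_inv hΩ hf hfi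
  rw [hfim] at hk
  have hfk : ∀ z ∈ ball (0 : ℂ) 1, f (k z) = z := by
    intro z hz
    rw [← hfim] at hz
    obtain ⟨w, hw, rfl⟩ := hz
    rw [hkf w hw]
  have hkm : ∀ z ∈ ball (0 : ℂ) 1, k z ∈ Ω := by
    intro z hz
    rw [← hfim] at hz
    obtain ⟨w, hw, rfl⟩ := hz
    rw [hkf w hw]; exact hw
  have hk0 : k 0 = 0 := by
    have := hkf 0 h0
    rwa [hf0] at this
  have hb0 : (0 : ℂ) ∈ ball (0 : ℂ) 1 := mem_ball_self one_pos
  -- logarithm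
  have hG : DifferentiableOn ℂ (dslope k 0) (ball 0 1) :=
    (differentiableOn_dslope (isOpen_ball.mem_nhds hb0)).2 hk
  have hkG : ∀ z, k z = z * dslope k 0 z := by
    intro z
    have := sub_smul_dslope k 0 z
    rw [hk0, sub_zero, sub_zero, smul_eq_mul] at this
    exact this.symm
  have hki : InjOn k (ball 0 1) := fun z hz z' hz' heq => by rw [← hfk z hz, heq, hfk z' hz']
  have hGn : ∀ z ∈ ball (0 : ℂ) 1, dslope k 0 z ≠ 0 := by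
    intro z hz h1
    by_cases hz0 : z = 0
    · subst hz0
      rw [dslope_same] at h1
      exact injOn_deriv_ne_zero isOpen_ball hk hki hb0 h1
    · have h2 := hkG z
      rw [h1, mul_zero, ← hk0] at h2
      exact hz0 (hki hz hb0 h2)
  obtain ⟨g₀, hg₀, hGg⟩ := exists_log_ball one_pos hG hGn
  set a := (g₀ 0).im with ha
  set u : ℂ := exp (-(a : ℂ) * I) with hu
  have hun : ‖u‖ = 1 := mob_conj_pos
  have hu0 : u ≠ 0 := exp_ne_zero _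
  have hub : ∀ z ∈ ball (0 : ℂ) 1, u * z ∈ ball (0 : ℂ) 1 := by
    intro z hz
    rw [mem_ball_zero_iff] at hz ⊢
    rwa [norm_mul, hun, one_mul]
  have hub' : ∀ z ∈ ball (0 : ℂ) 1, u⁻¹ * z ∈ ball (0 : ℂ) 1 := by
    intro z hz
    rw [mem_ball_zero_iff] at hz ⊢
    rwa [norm_mul, norm_inv, hun, inv_one, one_mul]
  set φ : ℂ → ℂ := fun w => u⁻¹ * f w with hφ
  set ψ : ℂ → ℂ := fun z => k (u * z) with hψ
  have hfb : ∀ w ∈ Ω, f w ∈ ball (0 : ℂ) 1 := fun w hw => hfim ▸ mem_image_of_mem f hw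
  have hφm : ∀ w ∈ Ω, ‖φ w‖ < 1 := fun w hw => mem_ball_zero_iff.1 (hub' _ (hfb w hw))
  have hφd : DifferentiableOn ℂ φ Ω := hf.const_mul _
  have hψd : DifferentiableOn ℂ ψ (ball 0 1) :=
    hk.comp (by fun_prop) fun z hz => hub z hz
  have hψm : ∀ z ∈ ball (0 : ℂ) 1, ψ z ∈ Ω := fun z hz => hkm _ (hub z hz)
  have hφψ : ∀ z ∈ ball (0 : ℂ) 1, φ (ψ z) = z := by
    intro z hz
    simp only [hφ, hψ]
    rw [hfk _ (hub z hz), inv_mul_cancel_left₀ hu0]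
  have hψφ : ∀ w ∈ Ω, ψ (φ w) = w := by
    intro w hw
    simp only [hφ, hψ]
    rw [mul_inv_cancel_left₀ hu0, hkf w hw]
  have hφ0 : φ 0 = 0 := by simp only [hφ]; rw [hf0, mul_zero]
  -- the reflected function
  have hΓb : ∀ ζ ∈ ann R⁻¹ R, ‖ζ‖ < 1 → Γ ζ ∈ Ω := fun ζ hζ h1 => (hmem ζ hζ).2 h1
  have hinvm : ∀ ζ ∈ ann 1 R, ζ⁻¹ ∈ ann R⁻¹ R ∧ ‖ζ⁻¹‖ < 1 := by
    intro ζ hζ
    refine ⟨inv_mem_ann h.R0 ⟨h.Ri.trans hζ.1, hζ.2⟩, ?_⟩
    rw [norm_inv]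
    exact inv_lt_one_of_one_lt₀ hζ.1
  have hFd : DifferentiableOn ℂ (fun ζ => φ (Γ ζ⁻¹)) (ann 1 R) := by
    refine hφd.comp (h.diff.comp ?_ fun ζ hζ => (hinvm ζ hζ).1) fun ζ hζ =>
      hΓb _ (hinvm ζ hζ).1 (hinvm ζ hζ).2
    exact fun ζ hζ => (differentiableAt_inv (h.nz
      (⟨h.Ri.trans hζ.1, hζ.2⟩ : ζ ∈ ann R⁻¹ R))).differentiableWithinAt
  have hFn : ∀ ζ ∈ ann 1 R, φ (Γ ζ⁻¹) ≠ 0 := by
    intro ζ hζ h1
    have h2 := hψφ _ (hΓb _ (hinvm ζ hζ).1 (hinvm ζ hζ).2)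
    rw [h1] at h2
    have h3 : ψ 0 = 0 := by
      have := hψφ 0 h0
      rwa [hφ0] at this
    rw [h3] at h2
    exact h.ne0 (hinvm ζ hζ).1 h2.symm
  have hFl : ∀ ε > 0, ∃ δ > 0, ∀ ζ : ℂ, 1 < ‖ζ‖ → ‖ζ‖ < 1 + δ → |‖φ (Γ ζ⁻¹)‖ - 1| < ε := by
    intro ε hε
    set C := ψ '' closedBall 0 (1 - ε) with hC
    have hbs : closedBall (0 : ℂ) (1 - ε) ⊆ ball 0 1 := closedBall_subset_ball (by linarith)
    have hCc : IsCompact C := (isCompact_closedBall _ _).image_of_continuousOn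
      (hψd.continuousOn.mono hbs)
    set ρ := (R⁻¹ + 1) / 2 with hρ
    have hρ1 : R⁻¹ < ρ := by rw [hρ]; linarith [h.Ri]
    have hρ2 : ρ < 1 := by rw [hρ]; linarith [h.Ri]
    set A : Set ℂ := {z | ρ ≤ ‖z‖ ∧ ‖z‖ ≤ 1} with hA
    have hAc : IsCompact A := by
      refine Metric.isCompact_of_isClosed_isBounded
        ((isClosed_le continuous_const continuous_norm).inter
          (isClosed_le continuous_norm continuous_const)) ?_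
      exact (isBounded_closedBall (x := (0 : ℂ)) (r := 1)).subset fun w hw =>
        mem_closedBall_zero_iff.2 hw.2
    have hAs : A ⊆ ann R⁻¹ R := fun z hz => ⟨hρ1.trans_le hz.1, hz.2.trans_lt h.hR⟩
    have hTc : IsCompact (A ∩ Γ ⁻¹' C) :=
      hAc.of_isClosed_subset ((h.diff.continuousOn.mono hAs).preimage_isClosed_of_isClosed
        hAc.isClosed hCc.isClosed) inter_subset_left
    have hT1 : ∀ z ∈ A ∩ Γ ⁻¹' C, ‖z‖ < 1 := by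
      rintro z ⟨hz, y, hy, hyz⟩
      refine (hmem z (hAs hz)).1 ?_
      rw [← hyz]
      exact hψm y (hbs hy)
    obtain ⟨r, hr, hr'⟩ : ∃ r, r < 1 ∧ ∀ z ∈ A ∩ Γ ⁻¹' C, ‖z‖ ≤ r := by
      rcases (A ∩ Γ ⁻¹' C).eq_empty_or_nonempty with he | hne
      · exact ⟨0, one_pos, fun z hz => by rw [he] at hz; exact absurd hz (notMem_empty _)⟩
      · obtain ⟨z, hz, hmax⟩ := hTc.exists_isMaxOn hne continuous_norm.continuousOn
        exact ⟨‖z‖, hT1 z hz, fun y hy => hmax hy⟩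
    set r' := max (max r ρ) (1 / 2) with hr'd
    have hr'1 : r' < 1 := max_lt (max_lt hr hρ2) (by norm_num)
    have hr'0 : 0 < r' := lt_of_lt_of_le (by norm_num) (le_max_right _ _)
    refine ⟨r'⁻¹ - 1, by linarith [(one_lt_inv₀ hr'0).2 hr'1], fun ζ h1 h2 => ?_⟩
    have h3 : r' < ‖ζ⁻¹‖ := by
      rw [norm_inv, lt_inv_comm₀ hr'0 (by linarith)]
      linarith
    have h4 : ‖ζ⁻¹‖ < 1 := by rw [norm_inv]; exact inv_lt_one_of_one_lt₀ h1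
    have h5 : ζ⁻¹ ∈ A := ⟨(le_max_right r ρ).trans ((le_max_left _ _).trans h3.le), h4.le⟩
    have h6 : Γ ζ⁻¹ ∈ Ω := hΓb _ (hAs h5) h4
    have h7 : 1 - ε < ‖φ (Γ ζ⁻¹)‖ := by
      by_contra hcon
      have h8 : ζ⁻¹ ∈ A ∩ Γ ⁻¹' C :=
        ⟨h5, φ (Γ ζ⁻¹), mem_closedBall_zero_iff.2 (not_lt.1 hcon), hψφ _ h6⟩
      have := hr' _ h8
      have h9 : r ≤ r' := (le_max_left _ _).trans (le_max_left _ _)
      linarith
    have h8 := hφm _ h6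
    rw [abs_lt]
    constructor <;> linarith
  obtain ⟨χ, hχd, hχF, hχr⟩ := Vale.Agent.P116.FK.rf h.hR hFd hFn hFl
  refine ⟨Ω, φ, ψ, fun z => g₀ (u * z) - a * I, fun ζ => χ ζ⁻¹, hΩ, hconn, h0, hbdd, hmem, hclo,
    hφd, hφm, hφ0, hψd, hψm, hφψ, hψφ, ?_, ?_, ?_, ?_, ?_, ?_⟩
  · exact (hg₀.comp (by fun_prop) fun z hz => hub z hz).sub_const _
  · simp [ha]
  · intro z hz
    simp only [hψ]
    rw [hkG, hGg _ (hub z hz), exp_sub, hu, show -(a : ℂ) * I = -(a * I) by ring, exp_neg]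
    have := exp_ne_zero ((a : ℂ) * I)
    field_simp
  · refine hχd.comp ?_ fun ζ hζ => inv_mem_ann h.R0 hζ
    exact fun ζ hζ => (differentiableAt_inv (h.nz hζ)).differentiableWithinAt
  · intro ζ hζ h1
    have h2 : ζ⁻¹ ∈ ann 1 R := by
      refine ⟨?_, (inv_mem_ann h.R0 hζ).2⟩
      rw [norm_inv]
      exact (one_lt_inv₀ (norm_pos_iff.2 (h.nz hζ))).2 h1
    show χ ζ⁻¹ = φ (Γ ζ)
    rw [hχF _ h2, inv_inv]
  · intro ζ hζ
    have h1 := hχr ζ⁻¹ (inv_mem_ann h.R0 hζ)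
    rw [map_inv₀, inv_inv] at h1
    show conj (χ ζ⁻¹) * χ ((conj ζ)⁻¹)⁻¹ = 1
    rw [inv_inv]
    exact h1

end Vale.Agent.P220.H64
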