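import Vale.Agent.P220.H64.Family

/-!
# Continuous dependence of the conformal data on the curve
-/

open Set Metric Filter Topology Complex Bornology
open scoped ComplexConjugate Real

namespace Vale.Agent.P220.H64

open Vale.Agent.P116.FK

/-- logarithms agree -/
theorem log_unique {S : Set ℂ} (hS : IsPreconnected S) {F G : ℂ → ℂ} (hF : ContinuousOn F S)
    (hG : ContinuousOn G S) (he : ∀ z ∈ S, exp (F z) = exp (G z)) {z₀ : ℂ} (hz₀ : z₀ ∈ S)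
    (h0 : F z₀ = G z₀) {z : ℂ} (hz : z ∈ S) : F z = G z := by
  have hD : ContinuousOn (fun z => F z - G z) S := hF.sub hG
  have hint : ∀ x ∈ S, ∃ n : ℤ, F x - G x = n * (2 * π * I) := by
    intro x hx
    have : exp (F x - G x) = 1 := by rw [exp_sub, he x hx, div_self (exp_ne_zero _)]
    exact exp_eq_one_iff.1 this
  have h2pi : ‖(2 * π * I : ℂ)‖ = 2 * π := by
    simp [abs_of_pos Real.pi_pos]
  have key := hS.induction₂ (fun x y => F x - G x = F y - G y) (fun x hx => ?_)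
    (fun x y z _ _ _ hxy hyz => hxy.trans hyz) (fun x y _ _ hxy => hxy.symm) hz₀ hz
  · rw [h0, sub_self] at key
    exact sub_eq_zero.1 key.symm
  · have h1 := (Metric.continuousWithinAt_iff'.1 (hD x hx)) 1 one_pos
    filter_upwards [h1, self_mem_nhdsWithin] with y hy hyS
    obtain ⟨n, hn⟩ := hint x hx
    obtain ⟨k, hk⟩ := hint y hyS
    rw [dist_eq_norm] at hy
    simp only [hn, hk] at hy ⊢
    rw [← sub_mul, norm_mul, h2pi, ← Int.cast_sub, Complex.norm_intCast] at hy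
    have h2 : |((k - n : ℤ) : ℝ)| < 1 := by
      by_contra hcon
      rw [not_lt] at hcon
      nlinarith [Real.pi_gt_three]
    have h3 : k - n = 0 := by
      rw [← Int.cast_abs] at h2
      exact Int.abs_lt_one_iff.1 (by exact_mod_cast h2)
    rw [sub_eq_zero.1 h3]

theorem bc_bound {l : ℂ → ℂ} (hl : DifferentiableOn ℂ l (ball 0 1)) {η : ℝ} (hη : 0 < η)
    (h1 : ∀ z ∈ ball (0 : ℂ) 1, |(l z).re| ≤ η) (h2 : (l 0).im = 0) {r : ℝ} (hr : r < 1) {z : ℂ}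
    (hz : ‖z‖ ≤ r) : ‖l z‖ ≤ 4 * η / (1 - r) := by
  have hz1 : z ∈ ball (0 : ℂ) 1 := mem_ball_zero_iff.2 (hz.trans_lt hr)
  have h3 := Complex.borelCaratheodory hη hl (fun x hx => (abs_le.1 (h1 x hx)).2) one_pos hz1
  have h4 : ‖l 0‖ ≤ η := by
    have h5 : l 0 = (((l 0).re : ℝ) : ℂ) := by
      apply Complex.ext <;> simp [h2]
    rw [h5, Complex.norm_real, Real.norm_eq_abs]
    exact h1 0 (mem_ball_self one_pos)
  have hz0 := norm_nonneg z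
  have h6 : 0 < 1 - ‖z‖ := by linarith
  have h7 : 0 < 1 - r := by linarith
  have h8 : 2 * η * ‖z‖ / (1 - ‖z‖) + ‖l 0‖ * (1 + ‖z‖) / (1 - ‖z‖) ≤ 4 * η / (1 - ‖z‖) := by
    rw [← add_div]
    refine div_le_div_of_nonneg_right ?_ h6.le
    nlinarith [norm_nonneg (l 0)]
  refine h3.trans (h8.trans ?_)
  exact div_le_div_of_nonneg_left (by positivity) h7 (by linarith)

namespace CM

variable {R : ℝ} {Γ : ℂ → ℂ} {Ω : Set ℂ} {φ ψ g Φ : ℂ → ℂ}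

theorem mem_of_φe (c : CM R Γ Ω φ ψ g Φ) (h : AC R Γ) {φe : ℂ → ℂ}
    (e3 : ∀ ζ ∈ ann R⁻¹ R, φe (Γ ζ) = Φ ζ) {w : ℂ} (hw : w ∈ Ω ∪ Γ '' ann R⁻¹ R)
    (h1 : ‖φe w‖ < 1) : w ∈ Ω := by
  rcases hw with hw | ⟨ζ, hζ, rfl⟩
  · exact hw
  · rw [c.mem ζ hζ]
    by_contra hcon
    rw [not_lt] at hcon
    rw [e3 ζ hζ] at h1
    exact absurd (c.Φge h hζ hcon) (not_le.2 h1)

variable {X : Type*} {L : Filter X} {Γ' : X → ℂ → ℂ} {Ω' : X → Set ℂ}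
  {φ' ψ' g' Φ' : X → ℂ → ℂ}

/-- convergence of `g` -/
theorem g_tendsto (c : CM R Γ Ω φ ψ g Φ) (h : AC R Γ) (h' : ∀ x, AC R (Γ' x))
    (c' : ∀ x, CM R (Γ' x) (Ω' x) (φ' x) (ψ' x) (g' x) (Φ' x))
    (hΓ : ∀ a b, R⁻¹ < a → b < R → ∀ ε > 0, ∀ᶠ x in L, ∀ ζ : ℂ, a ≤ ‖ζ‖ → ‖ζ‖ ≤ b →
      ‖Γ' x ζ - Γ ζ‖ < ε) {r : ℝ} (hr0 : 0 ≤ r) (hr : r < 1) {ε : ℝ} (hε : 0 < ε) :
    ∀ᶠ x in L, ∀ z : ℂ, ‖z‖ ≤ r → ‖g' x z - g z‖ < ε := by
  obtain ⟨φe, e1, e2, e3⟩ := c.exists_ext h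
  set r₁ := (1 + r) / 2 with hr₁
  have hr1 : r₁ < 1 := by rw [hr₁]; linarith
  have hcb : closedBall (0 : ℂ) r₁ ⊆ ball 0 1 := closedBall_subset_ball hr1
  have hu := (isCompact_closedBall (0 : ℂ) r₁).uniformContinuousOn_of_continuous
    (c.gd.continuousOn.mono hcb)
  rw [Metric.uniformContinuousOn_iff] at hu
  obtain ⟨δ₁, hδ₁, hu⟩ := hu (ε / 2) (by linarith)
  set κ := min (min (δ₁ / 4) ((r₁ - r) / 4)) (min (ε / 4) (1 / 2)) with hκ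
  have hκ0 : 0 < κ := lt_min (lt_min (by linarith) (by linarith)) (lt_min (by linarith)
    (by norm_num))
  have hκ1 : κ ≤ δ₁ / 4 := (min_le_left _ _).trans (min_le_left _ _)
  have hκ2 : κ ≤ (r₁ - r) / 4 := (min_le_left _ _).trans (min_le_right _ _)
  have hκ3 : κ ≤ ε / 4 := (min_le_right _ _).trans (min_le_left _ _)
  have hκ4 : κ ≤ 1 / 2 := (min_le_right _ _).trans (min_le_right _ _)
  obtain ⟨b, ε', hb, hb', hε', hcmp⟩ := c.compare h e1 e2 e3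
    (η := (1 - r) / 4 * κ) (by have : 0 < 1 - r := by linarith
                               positivity)
  filter_upwards [hΓ 1 b h.Ri hb' ε' hε'] with x hx
  obtain ⟨hsub, l, hl, hlr, hl0, hlχ⟩ := hcmp (Γ' x) (Ω' x) (φ' x) (ψ' x) (g' x) (Φ' x) (h' x)
    (c' x) hx
  have hlim : (l 0).im = 0 := by rw [hl0, Complex.sub_im, (c' x).g0, c.g0, sub_zero]
  have hlb : ∀ z : ℂ, ‖z‖ ≤ r → ‖l z‖ ≤ κ := by
    intro z hz
    have h1 := bc_bound hl (by have : 0 < 1 - r := by linarith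
                               positivity) hlr hlim hr hz
    refine h1.trans (le_of_eq ?_)
    have : (1 - r) ≠ 0 := by linarith
    field_simp
  have hz₁ : ∀ z : ℂ, ‖z‖ ≤ r → ‖z * exp (l z) - z‖ ≤ 2 * κ := by
    intro z hz
    have h1 : z * exp (l z) - z = z * (exp (l z) - 1) := by ring
    rw [h1, norm_mul]
    have h2 := Complex.norm_exp_sub_one_le (x := l z) ((hlb z hz).trans (by linarith))
    have h3 := hlb z hz
    nlinarith [norm_nonneg z, norm_nonneg (exp (l z) - 1)]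
  have hz₁' : ∀ z : ℂ, ‖z‖ ≤ r → ‖z * exp (l z)‖ ≤ r₁ := by
    intro z hz
    have h1 := hz₁ z hz
    have h2 : ‖z * exp (l z)‖ ≤ ‖z * exp (l z) - z‖ + ‖z‖ := by
      have := norm_add_le (z * exp (l z) - z) z
      rwa [sub_add_cancel] at this
    linarith
  have hmain : ∀ z ∈ closedBall (0 : ℂ) r, g' x z = l z + g (z * exp (l z)) := by
    intro z hz
    have hsb : closedBall (0 : ℂ) r ⊆ ball 0 1 := closedBall_subset_ball hr
    refine log_unique (S := closedBall (0 : ℂ) r) (F := g' x)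
      (G := fun z => l z + g (z * exp (l z))) (convex_closedBall _ _).isPreconnected
      ((c' x).gd.continuousOn.mono hsb) ?_ ?_ (mem_closedBall_self hr0) ?_ hz
    · refine (hl.continuousOn.mono hsb).add (c.gd.continuousOn.comp ?_ ?_)
      · exact continuousOn_id.mul (hl.continuousOn.mono hsb).cexp
      · intro y hy
        rw [mem_closedBall_zero_iff] at hy
        rw [mem_ball_zero_iff]
        exact (hz₁' y hy).trans_lt hr1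
    · intro y hy
      have hy1 : y ∈ ball (0 : ℂ) 1 := hsb hy
      rw [mem_closedBall_zero_iff] at hy
      by_cases hy0 : y = 0
      · subst hy0
        simp only [zero_mul]
        rw [hl0, sub_add_cancel]
      · have hyn : ‖y * exp (l y)‖ < 1 := (hz₁' y hy).trans_lt hr1
        have hχ := hlχ y hy1
        have hmem : ψ' x y ∈ Ω := c.mem_of_φe h e3 (hsub ((c' x).ψm y hy1)) (by rw [hχ]; exact hyn)
        rw [e2 _ hmem] at hχ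
        have h1 := c.ψφ _ hmem
        rw [hχ, c.ψg _ (mem_ball_zero_iff.2 hyn), (c' x).ψg y hy1, mul_assoc] at h1
        have h2 := mul_left_cancel₀ hy0 h1
        rw [← h2, ← exp_add]
    · simp only [zero_mul]
      rw [hl0, sub_add_cancel]
  intro z hz
  have hz' : z ∈ closedBall (0 : ℂ) r := mem_closedBall_zero_iff.2 hz
  rw [hmain z hz']
  have h1 : ‖g (z * exp (l z)) - g z‖ < ε / 2 := by
    rw [← dist_eq_norm]
    refine hu _ (mem_closedBall_zero_iff.2 (hz₁' z hz)) _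
      (mem_closedBall_zero_iff.2 (by linarith)) ?_
    rw [dist_eq_norm]
    linarith [hz₁ z hz]
  have h2 : l z + g (z * exp (l z)) - g z = l z + (g (z * exp (l z)) - g z) := by ring
  rw [h2]
  have h3 := norm_add_le (l z) (g (z * exp (l z)) - g z)
  linarith [hlb z hz]

/-- convergence of `Φ` inside -/
theorem Φ_tendsto_in (c : CM R Γ Ω φ ψ g Φ) (h : AC R Γ) (h' : ∀ x, AC R (Γ' x))
    (c' : ∀ x, CM R (Γ' x) (Ω' x) (φ' x) (ψ' x) (g' x) (Φ' x))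
    (hΓ : ∀ a b, R⁻¹ < a → b < R → ∀ ε > 0, ∀ᶠ x in L, ∀ ζ : ℂ, a ≤ ‖ζ‖ → ‖ζ‖ ≤ b →
      ‖Γ' x ζ - Γ ζ‖ < ε) {a : ℝ} (ha : R⁻¹ < a) (ha1 : a < 1) {ε : ℝ} (hε : 0 < ε) :
    ∀ᶠ x in L, ∀ ζ : ℂ, ‖ζ‖ = a → ‖Φ' x ζ - Φ ζ‖ < ε := by
  obtain ⟨φe, e1, e2, e3⟩ := c.exists_ext h
  have ha0 : 0 < a := h.Ri0.trans ha
  have hsub : sphere (0 : ℂ) a ⊆ ann R⁻¹ R := h.sph ha (ha1.trans h.hR)
  set C := Γ '' sphere (0 : ℂ) a with hC
  have hCc : IsCompact C := h.compact_im ha (ha1.trans h.hR)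
  have hCΩ : C ⊆ Ω := by
    rintro _ ⟨ζ, hζ, rfl⟩
    rw [c.mem ζ (hsub hζ), mem_sphere_zero_iff_norm.1 hζ]
    exact ha1
  obtain ⟨δ₀, hδ₀, hth⟩ := hCc.exists_cthickening_subset_open c.isOpen hCΩ
  obtain ⟨M, hM1, hM⟩ : ∃ M < 1, ∀ w ∈ C, ‖φ w‖ ≤ M := by
    obtain ⟨w, hw, hmax⟩ := hCc.exists_isMaxOn
      ((NormedSpace.sphere_nonempty.2 ha0.le).image Γ) (c.φd.continuousOn.mono hCΩ).norm
    exact ⟨‖φ w‖, c.φm w (hCΩ hw), fun y hy => hmax hy⟩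
  have hu := (hCc.cthickening (r := δ₀)).uniformContinuousOn_of_continuous
    (c.φd.continuousOn.mono hth)
  rw [Metric.uniformContinuousOn_iff] at hu
  set M₀ := max M 0 with hM₀
  have hM0' : 0 ≤ M₀ := le_max_right _ _
  have hM1' : M₀ < 1 := max_lt hM1 one_pos
  set ε₁ := min (ε / 4) ((1 - M₀) / 4) with hε₁
  have hε₁0 : 0 < ε₁ := lt_min (by linarith) (by linarith)
  have hε₁1 : ε₁ ≤ ε / 4 := min_le_left _ _
  have hε₁2 : ε₁ ≤ (1 - M₀) / 4 := min_le_right _ _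
  obtain ⟨δ₁, hδ₁, hu⟩ := hu ε₁ hε₁0
  -- the radius
  set r := (1 + M₀) / 2 with hr
  have hr1 : r < 1 := by rw [hr]; linarith
  have hr0 : 0 ≤ r := by rw [hr]; linarith
  set κ := min (ε / 8) (min (1 / 2) ((1 - M₀) / 8)) with hκ
  have hκ0 : 0 < κ := lt_min (by linarith) (lt_min (by norm_num) (by linarith))
  have hκ1 : κ ≤ ε / 8 := min_le_left _ _
  have hκ2 : κ ≤ 1 / 2 := (min_le_right _ _).trans (min_le_left _ _)
  have hκ3 : κ ≤ (1 - M₀) / 8 := (min_le_right _ _).trans (min_le_right _ _)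
  have h1r : 0 < 1 - r := by linarith
  set η := (1 - r) / 4 * κ with hη
  have hη0 : 0 < η := by positivity
  have hη1 : η ≤ κ := by
    rw [hη]; nlinarith
  obtain ⟨b, ε', hb, hb', hε', hcmp⟩ := c.compare h e1 e2 e3 hη0
  filter_upwards [hΓ 1 b h.Ri hb' ε' hε', hΓ a a ha (ha1.trans h.hR) (min δ₀ δ₁)
    (lt_min hδ₀ hδ₁)] with x hx hx2
  obtain ⟨hsub', l, hl, hlr, hl0, hlχ⟩ := hcmp (Γ' x) (Ω' x) (φ' x) (ψ' x) (g' x) (Φ' x) (h' x)
    (c' x) hx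
  have hlim : (l 0).im = 0 := by rw [hl0, Complex.sub_im, (c' x).g0, c.g0, sub_zero]
  have hlb : ∀ z : ℂ, ‖z‖ ≤ r → ‖l z‖ ≤ κ := by
    intro z hz
    have h1 := bc_bound hl hη0 hlr hlim hr1 hz
    refine h1.trans (le_of_eq ?_)
    have : (1 - r) ≠ 0 := by linarith
    rw [hη]
    field_simp
  intro ζ hζ
  have hζs : ζ ∈ sphere (0 : ℂ) a := mem_sphere_zero_iff_norm.2 hζ
  have hζm : ζ ∈ ann R⁻¹ R := hsub hζs
  have hζ1 : ‖ζ‖ < 1 := by rw [hζ]; exact ha1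
  have hd := hx2 ζ hζ.ge hζ.le
  have hwC : Γ ζ ∈ C := ⟨ζ, hζs, rfl⟩
  have hw' : Γ' x ζ ∈ cthickening δ₀ C := by
    refine mem_cthickening_of_dist_le _ _ _ _ hwC ?_
    rw [dist_eq_norm]
    exact (hd.trans_le (min_le_left _ _)).le
  have hw'Ω : Γ' x ζ ∈ Ω := hth hw'
  have hdφ : ‖φ (Γ' x ζ) - φ (Γ ζ)‖ < ε₁ := by
    rw [← dist_eq_norm]
    refine hu _ hw' _ (self_subset_cthickening C hwC) ?_
    rw [dist_eq_norm]
    exact hd.trans_le (min_le_right _ _)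
  have hw'Ω' : Γ' x ζ ∈ Ω' x := ((c' x).mem ζ hζm).2 hζ1
  set z := Φ' x ζ with hz
  have hzφ : z = φ' x (Γ' x ζ) := (c' x).Φin ζ hζm hζ1
  have hz1 : z ∈ ball (0 : ℂ) 1 := by
    rw [hzφ, mem_ball_zero_iff]; exact (c' x).φm _ hw'Ω'
  have hψz : ψ' x z = Γ' x ζ := by rw [hzφ]; exact (c' x).ψφ _ hw'Ω'
  have hχ := hlχ z hz1
  rw [hψz, e2 _ hw'Ω] at hχ
  have hΦ : Φ ζ = φ (Γ ζ) := c.Φin ζ hζm hζ1
  have hφw : ‖φ (Γ' x ζ)‖ ≤ M₀ + ε₁ := by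
    have h1 : ‖φ (Γ' x ζ)‖ ≤ ‖φ (Γ' x ζ) - φ (Γ ζ)‖ + ‖φ (Γ ζ)‖ := by
      have := norm_add_le (φ (Γ' x ζ) - φ (Γ ζ)) (φ (Γ ζ))
      rwa [sub_add_cancel] at this
    have h2 := (hM _ hwC).trans (le_max_left M 0)
    linarith
  have hzr : ‖z‖ ≤ r := by
    have h1 : ‖φ (Γ' x ζ)‖ = ‖z‖ * Real.exp (l z).re := by
      rw [hχ, norm_mul, Complex.norm_exp]
    have h2 : Real.exp (-η) ≤ Real.exp (l z).re :=
      Real.exp_le_exp.2 (by have := (abs_le.1 (hlr z hz1)).1; linarith)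
    have h3 : 1 - η ≤ Real.exp (-η) := by have := Real.add_one_le_exp (-η); linarith
    have h4 : ‖z‖ * (1 - η) ≤ M₀ + ε₁ := by
      calc ‖z‖ * (1 - η) ≤ ‖z‖ * Real.exp (l z).re :=
            mul_le_mul_of_nonneg_left (h3.trans h2) (norm_nonneg _)
        _ = ‖φ (Γ' x ζ)‖ := h1.symm
        _ ≤ M₀ + ε₁ := hφw
    have h5 : ‖z‖ ≤ 1 := (mem_ball_zero_iff.1 hz1).le
    rw [hr]
    nlinarith [norm_nonneg z]
  have h1 : z - φ (Γ' x ζ) = -(z * (exp (l z) - 1)) := by rw [hχ]; ring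
  have h2 : ‖z - φ (Γ' x ζ)‖ ≤ 2 * κ := by
    rw [h1, norm_neg, norm_mul]
    have h3 := hlb z hzr
    have h4 := Complex.norm_exp_sub_one_le (x := l z) (h3.trans (by linarith))
    have h5 : ‖z‖ ≤ 1 := (mem_ball_zero_iff.1 hz1).le
    nlinarith [norm_nonneg z, norm_nonneg (exp (l z) - 1)]
  have h3 : z - Φ ζ = (z - φ (Γ' x ζ)) + (φ (Γ' x ζ) - φ (Γ ζ)) := by rw [hΦ]; ring
  rw [h3]
  have h4 := norm_add_le (z - φ (Γ' x ζ)) (φ (Γ' x ζ) - φ (Γ ζ))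
  linarith

/-- convergence of `Φ` on closed annuli -/
theorem Φ_tendsto (c : CM R Γ Ω φ ψ g Φ) (h : AC R Γ) (h' : ∀ x, AC R (Γ' x))
    (c' : ∀ x, CM R (Γ' x) (Ω' x) (φ' x) (ψ' x) (g' x) (Φ' x))
    (hΓ : ∀ a b, R⁻¹ < a → b < R → ∀ ε > 0, ∀ᶠ x in L, ∀ ζ : ℂ, a ≤ ‖ζ‖ → ‖ζ‖ ≤ b →
      ‖Γ' x ζ - Γ ζ‖ < ε) {a b : ℝ} (ha : R⁻¹ < a) (hb : b < R) {ε : ℝ} (hε : 0 < ε) :
    ∀ᶠ x in L, ∀ ζ : ℂ, a ≤ ‖ζ‖ → ‖ζ‖ ≤ b → ‖Φ' x ζ - Φ ζ‖ < ε := by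
  set b₁ := max b 1 with hb₁
  have hb1 : b₁ < R := max_lt hb h.hR
  have hb10 : 0 < b₁ := lt_of_lt_of_le one_pos (le_max_right _ _)
  have hRb : R⁻¹ < b₁⁻¹ := inv_strictAnti₀ hb10 hb1
  obtain ⟨a', ha', ha''⟩ := exists_between (lt_min (lt_min ha h.Ri) hRb)
  have ha1 : a' < a := ha''.trans_le ((min_le_left _ _).trans (min_le_left _ _))
  have ha2 : a' < 1 := ha''.trans_le ((min_le_left _ _).trans (min_le_right _ _))
  have ha3 : a' < b₁⁻¹ := ha''.trans_le (min_le_right _ _)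
  have ha0 : 0 < a' := h.Ri0.trans ha'
  have hbi : b < a'⁻¹ := by
    have : b₁ < a'⁻¹ := by rwa [lt_inv_comm₀ hb10 ha0]
    exact (le_max_left _ _).trans_lt this
  have haR : a'⁻¹ < R := by rw [inv_lt_comm₀ ha0 h.R0]; exact ha'
  have hsub : sphere (0 : ℂ) a' ⊆ ann R⁻¹ R := h.sph ha' (ha2.trans h.hR)
  obtain ⟨m, hm0, hm⟩ : ∃ m > 0, ∀ ζ ∈ sphere (0 : ℂ) a', m ≤ ‖Φ ζ‖ := by
    obtain ⟨ζ, hζ, hmin⟩ := (isCompact_sphere (0 : ℂ) a').exists_isMinOn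
      (NormedSpace.sphere_nonempty.2 ha0.le) (c.Φd.continuousOn.mono hsub).norm
    exact ⟨‖Φ ζ‖, norm_pos_iff.2 (c.Φne (hsub hζ)), fun y hy => hmin hy⟩
  set ε₁ := min (ε / 2) (min (m / 2) (ε / 4 * m ^ 2)) with hε₁
  have hε₁0 : 0 < ε₁ := lt_min (by linarith) (lt_min (by linarith) (by positivity))
  have hε₁1 : ε₁ ≤ ε / 2 := min_le_left _ _
  have hε₁2 : ε₁ ≤ m / 2 := (min_le_right _ _).trans (min_le_left _ _)
  have hε₁3 : ε₁ ≤ ε / 4 * m ^ 2 := (min_le_right _ _).trans (min_le_right _ _)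
  filter_upwards [c.Φ_tendsto_in h h' c' hΓ ha' ha2 hε₁0] with x hx
  have hin : ∀ z : ℂ, ‖z‖ = a' → ‖Φ' x z - Φ z‖ ≤ ε / 2 := fun z hz =>
    ((hx z hz).trans_le hε₁1).le
  have hout : ∀ z : ℂ, ‖z‖ = a'⁻¹ → ‖Φ' x z - Φ z‖ ≤ ε / 2 := by
    intro z hz
    have hzm : z ∈ ann R⁻¹ R := by
      refine ⟨?_, by rw [hz]; exact haR⟩
      rw [hz]
      exact h.Ri.trans ((one_lt_inv₀ ha0).2 ha2)
    set y := (conj z)⁻¹ with hy
    have hyn : ‖y‖ = a' := by rw [hy, norm_inv, RCLike.norm_conj, hz, inv_inv]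
    have h1 := c.Φr z hzm
    have h2 := (c' x).Φr z hzm
    rw [← hy] at h1 h2
    have h3 := hx y hyn
    have h4 := hm y (mem_sphere_zero_iff_norm.2 hyn)
    have h5 : m / 2 ≤ ‖Φ' x y‖ := by
      have h6 : ‖Φ y‖ ≤ ‖Φ' x y‖ + ‖Φ' x y - Φ y‖ := by
        have := norm_sub_le (Φ' x y) (Φ' x y - Φ y)
        rwa [sub_sub_cancel] at this
      linarith
    have h6 : Φ y ≠ 0 := norm_pos_iff.1 (by linarith)
    have h7 : Φ' x y ≠ 0 := norm_pos_iff.1 (by linarith)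
    have h8 : ‖Φ' x z - Φ z‖ = ‖Φ' x y - Φ y‖ / (‖Φ y‖ * ‖Φ' x y‖) := by
      have h9 : conj (Φ z) = (Φ y)⁻¹ := eq_inv_of_mul_eq_one_left h1
      have h10 : conj (Φ' x z) = (Φ' x y)⁻¹ := eq_inv_of_mul_eq_one_left h2
      rw [← RCLike.norm_conj (Φ' x z - Φ z), map_sub, h9, h10, inv_sub_inv h7 h6, norm_div,
        norm_mul, norm_sub_rev, mul_comm]
    rw [h8, div_le_iff₀ (by positivity)]
    have h9 : m * (m / 2) ≤ ‖Φ y‖ * ‖Φ' x y‖ := mul_le_mul h4 h5 (by linarith) (by linarith)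
    nlinarith
  intro ζ h1 h2
  have h3 := max_ann (a := a') (b := a'⁻¹) ha' haR (f := fun z => Φ' x z - Φ z)
    ((c' x).Φd.sub c.Φd) (C := ε / 2) hin hout (ha1.le.trans h1) (h2.trans hbi.le)
  linarith

end CM

end Vale.Agent.P220.H64
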