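import Vale.Agent.P220.H64.Defs

/-!
# Smooth families of embedded curves in the cylinder and their isotopies
-/

open Set Complex Filter Topology
open scoped ContDiff

namespace Vale.Agent.P220.H64

variable {m : ℕ}

/-- a smooth family of embedded curves in the cylinder, `w = η + i θ` -/
structure IsCurveFam (w : V m → ℂ) : Prop where
  smooth : ContDiff ℝ ∞ w
  equiv : ∀ x k l, w (x + lat k l) = w x + l * I
  inj : ∀ b t t', w (b, t) = w (b, t') → t = t'
  imm : ∀ b t, deriv (fun r => w (b, r)) t ≠ 0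

/-- smooth isotopy of families of curves -/
def Iso (w₀ w₁ : V m → ℂ) : Prop := ∃ W : ℝ × V m → ℂ, ContDiff ℝ ∞ W ∧
  (∀ s, IsCurveFam fun x => W (s, x)) ∧ (∀ s ≤ 0, ∀ x, W (s, x) = w₀ x) ∧
    ∀ s, 1 ≤ s → ∀ x, W (s, x) = w₁ x

theorem Iso.left {w₀ w₁ : V m → ℂ} (h : Iso w₀ w₁) : IsCurveFam w₀ := by
  obtain ⟨W, _, h2, h3, _⟩ := h
  have := h2 0
  rwa [show (fun x => W (0, x)) = w₀ from funext fun x => h3 0 le_rfl x] at this

theorem Iso.right {w₀ w₁ : V m → ℂ} (h : Iso w₀ w₁) : IsCurveFam w₁ := by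
  obtain ⟨W, _, h2, _, h4⟩ := h
  have := h2 1
  rwa [show (fun x => W (1, x)) = w₁ from funext fun x => h4 1 le_rfl x] at this

theorem Iso.refl {w : V m → ℂ} (h : IsCurveFam w) : Iso w w :=
  ⟨fun y => w y.2, h.smooth.comp contDiff_snd, fun _ => h, fun _ _ _ => rfl, fun _ _ _ => rfl⟩

theorem Iso.symm {w₀ w₁ : V m → ℂ} (h : Iso w₀ w₁) : Iso w₁ w₀ := by
  obtain ⟨W, h1, h2, h3, h4⟩ := h
  refine ⟨fun y => W (1 - y.1, y.2), ?_, fun s => h2 (1 - s), fun s hs x => ?_, fun s hs x => ?_⟩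
  · exact h1.comp ((contDiff_const.sub contDiff_fst).prodMk contDiff_snd)
  · exact h4 _ (by linarith) x
  · exact h3 _ (by linarith) x

theorem Iso.trans {w₀ w₁ w₂ : V m → ℂ} (h : Iso w₀ w₁) (h' : Iso w₁ w₂) : Iso w₀ w₂ := by
  obtain ⟨W, h1, h2, h3, h4⟩ := h
  obtain ⟨W', h1', h2', h3', h4'⟩ := h'
  set U : ℝ × V m → ℂ := fun y => if y.1 ≤ 1 / 2 then W (3 * y.1, y.2) else W' (3 * y.1 - 2, y.2)
    with hU
  have hl : ∀ y : ℝ × V m, y.1 < 2 / 3 → U y = W (3 * y.1, y.2) := by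
    intro y hy
    by_cases h : y.1 ≤ 1 / 2
    · simp only [hU, if_pos h]
    · simp only [hU, if_neg h]
      rw [h3' _ (by linarith), h4 _ (by linarith)]
  have hr : ∀ y : ℝ × V m, 1 / 3 < y.1 → U y = W' (3 * y.1 - 2, y.2) := by
    intro y hy
    by_cases h : y.1 ≤ 1 / 2
    · simp only [hU, if_pos h]
      rw [h3' _ (by linarith), h4 _ (by linarith)]
    · simp only [hU, if_neg h]
  refine ⟨U, ?_, fun s => ?_, fun s hs x => ?_, fun s hs x => ?_⟩
  · rw [contDiff_iff_contDiffAt]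
    intro y
    rcases lt_or_ge y.1 (1 / 2) with hy | hy
    · have h5 : U =ᶠ[𝓝 y] fun y => W (3 * y.1, y.2) := by
        have : ∀ᶠ z : ℝ × V m in 𝓝 y, z.1 < 1 / 2 :=
          continuous_fst.continuousAt.eventually_lt continuousAt_const hy
        filter_upwards [this] with z hz
        exact hl z (by linarith)
      refine ContDiffAt.congr_of_eventuallyEq ?_ h5
      exact (h1.comp ((contDiff_const.mul contDiff_fst).prodMk contDiff_snd)).contDiffAt
    · have h5 : U =ᶠ[𝓝 y] fun y => W' (3 * y.1 - 2, y.2) := by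
        have : ∀ᶠ z : ℝ × V m in 𝓝 y, 1 / 3 < z.1 :=
          continuousAt_const.eventually_lt continuous_fst.continuousAt (by linarith)
        filter_upwards [this] with z hz
        exact hr z hz
      refine ContDiffAt.congr_of_eventuallyEq ?_ h5
      exact (h1'.comp (((contDiff_const.mul contDiff_fst).sub contDiff_const).prodMk
        contDiff_snd)).contDiffAt
  · rcases le_or_gt s (1 / 2) with hs | hs
    · rw [show (fun x => U (s, x)) = fun x => W (3 * s, x) from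
        funext fun x => hl (s, x) (by show s < 2 / 3; linarith)]
      exact h2 _
    · rw [show (fun x => U (s, x)) = fun x => W' (3 * s - 2, x) from
        funext fun x => hr (s, x) (by show 1 / 3 < s; linarith)]
      exact h2' _
  · rw [hl (s, x) (by show s < 2 / 3; linarith)]
    exact h3 _ (by show 3 * s ≤ 0; linarith) x
  · rw [hr (s, x) (by show 1 / 3 < s; linarith)]
    exact h4' _ (by show 1 ≤ 3 * s - 2; linarith) x

/-- lower Lipschitz bound -/
def Emb (c : ℝ) (v : ℝ → ℂ) : Prop := ∀ t t', c * |t - t'| ≤ ‖v t - v t'‖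

theorem Emb.max {c c' : ℝ} {v : ℝ → ℂ} (h : Emb c v) (h' : Emb c' v) : Emb (max c c') v := by
  intro t t'
  rcases max_choice c c' with h1 | h1
  · rw [h1]; exact h t t'
  · rw [h1]; exact h' t t'

theorem Emb.inj {c : ℝ} {v : ℝ → ℂ} (hc : 0 < c) (h : Emb c v) {t t' : ℝ} (ht : v t = v t') :
    t = t' := by
  have := h t t'
  rw [ht, sub_self, norm_zero] at this
  have h2 : |t - t'| ≤ 0 := by
    by_contra hcon
    have : 0 < c * |t - t'| := mul_pos hc (not_le.1 hcon)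
    linarith
  exact sub_eq_zero.1 (abs_eq_zero.1 (le_antisymm h2 (abs_nonneg _)))

theorem Emb.deriv_le {c : ℝ} {v : ℝ → ℂ} (h : Emb c v) {t : ℝ} {d : ℂ} (hd : HasDerivAt v d t) :
    c ≤ ‖d‖ := by
  have h1 := (hasDerivAt_iff_tendsto_slope.1 hd).norm
  refine ge_of_tendsto h1 ?_
  filter_upwards [self_mem_nhdsWithin] with t' ht'
  have h2 : 0 < |t' - t| := abs_pos.2 (sub_ne_zero.2 ht')
  rw [slope_def_module, norm_smul, norm_inv, Real.norm_eq_abs, inv_mul_eq_div, le_div_iff₀ h2]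
  exact h t' t

theorem emb_of_close {c ε : ℝ} {v u : ℝ → ℂ} (h : Emb c v) {D D' : ℝ → ℂ}
    (hv : ∀ t, HasDerivAt v (D t) t) (hu : ∀ t, HasDerivAt u (D' t) t)
    (hD : ∀ t, ‖D' t - D t‖ ≤ ε) : Emb (c - ε) u := by
  intro t t'
  have h1 : ‖(u t - v t) - (u t' - v t')‖ ≤ ε * ‖t - t'‖ := by
    refine Convex.norm_image_sub_le_of_norm_hasDerivWithin_le (f := fun t => u t - v t)
      (f' := fun t => D' t - D t) (s := univ) (fun x _ => ?_) (fun x _ => hD x) convex_univ
      (mem_univ _) (mem_univ _)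
    exact ((hu x).sub (hv x)).hasDerivWithinAt
  have h2 := h t t'
  have h3 : v t - v t' = (u t - u t') - ((u t - v t) - (u t' - v t')) := by ring
  have h4 : ‖v t - v t'‖ ≤ ‖u t - u t'‖ + ‖(u t - v t) - (u t' - v t')‖ := by
    rw [h3]; exact norm_sub_le _ _
  rw [Real.norm_eq_abs] at h1
  nlinarith

theorem IsCurveFam.hasDerivAt {w : V m → ℂ} (hw : ContDiff ℝ ∞ w) (b : Fin m → ℝ) (t : ℝ) :
    HasDerivAt (fun r => w (b, r)) (deriv (fun r => w (b, r)) t) t := by
  have h : ContDiff ℝ ∞ fun r : ℝ => w (b, r) := hw.comp (contDiff_const.prodMk contDiff_id)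
  exact (h.differentiable (by simp) t).hasDerivAt

/-- the straight line between two families close to an embedded one -/
theorem iso_of_close {w₀ w₁ : V m → ℂ} (h₀ : ContDiff ℝ ∞ w₀) (h₁ : ContDiff ℝ ∞ w₁)
    (e₀ : ∀ x k l, w₀ (x + lat k l) = w₀ x + l * I) (e₁ : ∀ x k l, w₁ (x + lat k l) = w₁ x + l * I)
    {v D : (Fin m → ℝ) → ℝ → ℂ} (hv : ∀ b t, HasDerivAt (v b) (D b t) t) {c : ℝ} (hc : 0 < c)
    (hE : ∀ b, Emb c (v b)) (c₀ : ∀ b t, ‖deriv (fun r => w₀ (b, r)) t - D b t‖ ≤ c / 2)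
    (c₁ : ∀ b t, ‖deriv (fun r => w₁ (b, r)) t - D b t‖ ≤ c / 2) : Iso w₀ w₁ := by
  set lam : ℝ → ℝ := Real.smoothTransition with hlam
  refine ⟨fun y => ((1 - lam y.1 : ℝ) : ℂ) * w₀ y.2 + ((lam y.1 : ℝ) : ℂ) * w₁ y.2,
    ?_, fun s => ?_, fun s hs x => ?_, fun s hs x => ?_⟩
  · have hl : ContDiff ℝ ∞ fun y : ℝ × V m => lam y.1 :=
      Real.smoothTransition.contDiff.comp contDiff_fst
    exact ((Complex.ofRealCLM.contDiff.comp (contDiff_const.sub hl)).mul (h₀.comp contDiff_snd)).add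
      ((Complex.ofRealCLM.contDiff.comp hl).mul (h₁.comp contDiff_snd))
  · have hu : ∀ b t, HasDerivAt (fun r => ((1 - lam s : ℝ) : ℂ) * w₀ (b, r) +
        ((lam s : ℝ) : ℂ) * w₁ (b, r)) (((1 - lam s : ℝ) : ℂ) * deriv (fun r => w₀ (b, r)) t +
        ((lam s : ℝ) : ℂ) * deriv (fun r => w₁ (b, r)) t) t := fun b t =>
      ((IsCurveFam.hasDerivAt h₀ b t).const_mul _).add ((IsCurveFam.hasDerivAt h₁ b t).const_mul _)
    have hl0 : 0 ≤ lam s := Real.smoothTransition.nonneg s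
    have hl1 : lam s ≤ 1 := Real.smoothTransition.le_one s
    have hcl : ∀ b t, ‖(((1 - lam s : ℝ) : ℂ) * deriv (fun r => w₀ (b, r)) t +
        ((lam s : ℝ) : ℂ) * deriv (fun r => w₁ (b, r)) t) - D b t‖ ≤ c / 2 := by
      intro b t
      have h1 : (((1 - lam s : ℝ) : ℂ) * deriv (fun r => w₀ (b, r)) t +
        ((lam s : ℝ) : ℂ) * deriv (fun r => w₁ (b, r)) t) - D b t =
        ((1 - lam s : ℝ) : ℂ) * (deriv (fun r => w₀ (b, r)) t - D b t) +
        ((lam s : ℝ) : ℂ) * (deriv (fun r => w₁ (b, r)) t - D b t) := by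
        push_cast; ring
      rw [h1]
      refine (norm_add_le _ _).trans ?_
      rw [norm_mul, norm_mul, Complex.norm_real, Complex.norm_real, Real.norm_of_nonneg hl0,
        Real.norm_of_nonneg (by linarith : 0 ≤ 1 - lam s)]
      have := mul_le_mul_of_nonneg_left (c₀ b t) (by linarith : 0 ≤ 1 - lam s)
      have := mul_le_mul_of_nonneg_left (c₁ b t) hl0
      linarith
    have hE' : ∀ b, Emb (c - c / 2) (fun r => ((1 - lam s : ℝ) : ℂ) * w₀ (b, r) +
        ((lam s : ℝ) : ℂ) * w₁ (b, r)) := fun b => emb_of_close (hE b) (hv b) (hu b) (hcl b)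
    refine ⟨?_, fun x k l => ?_, fun b t t' h => ?_, fun b t h => ?_⟩
    · show ContDiff ℝ ∞ fun x => ((1 - lam s : ℝ) : ℂ) * w₀ x + ((lam s : ℝ) : ℂ) * w₁ x
      exact (contDiff_const.mul h₀).add (contDiff_const.mul h₁)
    · simp only [e₀, e₁]; push_cast; ring
    · exact (hE' b).inj (by linarith) h
    · have h1 := (hE' b).deriv_le (hu b t)
      have h2 := (hu b t).deriv
      rw [h2] at h
      rw [h, norm_zero] at h1
      linarith
  · have : lam s = 0 := Real.smoothTransition.zero_of_nonpos hs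
    simp [this]
  · have : lam s = 1 := Real.smoothTransition.one_of_one_le hs
    simp [this]

end Vale.Agent.P220.H64
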