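import Vale.Agent.P220.H64.Hopf

/-!
# Comparison of the conformal data of two close curves
-/

open Set Metric Filter Topology Complex Bornology
open scoped ComplexConjugate Real

namespace Vale.Agent.P220.H64

open Vale.Agent.P116.FK

/-- a neighbourhood of the unit circle contains a small annulus -/
theorem exists_ann_sub {R : ℝ} (hR : 1 < R) {U : Set ℂ} (hU : IsOpen U)
    (hs : sphere (0 : ℂ) 1 ⊆ U) :
    ∃ ρ₁ ρ₂, R⁻¹ < ρ₁ ∧ ρ₁ < 1 ∧ 1 < ρ₂ ∧ ρ₂ < R ∧ ∀ ζ : ℂ, ρ₁ ≤ ‖ζ‖ → ‖ζ‖ ≤ ρ₂ → ζ ∈ U := by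
  obtain ⟨δ, hδ, hδU⟩ := (isCompact_sphere (0 : ℂ) 1).exists_thickening_subset_open hU hs
  have hRi : R⁻¹ < 1 := inv_lt_one_of_one_lt₀ hR
  have hRi0 : 0 < R⁻¹ := inv_pos.2 (by linarith)
  set d := min (δ / 2) (min ((1 - R⁻¹) / 2) ((R - 1) / 2)) with hd
  have hd0 : 0 < d := lt_min (by linarith) (lt_min (by linarith) (by linarith))
  have hd1 : d ≤ δ / 2 := min_le_left _ _
  have hd2 : d ≤ (1 - R⁻¹) / 2 := (min_le_right _ _).trans (min_le_left _ _)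
  have hd3 : d ≤ (R - 1) / 2 := (min_le_right _ _).trans (min_le_right _ _)
  refine ⟨1 - d, 1 + d, by linarith, by linarith, by linarith, by linarith, fun ζ h1 h2 => ?_⟩
  apply hδU
  have hζ0 : 0 < ‖ζ‖ := by linarith
  rw [mem_thickening_iff]
  refine ⟨ζ / ‖ζ‖, ?_, ?_⟩
  · rw [mem_sphere_zero_iff_norm, norm_div, Complex.norm_real, norm_norm, div_self hζ0.ne']
  · have h3 : ζ - ζ / ‖ζ‖ = ((1 - ‖ζ‖⁻¹ : ℝ) : ℂ) * ζ := by
      push_cast; ring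
    rw [dist_eq_norm, h3, norm_mul, Complex.norm_real, Real.norm_eq_abs]
    have h4 : |1 - ‖ζ‖⁻¹| * ‖ζ‖ = |‖ζ‖ - 1| := by
      rw [← abs_of_pos hζ0, ← abs_mul, abs_of_pos hζ0]
      congr 1
      field_simp
    rw [h4, abs_lt]
    constructor <;> linarith

namespace CM

variable {R : ℝ} {Γ : ℂ → ℂ} {Ω : Set ℂ} {φ ψ g Φ : ℂ → ℂ}

/-- topological comparison -/
theorem near (c : CM R Γ Ω φ ψ g Φ) (h : AC R Γ) {ρ₁ ρ₂ : ℝ} (h1 : R⁻¹ < ρ₁) (h1' : ρ₁ < 1)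
    (h2 : 1 < ρ₂) (h2' : ρ₂ < R) :
    ∃ b ε, 1 < b ∧ b < R ∧ 0 < ε ∧ ∀ Γ' Ω' φ' ψ' g' Φ', AC R Γ' →
      CM R Γ' Ω' φ' ψ' g' Φ' → (∀ ζ : ℂ, 1 ≤ ‖ζ‖ → ‖ζ‖ ≤ b → ‖Γ' ζ - Γ ζ‖ < ε) →
      Ω' ⊆ Ω ∪ Γ '' ann ρ₁ ρ₂ ∧ Γ' '' sphere 0 1 ⊆ Γ '' ann ρ₁ ρ₂ := by
  have hRi := h.Ri
  have hRi0 := h.Ri0
  set r := min ((ρ₂ - 1) / 2) ((R - ρ₂) / 2) with hr
  have hr0 : 0 < r := lt_min (by linarith) (by linarith)
  have hr1 : r ≤ (ρ₂ - 1) / 2 := min_le_left _ _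
  have hr2 : r ≤ (R - ρ₂) / 2 := min_le_right _ _
  have hbig : ∀ ζ₀ : ℂ, ‖ζ₀‖ = ρ₂ → ∀ ζ ∈ closedBall ζ₀ r, 1 < ‖ζ‖ ∧ ‖ζ‖ ≤ ρ₂ + r := by
    intro ζ₀ hζ₀ ζ hζ
    rw [mem_closedBall, dist_eq_norm] at hζ
    have h3 := norm_sub_norm_le ζ₀ ζ
    have h4 := norm_sub_norm_le ζ ζ₀
    rw [norm_sub_rev] at h3
    constructor <;> linarith
  -- the minimum
  obtain ⟨m, hm0, hm⟩ : ∃ m > 0, ∀ ζ₀ : ℂ, ‖ζ₀‖ = ρ₂ → ∀ ζ ∈ sphere ζ₀ r,
      m ≤ ‖Γ ζ - Γ ζ₀‖ := by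
    have hsub : ∀ y ∈ sphere (0 : ℂ) ρ₂ ×ˢ sphere (0 : ℂ) r, y.1 ∈ ann R⁻¹ R ∧
        y.1 + y.2 ∈ ann R⁻¹ R := by
      rintro ⟨y, u⟩ ⟨hy, hu⟩
      rw [mem_sphere_zero_iff_norm] at hy hu
      simp only at hy hu
      have h3 := hbig y hy (y + u) (by rw [mem_closedBall, dist_eq_norm, add_sub_cancel_left, hu])
      exact ⟨⟨by rw [hy]; linarith, by rw [hy]; linarith⟩, by linarith [h3.1], by linarith [h3.2]⟩
    have hcont : ContinuousOn (fun y : ℂ × ℂ => ‖Γ (y.1 + y.2) - Γ y.1‖)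
        (sphere (0 : ℂ) ρ₂ ×ˢ sphere (0 : ℂ) r) := by
      refine ContinuousOn.norm (ContinuousOn.sub ?_ ?_)
      · exact h.diff.continuousOn.comp (by fun_prop) fun y hy => (hsub y hy).2
      · exact h.diff.continuousOn.comp (by fun_prop) fun y hy => (hsub y hy).1
    obtain ⟨y, hy, hmin⟩ := ((isCompact_sphere (0 : ℂ) ρ₂).prod
      (isCompact_sphere (0 : ℂ) r)).exists_isMinOn
      ((NormedSpace.sphere_nonempty.2 (by linarith)).prod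
        (NormedSpace.sphere_nonempty.2 hr0.le)) hcont
    refine ⟨‖Γ (y.1 + y.2) - Γ y.1‖, norm_pos_iff.2 (sub_ne_zero.2 fun h3 => ?_),
      fun ζ₀ hζ₀ ζ hζ => ?_⟩
    · have h4 := h.inj (hsub y hy).2 (hsub y hy).1 h3
      have h5 : y.2 = 0 := by simpa using h4
      have h6 := mem_sphere_zero_iff_norm.1 hy.2
      rw [h5, norm_zero] at h6
      linarith
    · have h3 := hmin (show (ζ₀, ζ - ζ₀) ∈ sphere (0 : ℂ) ρ₂ ×ˢ sphere (0 : ℂ) r from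
        ⟨mem_sphere_zero_iff_norm.2 hζ₀, by
          rw [mem_sphere_zero_iff_norm, ← dist_eq_norm]; exact hζ⟩)
      simpa using h3
  have hss : ann ρ₁ ρ₂ ⊆ ann R⁻¹ R := fun z hz => ⟨h1.trans hz.1, hz.2.trans h2'⟩
  have hopen : IsOpen (Γ '' ann ρ₁ ρ₂) := isOpen_image_of_injOn (isOpen_ann _ _)
    (h.diff.mono hss) (h.inj.mono hss)
  obtain ⟨ε₂, hε₂, hth⟩ := (h.compact_im h.Ri h.hR).exists_thickening_subset_open hopen
    (image_mono (show sphere (0 : ℂ) 1 ⊆ ann ρ₁ ρ₂ from fun z hz => by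
      rw [mem_sphere_zero_iff_norm] at hz
      exact ⟨by rw [hz]; exact h1', by rw [hz]; exact h2⟩))
  refine ⟨ρ₂ + r, min (m / 8) ε₂, by linarith, by linarith, lt_min (by linarith) hε₂, ?_⟩
  intro Γ' Ω' φ' ψ' g' Φ' h' c' hcl
  have hT2 : Γ' '' sphere 0 1 ⊆ Γ '' ann ρ₁ ρ₂ := by
    rintro _ ⟨ζ, hζ, rfl⟩
    apply hth
    rw [mem_thickening_iff]
    refine ⟨Γ ζ, ⟨ζ, hζ, rfl⟩, ?_⟩
    rw [mem_sphere_zero_iff_norm] at hζ
    rw [dist_eq_norm]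
    exact (hcl ζ hζ.ge (by linarith)).trans_le (min_le_right _ _)
  refine ⟨?_, hT2⟩
  -- the outer curve is outside of `Ω'`
  have hout : ∀ ζ₀ : ℂ, ‖ζ₀‖ = ρ₂ → Γ ζ₀ ∉ Ω' := by
    intro ζ₀ hζ₀
    have hsub : closedBall ζ₀ r ⊆ ann R⁻¹ R := fun ζ hζ => by
      have := hbig ζ₀ hζ₀ ζ hζ
      exact ⟨by linarith [this.1], by linarith [this.2]⟩
    have hd : DiffContOnCl ℂ Γ' (ball ζ₀ r) := by
      refine DifferentiableOn.diffContOnCl ?_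
      rw [closure_ball _ hr0.ne']
      exact h'.diff.mono hsub
    have hlow : ∀ z ∈ sphere ζ₀ r, m / 2 ≤ ‖Γ' z - Γ' ζ₀‖ := by
      intro z hz
      have h3 := hm ζ₀ hζ₀ z hz
      have h4 := hbig ζ₀ hζ₀ z (sphere_subset_closedBall hz)
      have h5 := hcl z h4.1.le h4.2
      have h6 := hcl ζ₀ (by linarith) (by linarith)
      have h7 : Γ z - Γ ζ₀ = (Γ' z - Γ' ζ₀) - (Γ' z - Γ z) + (Γ' ζ₀ - Γ ζ₀) := by ring
      have h8 : ‖Γ z - Γ ζ₀‖ ≤ ‖Γ' z - Γ' ζ₀‖ + ‖Γ' z - Γ z‖ + ‖Γ' ζ₀ - Γ ζ₀‖ := by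
        rw [h7]
        exact (norm_add_le _ _).trans (add_le_add (norm_sub_le _ _) le_rfl)
      have h9 : min (m / 8) ε₂ ≤ m / 8 := min_le_left _ _
      linarith
    have hζ₀m : ζ₀ ∈ ann R⁻¹ R := hsub (mem_closedBall_self hr0.le)
    have hfr : ∃ᶠ z in 𝓝 ζ₀, Γ' z ≠ Γ' ζ₀ := by
      have : ∀ᶠ z in 𝓝[≠] ζ₀, Γ' z ≠ Γ' ζ₀ := by
        filter_upwards [self_mem_nhdsWithin,
          mem_nhdsWithin_of_mem_nhds ((isOpen_ann _ _).mem_nhds hζ₀m)] with z hz hz' h3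
        exact hz (h'.inj hz' hζ₀m h3)
      exact this.frequently.filter_mono nhdsWithin_le_nhds
    have hsurj := hd.ball_subset_image_closedBall hr0 hlow hfr
    have h3 : Γ ζ₀ ∈ ball (Γ' ζ₀) (m / 2 / 2) := by
      rw [mem_ball, dist_eq_norm, norm_sub_rev]
      have h6 := hcl ζ₀ (by linarith) (by linarith)
      have h9 : min (m / 8) ε₂ ≤ m / 8 := min_le_left _ _
      linarith
    obtain ⟨ζ, hζ, h4⟩ := hsurj h3
    rw [← h4, c'.mem ζ (hsub hζ)]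
    exact not_lt.2 (hbig ζ₀ hζ₀ ζ hζ).1.le
  -- the closure
  set Y := Ω ∪ Γ '' ann ρ₁ ρ₂ with hY
  set A : Set ℂ := {z | ρ₁ ≤ ‖z‖ ∧ ‖z‖ ≤ ρ₂} with hA
  have hAs : A ⊆ ann R⁻¹ R := fun z hz => ⟨h1.trans_le hz.1, hz.2.trans_lt h2'⟩
  have hAc : IsCompact A := by
    refine Metric.isCompact_of_isClosed_isBounded
      ((isClosed_le continuous_const continuous_norm).inter
        (isClosed_le continuous_norm continuous_const)) ?_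
    exact (isBounded_closedBall (x := (0 : ℂ)) (r := ρ₂)).subset fun w hw =>
      mem_closedBall_zero_iff.2 hw.2
  have hYcl : closure Y ⊆ Ω ∪ Γ '' A := by
    rw [hY, closure_union]
    have hs1 : sphere (0 : ℂ) 1 ⊆ A := fun z hz => by
      rw [mem_sphere_zero_iff_norm] at hz
      exact ⟨by rw [hz]; exact h1'.le, by rw [hz]; exact h2.le⟩
    have hs2 : ann ρ₁ ρ₂ ⊆ A := fun z hz => ⟨hz.1.le, hz.2.le⟩
    refine union_subset (c.clo.trans (union_subset_union_right _ (image_mono hs1))) ?_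
    · refine (closure_minimal (image_mono hs2) ?_).trans subset_union_right
      exact (hAc.image_of_continuousOn (h.diff.continuousOn.mono hAs)).isClosed
  refine c'.conn.subset_left_of_subset_union (c.isOpen.union hopen)
    isClosed_closure.isOpen_compl (disjoint_compl_right.mono_left subset_closure)
    (fun w hw => ?_) ⟨0, c'.h0, Or.inl c.h0⟩
  by_contra hcon
  rw [mem_union, not_or, mem_compl_iff, not_not] at hcon
  obtain ⟨hcon1, hcon2⟩ := hcon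
  rcases hYcl hcon2 with h3 | ⟨ζ, hζ, rfl⟩
  · exact hcon1 (Or.inl h3)
  · rcases hζ.2.eq_or_lt with h4 | h4
    · exact hout ζ h4 hw
    · refine hcon1 ?_
      rcases lt_or_ge ‖ζ‖ 1 with h5 | h5
      · exact Or.inl ((c.mem ζ (hAs hζ)).2 h5)
      · exact Or.inr ⟨ζ, ⟨h1'.trans_le h5, h4⟩, rfl⟩

/-- the extension of `φ` across the boundary -/
theorem exists_ext (c : CM R Γ Ω φ ψ g Φ) (h : AC R Γ) : ∃ φe : ℂ → ℂ,
    DifferentiableOn ℂ φe (Ω ∪ Γ '' ann R⁻¹ R) ∧ (∀ w ∈ Ω, φe w = φ w) ∧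
      ∀ ζ ∈ ann R⁻¹ R, φe (Γ ζ) = Φ ζ := by
  classical
  obtain ⟨k, hk, hkΓ⟩ := E.exists_inv (isOpen_ann _ _) h.diff h.inj
  have hopen : IsOpen (Γ '' ann R⁻¹ R) := isOpen_image_of_injOn (isOpen_ann _ _) h.diff h.inj
  set φe : ℂ → ℂ := fun w => if w ∈ Ω then φ w else Φ (k w) with hφe
  have h1 : ∀ w ∈ Ω, φe w = φ w := fun w hw => by simp only [hφe, if_pos hw]
  have h2 : ∀ ζ ∈ ann R⁻¹ R, φe (Γ ζ) = Φ ζ := by
    intro ζ hζ
    by_cases hw : Γ ζ ∈ Ω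
    · rw [h1 _ hw, c.Φin ζ hζ ((c.mem ζ hζ).1 hw)]
    · simp only [hφe, if_neg hw, hkΓ ζ hζ]
  refine ⟨φe, ?_, h1, h2⟩
  rintro w (hw | hw)
  · have h3 : φe =ᶠ[𝓝 w] φ := by
      filter_upwards [c.isOpen.mem_nhds hw] with x hx using h1 x hx
    exact ((c.φd.differentiableAt (c.isOpen.mem_nhds hw)).congr_of_eventuallyEq
      h3).differentiableWithinAt
  · have h3 : φe =ᶠ[𝓝 w] fun w => Φ (k w) := by
      filter_upwards [hopen.mem_nhds hw] with x hx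
      obtain ⟨ζ, hζ, rfl⟩ := hx
      rw [h2 ζ hζ, hkΓ ζ hζ]
    have h4 : DifferentiableAt ℂ k w := hk.differentiableAt (hopen.mem_nhds hw)
    have h5 : k w ∈ ann R⁻¹ R := by
      obtain ⟨ζ, hζ, rfl⟩ := hw
      rw [hkΓ ζ hζ]; exact hζ
    have h6 : DifferentiableAt ℂ Φ (k w) := c.Φd.differentiableAt ((isOpen_ann _ _).mem_nhds h5)
    exact ((h6.comp w h4).congr_of_eventuallyEq h3).differentiableWithinAt

theorem derivψ (c : CM R Γ Ω φ ψ g Φ) : HasDerivAt ψ (exp (g 0)) 0 := by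
  have hb0 : (0 : ℂ) ∈ ball (0 : ℂ) 1 := mem_ball_self one_pos
  have h1 : HasDerivAt g (deriv g 0) 0 :=
    (c.gd.differentiableAt (isOpen_ball.mem_nhds hb0)).hasDerivAt
  have h2 : HasDerivAt (fun z => z * exp (g z)) (1 * exp (g 0) + 0 * (exp (g 0) * deriv g 0)) 0 :=
    (hasDerivAt_id (0 : ℂ)).mul h1.cexp
  rw [one_mul, zero_mul, add_zero] at h2
  refine h2.congr_of_eventuallyEq ?_
  filter_upwards [isOpen_ball.mem_nhds hb0] with z hz using c.ψg z hz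

theorem derivφ (c : CM R Γ Ω φ ψ g Φ) : HasDerivAt φ (exp (-g 0)) 0 := by
  have hb0 : (0 : ℂ) ∈ ball (0 : ℂ) 1 := mem_ball_self one_pos
  have h1 : HasDerivAt φ (deriv φ 0) 0 :=
    (c.φd.differentiableAt (c.isOpen.mem_nhds c.h0)).hasDerivAt
  have h2 : HasDerivAt (fun z => φ (ψ z)) (deriv φ 0 * exp (g 0)) 0 := by
    have h3 : HasDerivAt φ (deriv φ 0) (ψ 0) := by rw [c.ψ0]; exact h1
    exact h3.comp 0 c.derivψ
  have h3 : HasDerivAt (fun z => φ (ψ z)) 1 0 := by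
    refine (hasDerivAt_id (0 : ℂ)).congr_of_eventuallyEq ?_
    filter_upwards [isOpen_ball.mem_nhds hb0] with z hz using c.φψ z hz
  have h4 := h2.unique h3
  have h5 : deriv φ 0 = exp (-g 0) := by
    rw [exp_neg]
    exact eq_inv_of_mul_eq_one_left h4
  rw [← h5]
  exact h1

/-- analytic comparison -/
theorem compare (c : CM R Γ Ω φ ψ g Φ) (h : AC R Γ) {φe : ℂ → ℂ}
    (e1 : DifferentiableOn ℂ φe (Ω ∪ Γ '' ann R⁻¹ R)) (e2 : ∀ w ∈ Ω, φe w = φ w)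
    (e3 : ∀ ζ ∈ ann R⁻¹ R, φe (Γ ζ) = Φ ζ) {η : ℝ} (hη : 0 < η) :
    ∃ b ε, 1 < b ∧ b < R ∧ 0 < ε ∧ ∀ Γ' Ω' φ' ψ' g' Φ', AC R Γ' →
      CM R Γ' Ω' φ' ψ' g' Φ' → (∀ ζ : ℂ, 1 ≤ ‖ζ‖ → ‖ζ‖ ≤ b → ‖Γ' ζ - Γ ζ‖ < ε) →
      Ω' ⊆ Ω ∪ Γ '' ann R⁻¹ R ∧ ∃ l : ℂ → ℂ, DifferentiableOn ℂ l (ball 0 1) ∧
        (∀ z ∈ ball (0 : ℂ) 1, |(l z).re| ≤ η) ∧ l 0 = g' 0 - g 0 ∧
        ∀ z ∈ ball (0 : ℂ) 1, φe (ψ' z) = z * exp (l z) := by
  -- the thin annulus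
  have hUo : IsOpen {ζ | ζ ∈ ann R⁻¹ R ∧ ‖Φ ζ‖ ∈ Ioo (Real.exp (-η)) (Real.exp η)} :=
    c.Φd.continuousOn.norm.isOpen_inter_preimage (isOpen_ann _ _) isOpen_Ioo
  obtain ⟨ρ₁, ρ₂, hρ1, hρ1', hρ2, hρ2', hρ⟩ := exists_ann_sub h.hR hUo (fun ζ hζ => by
    rw [mem_sphere_zero_iff_norm] at hζ
    refine ⟨h.mem1 hζ, ?_⟩
    rw [c.Φone h hζ]
    exact ⟨by rw [Real.exp_lt_one_iff]; linarith, Real.one_lt_exp_iff.2 hη⟩)
  obtain ⟨b, ε, hb, hb', hε, hnear⟩ := c.near h hρ1 hρ1' hρ2 hρ2'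
  refine ⟨b, ε, hb, hb', hε, fun Γ' Ω' φ' ψ' g' Φ' h' c' hcl => ?_⟩
  obtain ⟨hT1, hT2⟩ := hnear Γ' Ω' φ' ψ' g' Φ' h' c' hcl
  have hss : ann ρ₁ ρ₂ ⊆ ann R⁻¹ R := fun z hz => ⟨hρ1.trans hz.1, hz.2.trans hρ2'⟩
  have hsub : Γ '' ann ρ₁ ρ₂ ⊆ Γ '' ann R⁻¹ R := image_mono hss
  have hT1' : Ω' ⊆ Ω ∪ Γ '' ann R⁻¹ R := hT1.trans (union_subset_union_right _ hsub)
  refine ⟨hT1', ?_⟩
  have hopen : IsOpen (Γ '' ann ρ₁ ρ₂) := isOpen_image_of_injOn (isOpen_ann _ _)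
    (h.diff.mono hss) (h.inj.mono hss)
  have hup : ∀ w ∈ Ω', ‖φe w‖ ≤ Real.exp η := by
    intro w hw
    rcases hT1 hw with h1 | ⟨ζ, hζ, rfl⟩
    · rw [e2 w h1]
      exact (c.φm w h1).le.trans (Real.one_le_exp hη.le)
    · rw [e3 ζ ⟨hρ1.trans hζ.1, hζ.2.trans hρ2'⟩]
      exact (hρ ζ hζ.1.le hζ.2.le).2.2.le
  have hlow : ∀ w ∈ Γ '' ann ρ₁ ρ₂, Real.exp (-η) ≤ ‖φe w‖ := by
    rintro _ ⟨ζ, hζ, rfl⟩
    rw [e3 ζ ⟨hρ1.trans hζ.1, hζ.2.trans hρ2'⟩]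
    exact (hρ ζ hζ.1.le hζ.2.le).2.1.le
  set χ : ℂ → ℂ := fun z => φe (ψ' z) with hχ
  have hχd : DifferentiableOn ℂ χ (ball 0 1) :=
    e1.comp c'.ψd fun z hz => hT1' (c'.ψm z hz)
  have hb0 : (0 : ℂ) ∈ ball (0 : ℂ) 1 := mem_ball_self one_pos
  have hχ0 : χ 0 = 0 := by
    simp only [hχ, c'.ψ0]
    rw [e2 0 c.h0, c.φ0]
  have hχn : ∀ z ∈ ball (0 : ℂ) 1, z ≠ 0 → χ z ≠ 0 := by
    intro z hz hz0 h1
    have h2 : ψ' z = 0 := by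
      rcases hT1' (c'.ψm z hz) with h3 | ⟨ζ, hζ, h3⟩
      · simp only [hχ, e2 _ h3] at h1
        exact c.φzero h3 h1
      · simp only [hχ, ← h3] at h1
        rw [e3 ζ hζ] at h1
        exact absurd h1 (c.Φne hζ)
    rw [← c'.ψ0] at h2
    exact hz0 (c'.ψinj hz hb0 h2)
  have hder : HasDerivAt χ (exp (g' 0 - g 0)) 0 := by
    have h1 : HasDerivAt φe (exp (-g 0)) (ψ' 0) := by
      rw [c'.ψ0]
      refine c.derivφ.congr_of_eventuallyEq ?_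
      filter_upwards [c.isOpen.mem_nhds c.h0] with x hx using e2 x hx
    have h2 := h1.comp 0 c'.derivψ
    rw [← exp_add, neg_add_eq_sub] at h2
    exact h2
  set G := dslope χ 0 with hG
  have hGd : DifferentiableOn ℂ G (ball 0 1) :=
    (differentiableOn_dslope (isOpen_ball.mem_nhds hb0)).2 hχd
  have hG0 : G 0 = exp (g' 0 - g 0) := by rw [hG, dslope_same, hder.deriv]
  have hχG : ∀ z, χ z = z * G z := by
    intro z
    have := sub_smul_dslope χ 0 z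
    rw [hχ0, sub_zero, sub_zero, smul_eq_mul] at this
    exact this.symm
  have hGn : ∀ z ∈ ball (0 : ℂ) 1, G z ≠ 0 := by
    intro z hz h1
    by_cases hz0 : z = 0
    · rw [hz0, hG0] at h1
      exact exp_ne_zero _ h1
    · exact hχn z hz hz0 (by rw [hχG, h1, mul_zero])
  have hGup : ∀ z ∈ ball (0 : ℂ) 1, ‖G z‖ ≤ Real.exp η := by
    intro z hz
    have h1 : MapsTo χ (ball 0 1) (closedBall (χ 0) (Real.exp η)) := by
      intro x hx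
      rw [hχ0, mem_closedBall_zero_iff]
      exact hup _ (c'.ψm x hx)
    have := Complex.norm_dslope_le_div_of_mapsTo_ball hχd h1 hz
    rwa [div_one] at this
  -- lower bound near the boundary
  obtain ⟨r₀, hr₀, hr₀'⟩ : ∃ r₀ < 1, ∀ z ∈ ball (0 : ℂ) 1, r₀ < ‖z‖ → ψ' z ∈ Γ '' ann ρ₁ ρ₂ := by
    set T := closure Ω' ∩ (Γ '' ann ρ₁ ρ₂)ᶜ with hT
    have hTc : IsCompact T := Metric.isCompact_of_isClosed_isBounded
      (isClosed_closure.inter hopen.isClosed_compl) (c'.bdd.closure.subset inter_subset_left)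
    have hTs : T ⊆ Ω' := by
      rintro w ⟨hw, hw'⟩
      rcases c'.clo hw with h1 | h1
      · exact h1
      · exact absurd (hT2 h1) hw'
    obtain ⟨r₀, hr₀, hr₀'⟩ : ∃ r₀ < 1, ∀ w ∈ T, ‖φ' w‖ ≤ r₀ := by
      rcases T.eq_empty_or_nonempty with he | hne
      · exact ⟨0, one_pos, fun z hz => by rw [he] at hz; exact absurd hz (notMem_empty _)⟩
      · obtain ⟨w, hw, hmax⟩ := hTc.exists_isMaxOn hne (c'.φd.continuousOn.mono hTs).norm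
        exact ⟨‖φ' w‖, c'.φm w (hTs hw), fun y hy => hmax hy⟩
    refine ⟨r₀, hr₀, fun z hz hz' => ?_⟩
    by_contra hcon
    have h1 := hr₀' (ψ' z) ⟨subset_closure (c'.ψm z hz), hcon⟩
    rw [c'.φψ z hz] at h1
    exact absurd hz' (not_lt.2 h1)
  have hGlow : ∀ z ∈ ball (0 : ℂ) 1, ‖(G z)⁻¹‖ ≤ Real.exp η := by
    intro z hz
    rw [mem_ball_zero_iff] at hz
    obtain ⟨r, hr1, hr2⟩ := exists_between (max_lt (max_lt hr₀ hz) (one_pos : (0 : ℝ) < 1))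
    have hr3 : r₀ < r := ((le_max_left _ _).trans (le_max_left _ _)).trans_lt hr1
    have hr4 : ‖z‖ < r := ((le_max_right _ _).trans (le_max_left _ _)).trans_lt hr1
    have hr5 : 0 < r := (le_max_right _ _).trans_lt hr1
    have hcb : closedBall (0 : ℂ) r ⊆ ball 0 1 := closedBall_subset_ball hr2
    refine Complex.norm_le_of_forall_mem_frontier_norm_le (U := ball (0 : ℂ) r)
      (f := fun x => (G x)⁻¹) (z := z) isBounded_ball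
      ?_ ?_ (subset_closure (mem_ball_zero_iff.2 hr4))
    · refine DifferentiableOn.diffContOnCl ?_
      rw [closure_ball _ hr5.ne']
      exact (hGd.mono hcb).inv fun x hx => hGn x (hcb hx)
    · intro x hx
      rw [frontier_ball _ hr5.ne', mem_sphere_zero_iff_norm] at hx
      have hx1 : x ∈ ball (0 : ℂ) 1 := by rw [mem_ball_zero_iff, hx]; exact hr2
      have h1 := hlow _ (hr₀' x hx1 (by rw [hx]; exact hr3))
      have h2 : ‖χ x‖ = r * ‖G x‖ := by rw [hχG, norm_mul, hx]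
      have h3 : Real.exp (-η) ≤ ‖G x‖ := by
        have h4 : Real.exp (-η) ≤ r * ‖G x‖ := by rw [← h2]; exact h1
        nlinarith [norm_nonneg (G x)]
      rw [norm_inv, ← neg_neg η, Real.exp_neg (-η)]
      exact inv_anti₀ (Real.exp_pos _) h3
  obtain ⟨l₀, hl₀, hGl⟩ := exists_log_ball one_pos hGd hGn
  set d := l₀ 0 - (g' 0 - g 0) with hd
  have hexd : exp d = 1 := by
    rw [hd, exp_sub, ← hGl 0 hb0, hG0, div_self (exp_ne_zero _)]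
  have hGl' : ∀ z ∈ ball (0 : ℂ) 1, G z = exp (l₀ z - d) := by
    intro z hz
    rw [exp_sub, hexd, div_one]
    exact hGl z hz
  refine ⟨fun z => l₀ z - d, hl₀.sub_const d, fun z hz => ?_, by simp [hd], fun z hz => ?_⟩
  · have h1 : ‖G z‖ = Real.exp (l₀ z - d).re := by rw [hGl' z hz, Complex.norm_exp]
    have h2 := hGup z hz
    have h3 := hGlow z hz
    rw [norm_inv, h1, ← Real.exp_neg, Real.exp_le_exp] at h3
    rw [h1, Real.exp_le_exp] at h2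
    exact abs_le.2 ⟨by linarith, h2⟩
  · rw [← hGl' z hz]
    exact hχG z

end CM

end Vale.Agent.P220.H64
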