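import Mathlib

/-!
# Smoothness of integrals depending on a parameter
-/

open Set Filter Topology MeasureTheory
open scoped ContDiff Real

namespace Vale.Agent.P220.H64

theorem contDiff_integral_unit {E : Type*} [NormedAddCommGroup E] [NormedSpace ℝ E]
    {g : E × ℝ → ℝ} (hg : ContDiff ℝ ∞ g) : ContDiff ℝ ∞ fun e => ∫ r in (0 : ℝ)..1, g (e, r) := by
  set χ : ContDiffBump (0 : ℝ) := ⟨1, 2, by norm_num, by norm_num⟩ with hχ
  have hf : LocallyIntegrable (indicator (Ioc (-1 : ℝ) 0) fun _ => (1 : ℝ)) volume := by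
    refine Integrable.locallyIntegrable ?_
    rw [integrable_indicator_iff measurableSet_Ioc]
    exact integrableOn_const (by simp)
  have h := contDiffOn_convolution_right_with_param_comp (𝕜 := ℝ) (μ := volume) (n := (⊤ : ℕ∞))
    (ContinuousLinearMap.mul ℝ ℝ) (s := (univ : Set E)) (v := fun _ => (0 : ℝ))
    contDiffOn_const (f := indicator (Ioc (-1 : ℝ) 0) fun _ => (1 : ℝ))
    (g := fun e u => χ u * g (e, u)) (k := Metric.closedBall 0 2) isOpen_univ
    (isCompact_closedBall _ _) ?_ hf ?_
  · rw [contDiffOn_univ] at h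
    have e : (fun e => ∫ r in (0 : ℝ)..1, g (e, r)) = fun e =>
        MeasureTheory.convolution (indicator (Ioc (-1 : ℝ) 0) fun _ => (1 : ℝ))
          (fun u => χ u * g (e, u)) (ContinuousLinearMap.mul ℝ ℝ) volume 0 := by
      funext e
      unfold MeasureTheory.convolution
      have h1 : ∀ t : ℝ, (ContinuousLinearMap.mul ℝ ℝ)
          ((indicator (Ioc (-1 : ℝ) 0) fun _ => (1 : ℝ)) t) (χ (0 - t) * g (e, 0 - t)) =
          indicator (Ioc (-1 : ℝ) 0) (fun t => g (e, -t)) t := by
        intro t
        by_cases ht : t ∈ Ioc (-1 : ℝ) 0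
        · have h2 : χ (-t) = 1 := χ.one_of_mem_closedBall (by
            rw [mem_closedBall_zero_iff, norm_neg, Real.norm_eq_abs, abs_le]
            exact ⟨ht.1.le, by linarith [ht.2]⟩)
          rw [indicator_of_mem ht, indicator_of_mem ht, zero_sub, h2]
          simp
        · rw [indicator_of_notMem ht, indicator_of_notMem ht]
          simp
      simp only [h1]
      rw [integral_indicator measurableSet_Ioc, ← intervalIntegral.integral_of_le (by norm_num)]
      rw [intervalIntegral.integral_comp_neg (fun r => g (e, r))]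
      simp
    rw [e]
    exact h
  · intro e u _ hu
    have : χ u = 0 := by
      refine χ.zero_of_le_dist ?_
      rw [Metric.mem_closedBall, not_le] at hu
      exact hu.le
    rw [this, zero_mul]
  · rw [univ_prod_univ, contDiffOn_univ]
    exact (χ.contDiff.comp contDiff_snd).mul hg

theorem contDiff_primitive {E : Type*} [NormedAddCommGroup E] [NormedSpace ℝ E]
    {g : E × ℝ → ℝ} (hg : ContDiff ℝ ∞ g) :
    ContDiff ℝ ∞ fun y : E × ℝ => ∫ r in (0 : ℝ)..y.2, g (y.1, r) := by
  have h1 : ContDiff ℝ ∞ fun y : (E × ℝ) × ℝ => g (y.1.1, y.1.2 * y.2) :=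
    hg.comp ((contDiff_fst.comp contDiff_fst).prodMk
      ((contDiff_snd.comp contDiff_fst).mul contDiff_snd))
  have h2 := contDiff_integral_unit h1
  have e : (fun y : E × ℝ => ∫ r in (0 : ℝ)..y.2, g (y.1, r)) =
      fun y => y.2 * ∫ r in (0 : ℝ)..1, g (y.1, y.2 * r) := by
    funext y
    have := intervalIntegral.smul_integral_comp_mul_left (a := 0) (b := 1)
      (fun r => g (y.1, r)) y.2
    rw [smul_eq_mul, mul_zero, mul_one] at this
    exact this.symm
  rw [e]
  exact contDiff_snd.mul h2

end Vale.Agent.P220.H64
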