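import Vale.Agent.P220.H64.Planar

/-!
# The isotopy through Riemann maps
-/

open Set Complex Filter Topology Metric
open scoped ContDiff Real ComplexConjugate

namespace Vale.Agent.P220.H64

open Vale.Agent.P116.FK

variable {m : ℕ}

/-- the cut-off time -/
noncomputable abbrev lam (s : ℝ) : ℝ := Real.smoothTransition s

theorem lam_nonpos {s : ℝ} (hs : s ≤ 0) : lam s = lam 0 := by
  rw [lam, lam, Real.smoothTransition.zero_of_nonpos hs,
    Real.smoothTransition.zero_of_nonpos le_rfl]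

theorem lam_one_le {s : ℝ} (hs : 1 ≤ s) : lam s = lam 1 := by
  rw [lam, lam, Real.smoothTransition.one_of_one_le hs,
    Real.smoothTransition.one_of_one_le le_rfl]

theorem lam0 : lam 0 = 0 := Real.smoothTransition.zero_of_nonpos le_rfl

theorem lam1 : lam 1 = 1 := Real.smoothTransition.one_of_one_le le_rfl

theorem two_pi_ne : (2 * π : ℂ) ≠ 0 := by
  have : (π : ℂ) ≠ 0 := by exact_mod_cast Real.pi_pos.ne'
  simp [this]

namespace CM

variable {R : ℝ} {Γ : ℂ → ℂ} {Ω : Set ℂ} {φ ψ g Φ : ℂ → ℂ}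

theorem E_deriv (c : CM R Γ Ω φ ψ g Φ) {z : ℂ} (hz : z ∈ ball (0 : ℂ) 1) :
    1 + z * deriv g z ≠ 0 := by
  have h1 : HasDerivAt g (deriv g z) z :=
    (c.gd.differentiableAt (isOpen_ball.mem_nhds hz)).hasDerivAt
  have h2 : HasDerivAt (fun z => z * exp (g z)) (1 * exp (g z) + z * (exp (g z) * deriv g z)) z :=
    (hasDerivAt_id z).mul h1.cexp
  have h3 : HasDerivAt ψ (1 * exp (g z) + z * (exp (g z) * deriv g z)) z := by
    refine h2.congr_of_eventuallyEq ?_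
    filter_upwards [isOpen_ball.mem_nhds hz] with y hy using c.ψg y hy
  have h4 := injOn_deriv_ne_zero isOpen_ball c.ψd c.ψinj hz
  rw [h3.deriv] at h4
  intro h5
  apply h4
  linear_combination exp (g z) * h5

theorem E_inj (c : CM R Γ Ω φ ψ g Φ) {x x' : ℂ} (hx : x.re < 0) (hx' : x'.re < 0)
    (h : x + g (exp x) = x' + g (exp x')) : x = x' := by
  have hb : exp x ∈ ball (0 : ℂ) 1 := by
    rw [mem_ball_zero_iff, Complex.norm_exp, Real.exp_lt_one_iff]; exact hx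
  have hb' : exp x' ∈ ball (0 : ℂ) 1 := by
    rw [mem_ball_zero_iff, Complex.norm_exp, Real.exp_lt_one_iff]; exact hx'
  have h1 : ψ (exp x) = ψ (exp x') := by
    rw [c.ψg _ hb, c.ψg _ hb', ← exp_add, ← exp_add, h]
  have h2 := c.ψinj hb hb' h1
  rw [h2] at h
  exact add_right_cancel h

end CM

namespace FD

variable {W W' P : (Fin m → ℝ) → ℂ → ℂ} {δ s₁ : ℝ} {g Φ : (Fin m → ℝ) → ℂ → ℂ}

theorem gd (h : FD W W' P δ s₁ g Φ) (b : Fin m → ℝ) : DifferentiableOn ℂ (g b) (ball 0 1) := by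
  obtain ⟨Ω, φ, ψ, hc⟩ := h.cm b
  exact hc.gd

theorem Φd (h : FD W W' P δ s₁ g Φ) (b : Fin m → ℝ) : DifferentiableOn ℂ (Φ b)
    (ann (Real.exp (2 * π * δ))⁻¹ (Real.exp (2 * π * δ))) := by
  obtain ⟨Ω, φ, ψ, hc⟩ := h.cm b
  exact hc.Φd

theorem E_deriv (h : FD W W' P δ s₁ g Φ) (b : Fin m → ℝ) {z : ℂ} (hz : z ∈ ball (0 : ℂ) 1) :
    1 + z * deriv (g b) z ≠ 0 := by
  obtain ⟨Ω, φ, ψ, hc⟩ := h.cm b
  exact hc.E_deriv hz

theorem E_inj (h : FD W W' P δ s₁ g Φ) (b : Fin m → ℝ) {x x' : ℂ} (hx : x.re < 0)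
    (hx' : x'.re < 0) (he : x + g b (exp x) = x' + g b (exp x')) : x = x' := by
  obtain ⟨Ω, φ, ψ, hc⟩ := h.cm b
  exact hc.E_inj hx hx' he

theorem Wz (h : FD W W' P δ s₁ g Φ) (b : Fin m → ℝ) (τ : ℂ) (l : ℤ) :
    W b (τ + l) = W b τ + l * I := by
  have := h.af.Wt b τ 0 l
  rwa [show b + zv (0 : Fin m → ℤ) = b by ext j; simp [zv]] at this

/-- stage 1: moving the curve inside -/
theorem stage1 (h : FD W W' P δ s₁ g Φ) :
    CPath (fun s b t => W b ((t : ℂ) + (lam s * s₁ : ℝ) * I))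
      (fun s b t => W' b ((t : ℂ) + (lam s * s₁ : ℝ) * I)) := by
  have hl0 : ∀ s, 0 ≤ lam s := fun s => Real.smoothTransition.nonneg s
  have hl1 : ∀ s, lam s ≤ 1 := fun s => Real.smoothTransition.le_one s
  have him : ∀ (s t : ℝ), |((t : ℂ) + (lam s * s₁ : ℝ) * I).im| < δ := by
    intro s t
    have h1 : ((t : ℂ) + (lam s * s₁ : ℝ) * I).im = lam s * s₁ := by simp
    rw [h1, abs_of_nonneg (mul_nonneg (hl0 s) h.hs.le)]
    nlinarith [hl0 s, hl1 s, h.hs, h.hδ]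
  have hlc : Continuous lam := Real.smoothTransition.continuous
  refine ⟨fun b => ?_, fun s b t => ?_, ?_, fun s b t k l => ?_, fun s b t t' heq => ?_,
    fun s b t => (h.strip b _ (him s t)).1, fun s hs => ?_, fun s hs => ?_⟩
  · have h1 : ContDiff ℝ ∞ fun y : ℝ × ℝ => ((y.2 : ℂ) + (lam y.1 * s₁ : ℝ) * I) := by
      refine (Complex.ofRealCLM.contDiff.comp contDiff_snd).add (ContDiff.mul ?_ contDiff_const)
      exact Complex.ofRealCLM.contDiff.comp
        ((Real.smoothTransition.contDiff.comp contDiff_fst).mul contDiff_const)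
    exact ((h.af.Ws b).restrict_scalars ℝ).comp h1
  · have h1 : HasDerivAt (fun z : ℂ => z + (lam s * s₁ : ℝ) * I) 1 (t : ℂ) :=
      (hasDerivAt_id _).add_const _
    have h2 := (h.af.Wd b ((t : ℂ) + (lam s * s₁ : ℝ) * I)).comp (t : ℂ) h1
    rw [mul_one] at h2
    exact h2.comp_ofReal
  · exact h.af.Wc.comp (f := fun y : ℝ × (Fin m → ℝ) × ℝ =>
      (y.2.1, (y.2.2 : ℂ) + (lam y.1 * s₁ : ℝ) * I)) (by fun_prop)
  · have h1 : (((t + l : ℝ) : ℂ) + (lam s * s₁ : ℝ) * I) =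
        ((t : ℂ) + (lam s * s₁ : ℝ) * I) + l := by push_cast; ring
    rw [h1, h.af.Wt]
  · have h1 := (h.strip b _ (him s t)).2 _ (him s t') heq
    have h2 := add_right_cancel h1
    exact_mod_cast h2
  · simp only [lam_nonpos hs]
  · simp only [lam_one_le hs]

/-- the point of the circle -/
noncomputable def ze (s₁ t : ℝ) : ℂ := exp (2 * π * I * (t + s₁ * I))

theorem norm_ze (s₁ t : ℝ) : ‖ze s₁ t‖ = Real.exp (-(2 * π * s₁)) := by
  rw [ze, Complex.norm_exp]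
  congr 1
  simp

theorem ze_mem (h : FD W W' P δ s₁ g Φ) (t : ℝ) :
    ze s₁ t ∈ ann (Real.exp (2 * π * δ))⁻¹ (Real.exp (2 * π * δ)) := by
  have hpi := Real.pi_pos
  have := h.hs
  have := h.hδ
  rw [← Real.exp_neg]
  constructor
  · rw [norm_ze, Real.exp_lt_exp]; nlinarith
  · rw [norm_ze, Real.exp_lt_exp]; nlinarith

theorem ze_lt (h : FD W W' P δ s₁ g Φ) (t : ℝ) : ‖ze s₁ t‖ < 1 := by
  rw [norm_ze, Real.exp_lt_one_iff]
  have := h.hs
  have hpi := Real.pi_pos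
  have : 0 < 2 * π * s₁ := by positivity
  linarith

/-- `log Φ` along the circle -/
noncomputable def ph (P g Φ : (Fin m → ℝ) → ℂ → ℂ) (s₁ : ℝ) (b : Fin m → ℝ) (t : ℝ) : ℂ :=
  2 * π * I * (t + s₁ * I) + P b (ze s₁ t) - g b (Φ b (ze s₁ t))

theorem Φ_lt (h : FD W W' P δ s₁ g Φ) (b : Fin m → ℝ) (t : ℝ) :
    Φ b (ze s₁ t) ∈ ball (0 : ℂ) 1 := by
  obtain ⟨Ω, φ, ψ, hc⟩ := h.cm b
  exact mem_ball_zero_iff.2 (hc.Φlt (h.ze_mem t) (h.ze_lt t))

theorem exp_ph (h : FD W W' P δ s₁ g Φ) (b : Fin m → ℝ) (t : ℝ) :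
    exp (ph P g Φ s₁ b t) = Φ b (ze s₁ t) := by
  obtain ⟨Ω, φ, ψ, hc⟩ := h.cm b
  have h1 := h.ze_mem t
  have h2 := h.ze_lt t
  have h3 : AF.Gam P b (ze s₁ t) ∈ Ω := (hc.mem _ h1).2 h2
  have h4 := hc.ψφ _ h3
  rw [← hc.Φin _ h1 h2, hc.ψg _ (h.Φ_lt b t)] at h4
  rw [ph, exp_sub, exp_add]
  have h5 : exp (2 * π * I * (t + s₁ * I)) * exp (P b (ze s₁ t)) = AF.Gam P b (ze s₁ t) := rfl
  rw [h5, ← h4, mul_div_cancel_right₀ _ (exp_ne_zero _)]

theorem ph_re (h : FD W W' P δ s₁ g Φ) (b : Fin m → ℝ) (t : ℝ) : (ph P g Φ s₁ b t).re < 0 := by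
  have h1 := h.Φ_lt b t
  rw [← h.exp_ph b t, mem_ball_zero_iff, Complex.norm_exp, Real.exp_lt_one_iff] at h1
  exact h1

theorem ze_hasDerivAt (s₁ t : ℝ) : HasDerivAt (ze s₁) (ze s₁ t * (2 * π * I)) t := by
  have h1 : HasDerivAt (fun z : ℂ => 2 * π * I * (z + s₁ * I)) (2 * π * I) (t : ℂ) := by
    simpa using ((hasDerivAt_id (t : ℂ)).add_const (s₁ * I : ℂ)).const_mul (2 * π * I : ℂ)
  exact h1.cexp.comp_ofReal

theorem ze_contDiff (s₁ : ℝ) : ContDiff ℝ ∞ (ze s₁) := by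
  unfold ze
  refine ContDiff.cexp ?_
  exact contDiff_const.mul ((Complex.ofRealCLM.contDiff).add contDiff_const)

theorem ze_ne (s₁ t : ℝ) : ze s₁ t ∈ ({0}ᶜ : Set ℂ) := exp_ne_zero _

theorem ph_contDiff (h : FD W W' P δ s₁ g Φ) (b : Fin m → ℝ) :
    ContDiff ℝ ∞ (ph P g Φ s₁ b) := by
  unfold ph
  refine ContDiff.sub (ContDiff.add ?_ ?_) ?_
  · exact contDiff_const.mul ((Complex.ofRealCLM.contDiff).add contDiff_const)
  · exact cd_comp isOpen_compl_singleton (h.af.Pd b) (ze_contDiff s₁) fun t => ze_ne s₁ t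
  · exact cd_comp isOpen_ball (h.gd b) (cd_comp (isOpen_ann _ _) (h.Φd b) (ze_contDiff s₁)
      fun t => h.ze_mem t) fun t => h.Φ_lt b t

/-- derivative of `ph` -/
noncomputable def dph (Φ : (Fin m → ℝ) → ℂ → ℂ) (s₁ : ℝ) (b : Fin m → ℝ) (t : ℝ) : ℂ :=
  2 * π * I * (ze s₁ t * deriv (Φ b) (ze s₁ t) / Φ b (ze s₁ t))

theorem ph_hasDerivAt (h : FD W W' P δ s₁ g Φ) (b : Fin m → ℝ) (t : ℝ) :
    HasDerivAt (ph P g Φ s₁ b) (dph Φ s₁ b t) t := by
  have h1 : HasDerivAt (ph P g Φ s₁ b) (deriv (ph P g Φ s₁ b) t) t :=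
    ((h.ph_contDiff b).differentiable (by simp) t).hasDerivAt
  have h2 : HasDerivAt (fun t => exp (ph P g Φ s₁ b t))
      (exp (ph P g Φ s₁ b t) * deriv (ph P g Φ s₁ b) t) t := h1.cexp
  have h3 : HasDerivAt (Φ b) (deriv (Φ b) (ze s₁ t)) (ze s₁ t) :=
    ((h.Φd b).differentiableAt ((isOpen_ann _ _).mem_nhds (h.ze_mem t))).hasDerivAt
  have h4 : HasDerivAt (fun t => Φ b (ze s₁ t))
      (deriv (Φ b) (ze s₁ t) * (ze s₁ t * (2 * π * I))) t := by
    have := h3.scomp t (ze_hasDerivAt s₁ t)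
    simpa [Function.comp_def, mul_comm] using this
  have h5 : (fun t => exp (ph P g Φ s₁ b t)) = fun t => Φ b (ze s₁ t) :=
    funext fun t => h.exp_ph b t
  rw [h5] at h2
  have h6 := h2.unique h4
  have h7 : Φ b (ze s₁ t) ≠ 0 := by rw [← h.exp_ph]; exact exp_ne_zero _
  have h8 : deriv (ph P g Φ s₁ b) t = dph Φ s₁ b t := by
    rw [h.exp_ph] at h6
    rw [dph]
    field_simp
    rw [mul_comm, h6]
    ring
  rw [← h8]
  exact h1

theorem dph_im (h : FD W W' P δ s₁ g Φ) (b : Fin m → ℝ) (t : ℝ) : 0 < (dph Φ s₁ b t).im := by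
  have h1 := h.pos b (ze s₁ t) (norm_ze s₁ t)
  have h2 : (dph Φ s₁ b t).im = 2 * π * (ze s₁ t * deriv (Φ b) (ze s₁ t) / Φ b (ze s₁ t)).re := by
    rw [dph]
    set q := ze s₁ t * deriv (Φ b) (ze s₁ t) / Φ b (ze s₁ t)
    rw [show 2 * π * I * q = ((2 * π : ℝ) : ℂ) * (I * q) by push_cast; ring, Complex.re_ofReal_mul
      |> fun _ => Complex.im_ofReal_mul _ _, Complex.I_mul_im]
  rw [h2]
  have := Real.pi_pos
  positivity

theorem ze_per (s₁ t : ℝ) (l : ℤ) : ze s₁ (t + l) = ze s₁ t := by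
  rw [ze, ze, ← exp_per ((t : ℂ) + s₁ * I) l]
  congr 1
  push_cast
  ring

theorem ph_per (h : FD W W' P δ s₁ g Φ) (b : Fin m → ℝ) (t : ℝ) (k : Fin m → ℤ) (l : ℤ) :
    ph P g Φ s₁ (b + zv k) (t + l) = ph P g Φ s₁ b t + 2 * π * I * l := by
  rw [ph, ph, ze_per, h.af.Pp, h.gper, h.Φper]
  push_cast
  ring

theorem ze_cont (s₁ : ℝ) : Continuous (ze s₁) := (ze_contDiff s₁).continuous

theorem Φze_cont (h : FD W W' P δ s₁ g Φ) :
    Continuous fun y : (Fin m → ℝ) × ℝ => Φ y.1 (ze s₁ y.2) :=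
  h.Φc.comp_continuous (continuous_fst.prodMk ((ze_cont s₁).comp continuous_snd))
    fun y => ⟨trivial, h.ze_mem y.2⟩

theorem ph_cont (h : FD W W' P δ s₁ g Φ) :
    Continuous fun y : (Fin m → ℝ) × ℝ => ph P g Φ s₁ y.1 y.2 := by
  unfold ph
  refine Continuous.sub (Continuous.add (by fun_prop) ?_) ?_
  · exact h.af.Pc.comp_continuous (continuous_fst.prodMk ((ze_cont s₁).comp continuous_snd))
      fun y => ⟨trivial, ze_ne s₁ y.2⟩
  · exact h.gc.comp_continuous (continuous_fst.prodMk h.Φze_cont)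
      fun y => ⟨trivial, h.Φ_lt y.1 y.2⟩

theorem dph_cont (h : FD W W' P δ s₁ g Φ) :
    Continuous fun y : (Fin m → ℝ) × ℝ => dph Φ s₁ y.1 y.2 := by
  unfold dph
  refine continuous_const.mul (Continuous.div ?_ h.Φze_cont fun y => ?_)
  · refine ((ze_cont s₁).comp continuous_snd).mul ?_
    exact h.Φc'.comp_continuous (continuous_fst.prodMk ((ze_cont s₁).comp continuous_snd))
      fun y => ⟨trivial, h.ze_mem y.2⟩
  · rw [← h.exp_ph]; exact exp_ne_zero _

/-- the argument in stage 2 -/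
noncomputable def xx (P g Φ : (Fin m → ℝ) → ℂ → ℂ) (s₁ s : ℝ) (b : Fin m → ℝ) (t : ℝ) : ℂ :=
  ((1 - lam s : ℝ) : ℂ) * ph P g Φ s₁ b t + ((lam s : ℝ) : ℂ) * (-1 + 2 * π * I * t)

noncomputable def dxx (Φ : (Fin m → ℝ) → ℂ → ℂ) (s₁ s : ℝ) (b : Fin m → ℝ) (t : ℝ) : ℂ :=
  ((1 - lam s : ℝ) : ℂ) * dph Φ s₁ b t + ((lam s : ℝ) : ℂ) * (2 * π * I)

theorem xx_re (h : FD W W' P δ s₁ g Φ) (s : ℝ) (b : Fin m → ℝ) (t : ℝ) :
    (xx P g Φ s₁ s b t).re < 0 := by
  have hl0 : 0 ≤ lam s := Real.smoothTransition.nonneg s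
  have hl1 : lam s ≤ 1 := Real.smoothTransition.le_one s
  have h1 := h.ph_re b t
  have h2 : (xx P g Φ s₁ s b t).re = (1 - lam s) * (ph P g Φ s₁ b t).re - lam s := by
    rw [xx, add_re, Complex.re_ofReal_mul, Complex.re_ofReal_mul]
    simp
    ring
  rw [h2]
  rcases hl1.eq_or_lt with h3 | h3
  · rw [h3]; norm_num
  · nlinarith

theorem dxx_im (h : FD W W' P δ s₁ g Φ) (s : ℝ) (b : Fin m → ℝ) (t : ℝ) :
    0 < (dxx Φ s₁ s b t).im := by
  have hl0 : 0 ≤ lam s := Real.smoothTransition.nonneg s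
  have hl1 : lam s ≤ 1 := Real.smoothTransition.le_one s
  have h1 := h.dph_im b t
  have h2 : (dxx Φ s₁ s b t).im = (1 - lam s) * (dph Φ s₁ b t).im + lam s * (2 * π) := by
    rw [dxx, add_im, Complex.im_ofReal_mul, Complex.im_ofReal_mul]
    simp
  rw [h2]
  have hpi := Real.pi_pos
  rcases hl1.eq_or_lt with h3 | h3
  · rw [h3]; nlinarith
  · have : 0 < (1 - lam s) * (dph Φ s₁ b t).im := mul_pos (by linarith) h1
    have : 0 ≤ lam s * (2 * π) := by positivity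
    linarith

theorem xx_hasDerivAt (h : FD W W' P δ s₁ g Φ) (s : ℝ) (b : Fin m → ℝ) (t : ℝ) :
    HasDerivAt (xx P g Φ s₁ s b) (dxx Φ s₁ s b t) t := by
  have h1 : HasDerivAt (fun z : ℂ => -1 + 2 * π * I * z) (2 * π * I) (t : ℂ) := by
    simpa using ((hasDerivAt_id (t : ℂ)).const_mul (2 * π * I : ℂ)).const_add (-1 : ℂ)
  exact ((h.ph_hasDerivAt b t).const_mul _).add (h1.comp_ofReal.const_mul _)

theorem xx_inj (h : FD W W' P δ s₁ g Φ) (s : ℝ) (b : Fin m → ℝ) {t t' : ℝ}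
    (he : xx P g Φ s₁ s b t = xx P g Φ s₁ s b t') : t = t' := by
  have h1 : StrictMono fun t => (xx P g Φ s₁ s b t).im := by
    refine strictMono_of_hasDerivAt_pos (f' := fun t => (dxx Φ s₁ s b t).im) (fun t => ?_)
      fun t => h.dxx_im s b t
    exact (Complex.imCLM.hasFDerivAt.comp_hasDerivAt t (h.xx_hasDerivAt s b t))
  exact h1.injective (by simp only [he])

theorem exp_xx_mem (h : FD W W' P δ s₁ g Φ) (s : ℝ) (b : Fin m → ℝ) (t : ℝ) :
    exp (xx P g Φ s₁ s b t) ∈ ball (0 : ℂ) 1 := by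
  rw [mem_ball_zero_iff, Complex.norm_exp, Real.exp_lt_one_iff]
  exact h.xx_re s b t

theorem stage2 (h : FD W W' P δ s₁ g Φ) :
    CPath (fun s b t => (xx P g Φ s₁ s b t + g b (exp (xx P g Φ s₁ s b t))) / (2 * π))
      (fun s b t => (1 + exp (xx P g Φ s₁ s b t) * deriv (g b) (exp (xx P g Φ s₁ s b t))) *
        dxx Φ s₁ s b t / (2 * π)) := by
  have hlc : Continuous lam := Real.smoothTransition.continuous
  have hxc : Continuous fun y : ℝ × (Fin m → ℝ) × ℝ => xx P g Φ s₁ y.1 y.2.1 y.2.2 := by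
    unfold xx
    refine Continuous.add (Continuous.mul (by fun_prop) ?_) (by fun_prop)
    exact h.ph_cont.comp continuous_snd
  have hdc : Continuous fun y : ℝ × (Fin m → ℝ) × ℝ => dxx Φ s₁ y.1 y.2.1 y.2.2 := by
    unfold dxx
    refine Continuous.add (Continuous.mul (by fun_prop) ?_) (by fun_prop)
    exact h.dph_cont.comp continuous_snd
  refine ⟨fun b => ?_, fun s b t => ?_, ?_, fun s b t k l => ?_, fun s b t t' heq => ?_,
    fun s b t h0 => ?_, fun s hs => ?_, fun s hs => ?_⟩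
  · have hls : ContDiff ℝ ∞ fun y : ℝ × ℝ => lam y.1 :=
      Real.smoothTransition.contDiff.comp contDiff_fst
    have h1 : ContDiff ℝ ∞ fun y : ℝ × ℝ => xx P g Φ s₁ y.1 b y.2 := by
      unfold xx
      refine ContDiff.add (ContDiff.mul (Complex.ofRealCLM.contDiff.comp
        (contDiff_const.sub hls)) ((h.ph_contDiff b).comp contDiff_snd))
        (ContDiff.mul (Complex.ofRealCLM.contDiff.comp hls) ?_)
      exact contDiff_const.add (contDiff_const.mul (Complex.ofRealCLM.contDiff.comp contDiff_snd))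
    refine ContDiff.div_const (h1.add ?_) _
    exact cd_comp isOpen_ball (h.gd b) h1.cexp fun y => h.exp_xx_mem y.1 b y.2
  · have h1 := h.xx_hasDerivAt s b t
    have h2 : HasDerivAt (g b) (deriv (g b) (exp (xx P g Φ s₁ s b t)))
        (exp (xx P g Φ s₁ s b t)) :=
      ((h.gd b).differentiableAt (isOpen_ball.mem_nhds (h.exp_xx_mem s b t))).hasDerivAt
    have h3 := (h1.add (h2.scomp t h1.cexp)).div_const (2 * π : ℂ)
    refine h3.congr_deriv ?_
    rw [smul_eq_mul]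
    ring
  · refine Continuous.div_const (Continuous.mul (continuous_const.add
      (hxc.cexp.mul ?_)) hdc) _
    exact h.gc'.comp_continuous ((continuous_fst.comp continuous_snd).prodMk hxc.cexp)
      fun y => ⟨trivial, h.exp_xx_mem y.1 y.2.1 y.2.2⟩
  · have h1 : xx P g Φ s₁ s (b + zv k) (t + l) = xx P g Φ s₁ s b t + l * (2 * π * I) := by
      rw [xx, xx, h.ph_per]
      push_cast
      ring
    have h2 : exp (xx P g Φ s₁ s b t + l * (2 * π * I)) = exp (xx P g Φ s₁ s b t) := by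
      rw [exp_add, exp_int_mul_two_pi_mul_I, mul_one]
    rw [h1, h2, h.gper]
    have := two_pi_ne
    have hpi : (π : ℂ) ≠ 0 := by exact_mod_cast Real.pi_pos.ne'
    field_simp
    ring
  · have h1 := (div_left_inj' two_pi_ne).1 heq
    exact h.xx_inj s b (h.E_inj b (h.xx_re s b t) (h.xx_re s b t') h1)
  · rcases div_eq_zero_iff.1 h0 with h1 | h1
    · rcases mul_eq_zero.1 h1 with h2 | h2
      · exact h.E_deriv b (h.exp_xx_mem s b t) h2
      · have := h.dxx_im s b t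
        rw [h2] at this
        simp at this
    · exact two_pi_ne h1
  · simp only [xx, lam_nonpos hs]
  · simp only [xx, lam_one_le hs]

/-- stage 3: shrinking the circle -/
theorem stage3 (h : FD W W' P δ s₁ g Φ) :
    CPath (fun s b t => (-1 + 2 * π * I * (t : ℂ) +
        g b (((1 - lam s : ℝ) : ℂ) * exp (-1 + 2 * π * I * (t : ℂ)))) / (2 * π))
      (fun s b t => I * (1 + ((1 - lam s : ℝ) : ℂ) * exp (-1 + 2 * π * I * (t : ℂ)) *
        deriv (g b) (((1 - lam s : ℝ) : ℂ) * exp (-1 + 2 * π * I * (t : ℂ))))) := by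
  have hl0 : ∀ s, 0 ≤ lam s := fun s => Real.smoothTransition.nonneg s
  have hl1 : ∀ s, lam s ≤ 1 := fun s => Real.smoothTransition.le_one s
  have hlc : Continuous lam := Real.smoothTransition.continuous
  have hpi : (π : ℂ) ≠ 0 := by exact_mod_cast Real.pi_pos.ne'
  have hn : ∀ t : ℝ, ‖exp (-1 + 2 * π * I * (t : ℂ))‖ = Real.exp (-1) := by
    intro t
    rw [Complex.norm_exp]
    simp
  have hmem : ∀ (s : ℝ) (t : ℝ), ((1 - lam s : ℝ) : ℂ) * exp (-1 + 2 * π * I * (t : ℂ)) ∈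
      ball (0 : ℂ) 1 := by
    intro s t
    rw [mem_ball_zero_iff, norm_mul, hn, Complex.norm_real,
      Real.norm_of_nonneg (by linarith [hl1 s])]
    have h1 : Real.exp (-1) < 1 := by rw [Real.exp_lt_one_iff]; norm_num
    have h2 := Real.exp_pos (-1 : ℝ)
    nlinarith [hl0 s, hl1 s]
  refine ⟨fun b => ?_, fun s b t => ?_, ?_, fun s b t k l => ?_, fun s b t t' heq => ?_,
    fun s b t h0 => ?_, fun s hs => ?_, fun s hs => ?_⟩
  · have hls : ContDiff ℝ ∞ fun y : ℝ × ℝ => lam y.1 :=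
      Real.smoothTransition.contDiff.comp contDiff_fst
    have h1 : ContDiff ℝ ∞ fun y : ℝ × ℝ => -1 + 2 * π * I * (y.2 : ℂ) :=
      contDiff_const.add (contDiff_const.mul (Complex.ofRealCLM.contDiff.comp contDiff_snd))
    refine ContDiff.div_const (h1.add ?_) _
    exact cd_comp isOpen_ball (h.gd b) ((Complex.ofRealCLM.contDiff.comp
      (contDiff_const.sub hls)).mul h1.cexp) fun y => hmem y.1 y.2
  · have h1 : HasDerivAt (fun z : ℂ => -1 + 2 * π * I * z) (2 * π * I) (t : ℂ) := by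
      simpa using ((hasDerivAt_id (t : ℂ)).const_mul (2 * π * I : ℂ)).const_add (-1 : ℂ)
    have h2 : HasDerivAt (g b)
        (deriv (g b) (((1 - lam s : ℝ) : ℂ) * exp (-1 + 2 * π * I * (t : ℂ))))
        (((1 - lam s : ℝ) : ℂ) * exp (-1 + 2 * π * I * (t : ℂ))) :=
      ((h.gd b).differentiableAt (isOpen_ball.mem_nhds (hmem s t))).hasDerivAt
    have h3 := (h1.add (h2.comp (t : ℂ) (h1.cexp.const_mul ((1 - lam s : ℝ) : ℂ)))).div_const
      (2 * π : ℂ)
    refine h3.comp_ofReal.congr_deriv ?_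
    field_simp
  · have h1 : Continuous fun y : ℝ × (Fin m → ℝ) × ℝ =>
        ((1 - lam y.1 : ℝ) : ℂ) * exp (-1 + 2 * π * I * (y.2.2 : ℂ)) := by fun_prop
    refine continuous_const.mul (continuous_const.add (h1.mul ?_))
    exact h.gc'.comp_continuous ((continuous_fst.comp continuous_snd).prodMk h1)
      fun y => ⟨trivial, hmem y.1 y.2.2⟩
  · have h1 : -1 + 2 * π * I * ((t + l : ℝ) : ℂ) = (-1 + 2 * π * I * (t : ℂ)) +
        l * (2 * π * I) := by push_cast; ring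
    have h2 : exp ((-1 + 2 * π * I * (t : ℂ)) + l * (2 * π * I)) =
        exp (-1 + 2 * π * I * (t : ℂ)) := by
      rw [exp_add, exp_int_mul_two_pi_mul_I, mul_one]
    rw [h1, h2, h.gper]
    field_simp
    ring
  · have h1 := (div_left_inj' two_pi_ne).1 heq
    rcases (hl1 s).eq_or_lt with h2 | h2
    · rw [h2] at h1
      simp only [sub_self, Complex.ofReal_zero, zero_mul] at h1
      have h3 := add_left_cancel (add_right_cancel h1)
      have h4 := mul_left_cancel₀ two_pi_I_ne_zero h3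
      exact_mod_cast h4
    · set ρ := Real.log (1 - lam s) with hρ
      have hρ' : Real.exp ρ = 1 - lam s := Real.exp_log (by linarith)
      have hρ0 : ρ ≤ 0 := Real.log_nonpos (by linarith) (by linarith [hl0 s])
      have h3 : ∀ t : ℝ, ((1 - lam s : ℝ) : ℂ) * exp (-1 + 2 * π * I * (t : ℂ)) =
          exp ((ρ : ℂ) + (-1 + 2 * π * I * (t : ℂ))) := by
        intro t
        rw [exp_add (ρ : ℂ), ← Complex.ofReal_exp, hρ']
      rw [h3, h3] at h1
      have h4 : ∀ t : ℝ, ((ρ : ℂ) + (-1 + 2 * π * I * (t : ℂ))).re < 0 := by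
        intro t
        simp
        linarith
      have h5 := h.E_inj b (h4 t) (h4 t') (by linear_combination h1)
      have h6 := add_left_cancel (add_left_cancel h5)
      have h7 := mul_left_cancel₀ two_pi_I_ne_zero h6
      exact_mod_cast h7
  · rcases mul_eq_zero.1 h0 with h1 | h1
    · exact I_ne_zero h1
    · exact h.E_deriv b (hmem s t) h1
  · simp only [lam_nonpos hs]
  · simp only [lam_one_le hs]

/-- stage 4: translation -/
theorem stage4 (h : FD W W' P δ s₁ g Φ) :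
    CPath (fun s b t => (2 * π * I * (t : ℂ) + ((1 - lam s : ℝ) : ℂ) * (g b 0 - 1)) / (2 * π))
      (fun _ _ _ => I) := by
  have hpi : (π : ℂ) ≠ 0 := by exact_mod_cast Real.pi_pos.ne'
  refine ⟨fun b => ?_, fun s b t => ?_, continuous_const, fun s b t k l => ?_,
    fun s b t t' heq => ?_, fun s b t => I_ne_zero, fun s hs => ?_, fun s hs => ?_⟩
  · have hls : ContDiff ℝ ∞ fun y : ℝ × ℝ => lam y.1 :=
      Real.smoothTransition.contDiff.comp contDiff_fst
    refine ContDiff.div_const (ContDiff.add ?_ ?_) _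
    · exact contDiff_const.mul (Complex.ofRealCLM.contDiff.comp contDiff_snd)
    · exact (Complex.ofRealCLM.contDiff.comp (contDiff_const.sub hls)).mul contDiff_const
  · have h1 : HasDerivAt (fun z : ℂ => (2 * π * I * z + ((1 - lam s : ℝ) : ℂ) * (g b 0 - 1)) /
        (2 * π)) ((2 * π * I) / (2 * π)) (t : ℂ) := by
      refine HasDerivAt.div_const (HasDerivAt.add_const _ ?_) _
      simpa using (hasDerivAt_id (t : ℂ)).const_mul (2 * π * I : ℂ)
    refine h1.comp_ofReal.congr_deriv ?_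
    field_simp
  · rw [h.gper]
    push_cast
    field_simp
    ring
  · have h1 := (div_left_inj' two_pi_ne).1 heq
    have h3 := add_right_cancel h1
    have h4 := mul_left_cancel₀ two_pi_I_ne_zero h3
    exact_mod_cast h4
  · simp only [lam_nonpos hs]
  · simp only [lam_one_le hs]

end FD

theorem isCurveFam_std : IsCurveFam (fun x : V m => (x.2 : ℂ) * I) := by
  refine ⟨?_, fun x k l => ?_, fun b t t' h => ?_, fun b t => ?_⟩
  · exact (Complex.ofRealCLM.contDiff.comp contDiff_snd).mul contDiff_const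
  · show ((x.2 + l : ℝ) : ℂ) * I = _
    push_cast; ring
  · have := mul_right_cancel₀ I_ne_zero h
    exact_mod_cast this
  · have h1 : HasDerivAt (fun t : ℝ => (t : ℂ) * I) (1 * I) t :=
      HasDerivAt.mul_const (Complex.ofRealCLM.hasDerivAt) I
    show deriv (fun t : ℝ => (t : ℂ) * I) t ≠ 0
    rw [h1.deriv, one_mul]
    exact I_ne_zero

theorem CIso.glue {v₁ D₁ v₂ D₂ v₂' D₂' v₃ D₃ : (Fin m → ℝ) → ℝ → ℂ} (h : CIso v₁ D₁ v₂ D₂)
    (h' : CIso v₂' D₂' v₃ D₃) (he : ∀ b t, v₂ b t = v₂' b t)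
    (hd : ∀ b t, HasDerivAt (v₂ b) (D₂ b t) t) (hd' : ∀ b t, HasDerivAt (v₂' b) (D₂' b t) t)
    (hex : ∃ w, IsRep w v₂ D₂) : CIso v₁ D₁ v₃ D₃ := by
  have h1 : v₂ = v₂' := funext fun b => funext fun t => he b t
  subst h1
  have h2 : D₂ = D₂' := funext fun b => funext fun t => (hd b t).unique (hd' b t)
  subst h2
  exact h.trans h' hex

/-- **Planar theorem**: every smooth family of embedded curves is isotopic to the standard one. -/
theorem iso_std {w : V m → ℂ} (hw : IsCurveFam w) : Iso w (fun x => (x.2 : ℂ) * I) := by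
  obtain ⟨W, W', P, haf, hrep⟩ := exists_AF hw
  obtain ⟨δ, s₁, g, Φ, h⟩ := haf.exists_FD
  have hpi : (π : ℂ) ≠ 0 := by exact_mod_cast Real.pi_pos.ne'
  have c12 := h.stage1.ciso.glue h.stage2.ciso (fun b t => by
    have h1 : FD.xx P g Φ s₁ 0 b t = FD.ph P g Φ s₁ b t := by
      rw [FD.xx, lam0]; simp
    rw [h1, h.exp_ph, FD.ph, sub_add_cancel, lam1, one_mul]
    have h2 := h.af.WP b ((t : ℂ) + s₁ * I)
    rw [FD.ze, ← h2, mul_div_cancel_left₀ _ two_pi_ne]) (h.stage1.hd 1) (h.stage2.hd 0)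
    (h.stage1.exists_rep 1)
  have c13 := c12.glue h.stage3.ciso (fun b t => by
    have h1 : FD.xx P g Φ s₁ 1 b t = -1 + 2 * π * I * (t : ℂ) := by
      rw [FD.xx, lam1]; simp
    rw [h1, lam0, sub_zero, Complex.ofReal_one, one_mul]) (h.stage2.hd 1) (h.stage3.hd 0)
    (h.stage2.exists_rep 1)
  have c14 := c13.glue h.stage4.ciso (fun b t => by
    rw [lam0, lam1, sub_zero, sub_self, Complex.ofReal_one, Complex.ofReal_zero, zero_mul, one_mul]
    congr 1
    ring) (h.stage3.hd 1) (h.stage4.hd 0) (h.stage3.exists_rep 1)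
  refine c14 _ _ ?_ ?_
  · simpa [lam0] using hrep
  · obtain ⟨c, hc, hE⟩ := h.stage4.exists_emb
    refine ⟨isCurveFam_std, c, hc, hE 1, fun b t => ?_⟩
    have h1 : HasDerivAt (fun t : ℝ => (t : ℂ) * I) (1 * I) t :=
      HasDerivAt.mul_const (Complex.ofRealCLM.hasDerivAt) I
    show ‖deriv (fun t : ℝ => (t : ℂ) * I) t - I‖ ≤ c / 2
    rw [h1.deriv, one_mul, sub_self, norm_zero]
    positivity

end Vale.Agent.P220.H64
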