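import Vale.Agent.P220.H64.Flow
import Vale.Agent.P220.H64.ParInt
import Vale.Agent.P220.H64.Planar2

/-!
# Fibred exact Lagrangian tori
-/

open Set Filter Topology
open scoped ContDiff Real

namespace Vale.Agent.P220.H64

variable {m : ℕ}

/-- the isotopy determined by the curves `(Θ, N)` and the primitive `F` -/
noncomputable def mk (Θ N F : ℝ × V m → ℝ) (y : ℝ × V m) : Ph m :=
  ((y.2.1, Θ y), (fun j => fderiv ℝ F y (0, (Pi.single j 1, 0)) -
    N y * fderiv ℝ Θ y (0, (Pi.single j 1, 0)), N y))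

theorem clm_decomp (L : ℝ × V m →L[ℝ] ℝ) (v : V m) :
    L (0, v) = ∑ j, v.1 j * L (0, (Pi.single j 1, 0)) + v.2 * L (0, (0, 1)) := by
  have h1 : ((0, v) : ℝ × V m) = ∑ j, v.1 j • ((0, (Pi.single j 1, 0)) : ℝ × V m) +
      v.2 • ((0, (0, 1)) : ℝ × V m) := by
    refine Prod.ext ?_ (Prod.ext ?_ ?_)
    · simp [Prod.fst_sum]
    · funext i
      simp [Prod.snd_sum, Prod.fst_sum, Finset.sum_apply, Pi.single_apply]
    · simp [Prod.snd_sum]
  conv_lhs => rw [h1]
  simp only [map_add, map_sum, map_smul, smul_eq_mul]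

theorem mk_exactIso {Θ N F : ℝ × V m → ℝ} (hΘ : ContDiff ℝ ∞ Θ) (hN : ContDiff ℝ ∞ N)
    (hF : ContDiff ℝ ∞ F) (eΘ : ∀ s x k l, Θ (s, x + lat k l) = Θ (s, x) + l)
    (eN : ∀ s x k l, N (s, x + lat k l) = N (s, x))
    (eF : ∀ s x k l, F (s, x + lat k l) = F (s, x))
    (hFt : ∀ y, fderiv ℝ F y (0, (0, 1)) = N y * fderiv ℝ Θ y (0, (0, 1)))
    (inj : ∀ s b t t', Θ (s, (b, t)) = Θ (s, (b, t')) → N (s, (b, t)) = N (s, (b, t')) → t = t')
    (imm : ∀ y, fderiv ℝ Θ y (0, (0, 1)) ≠ 0 ∨ fderiv ℝ N y (0, (0, 1)) ≠ 0) :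
    IsExactIso (mk Θ N F) F := by
  have hs : ContDiff ℝ ∞ (mk Θ N F) := by
    refine ((contDiff_fst.comp contDiff_snd).prodMk hΘ).prodMk ((contDiff_pi.2 fun j => ?_).prodMk hN)
    exact ((hF.fderiv_right (by simp)).clm_apply contDiff_const).sub
      (hN.mul ((hΘ.fderiv_right (by simp)).clm_apply contDiff_const))
  have hd := hs.differentiable (by simp)
  have hdΘ := hΘ.differentiable (by simp)
  have hdN := hN.differentiable (by simp)
  have d1 : ∀ y v, (fderiv ℝ (mk Θ N F) y v).1 = (v.2.1, fderiv ℝ Θ y v) := by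
    intro y v
    have h1 : HasFDerivAt (fun y => (mk Θ N F y).1)
        ((ContinuousLinearMap.fst ℝ (V m) (V m)).comp (fderiv ℝ (mk Θ N F) y)) y :=
      (ContinuousLinearMap.fst ℝ (V m) (V m)).hasFDerivAt.comp y (hd y).hasFDerivAt
    have h2 : HasFDerivAt (fun y : ℝ × V m => ((y.2.1, Θ y) : V m))
        (((ContinuousLinearMap.fst ℝ (Fin m → ℝ) ℝ).comp
          (ContinuousLinearMap.snd ℝ ℝ (V m))).prod (fderiv ℝ Θ y)) y :=
      (((ContinuousLinearMap.fst ℝ (Fin m → ℝ) ℝ).comp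
          (ContinuousLinearMap.snd ℝ ℝ (V m))).hasFDerivAt).prodMk (hdΘ y).hasFDerivAt
    have h3 := h1.unique h2
    exact congrArg (fun L : ℝ × V m →L[ℝ] V m => L v) h3
  have d2 : ∀ y v, (fderiv ℝ (mk Θ N F) y v).2.2 = fderiv ℝ N y v := by
    intro y v
    have h1 : HasFDerivAt (fun y => (mk Θ N F y).2.2)
        (((ContinuousLinearMap.snd ℝ (Fin m → ℝ) ℝ).comp
          (ContinuousLinearMap.snd ℝ (V m) (V m))).comp (fderiv ℝ (mk Θ N F) y)) y :=
      ((ContinuousLinearMap.snd ℝ (Fin m → ℝ) ℝ).comp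
          (ContinuousLinearMap.snd ℝ (V m) (V m))).hasFDerivAt.comp y (hd y).hasFDerivAt
    exact congrArg (fun L : ℝ × V m →L[ℝ] ℝ => L v) (h1.unique (hdN y).hasFDerivAt)
  refine ⟨⟨hs, fun s x k l => ?_, fun s x x' hx => ?_, fun s x => ?_⟩, hF, eF, fun y v => ?_⟩
  · have e1 : fderiv ℝ F (s, x + lat k l) = fderiv ℝ F (s, x) :=
      fderiv_per (c := 0) (fun s x => by rw [eF, add_zero]) s x
    have e2 : fderiv ℝ Θ (s, x + lat k l) = fderiv ℝ Θ (s, x) :=
      fderiv_per (c := (l : ℝ)) (fun s x => eΘ s x k l) s x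
    unfold mk
    rw [e1, e2, eN, eΘ]
    refine Prod.ext (Prod.ext ?_ ?_) (Prod.ext ?_ ?_)
    · rfl
    · rfl
    · simp
    · simp
  · have h1 : x.1 = x'.1 := congrArg (fun z => z.1.1) hx
    have h2 : Θ (s, x) = Θ (s, x') := congrArg (fun z => z.1.2) hx
    have h3 : N (s, x) = N (s, x') := congrArg (fun z => z.2.2) hx
    obtain ⟨b, t⟩ := x
    obtain ⟨b', t'⟩ := x'
    obtain rfl : b = b' := h1
    rw [inj s b t t' h2 h3]
  · rw [injective_iff_map_eq_zero]
    intro v hv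
    have hv' : fderiv ℝ (mk Θ N F) (s, x) (0, v) = 0 := by
      rw [← fderiv_slice hd s x v]; exact hv
    have h1 : v.1 = 0 := by
      have := d1 (s, x) (0, v)
      rw [hv'] at this
      exact (congrArg Prod.fst this).symm
    have h2 : fderiv ℝ Θ (s, x) (0, v) = 0 := by
      have := d1 (s, x) (0, v)
      rw [hv'] at this
      exact (congrArg Prod.snd this).symm
    have h3 : fderiv ℝ N (s, x) (0, v) = 0 := by
      have := d2 (s, x) (0, v)
      rw [hv'] at this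
      exact this.symm
    rw [clm_decomp] at h2 h3
    simp only [h1, Pi.zero_apply, zero_mul, Finset.sum_const_zero, zero_add, mul_eq_zero] at h2 h3
    have h4 : v.2 = 0 := by
      rcases imm (s, x) with h | h
      · exact h2.resolve_right h
      · exact h3.resolve_right h
    exact Prod.ext h1 h4
  · rw [d1]
    unfold mk pair
    simp only
    rw [clm_decomp (fderiv ℝ F y), clm_decomp (fderiv ℝ Θ y), hFt]
    simp only [sub_mul, Finset.sum_sub_distrib, mul_add, Finset.mul_sum]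
    have : ∀ a b c d : ℝ, a - b + (b + c) = a + c := fun a b c d => by ring
    have e1 : ∑ j, fderiv ℝ F y (0, (Pi.single j 1, 0)) * v.1 j =
        ∑ j, v.1 j * fderiv ℝ F y (0, (Pi.single j 1, 0)) :=
      Finset.sum_congr rfl fun j _ => mul_comm _ _
    have e2 : ∑ j, N y * fderiv ℝ Θ y (0, (Pi.single j 1, 0)) * v.1 j =
        ∑ j, N y * (v.1 j * fderiv ℝ Θ y (0, (Pi.single j 1, 0))) :=
      Finset.sum_congr rfl fun j _ => by ring
    rw [e1, e2]
    ring

end Vale.Agent.P220.H64
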