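import Vale.Agent.P220.H64.Ham

/-!
# Existence and uniqueness of flows; exact isotopies give Hamiltonian isotopies
-/

open Set Filter Topology
open scoped ContDiff Real NNReal

namespace Vale.Agent.P220.H64

variable {m : ℕ}

/-- the Hamiltonian vector field as a linear function of the differential -/
noncomputable def JJ (m : ℕ) : (ℝ × Ph m →L[ℝ] ℝ) →L[ℝ] Ph m :=
  ((ContinuousLinearMap.pi fun j =>
      ContinuousLinearMap.apply ℝ ℝ ((0, (0, (Pi.single j 1, 0))) : ℝ × Ph m)).prod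
    (ContinuousLinearMap.apply ℝ ℝ ((0, (0, (0, 1))) : ℝ × Ph m))).prod
  ((ContinuousLinearMap.pi fun j =>
      - ContinuousLinearMap.apply ℝ ℝ ((0, ((Pi.single j 1, 0), 0)) : ℝ × Ph m)).prod
    (- ContinuousLinearMap.apply ℝ ℝ ((0, ((0, 1), 0)) : ℝ × Ph m)))

theorem fderiv_slice {E : Type*} [NormedAddCommGroup E] [NormedSpace ℝ E] {G : Type*}
    [NormedAddCommGroup G] [NormedSpace ℝ G] {H : ℝ × E → G}
    (hH : Differentiable ℝ H) (s : ℝ) (x u : E) :
    fderiv ℝ (fun y => H (s, y)) x u = fderiv ℝ H (s, x) (0, u) := by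
  have h : HasFDerivAt (fun y => H (s, y)) ((fderiv ℝ H (s, x)).comp
      (ContinuousLinearMap.inr ℝ ℝ E)) x :=
    HasFDerivAt.comp (f := fun z => (s, z)) x (hH _).hasFDerivAt (hasFDerivAt_prodMk_right _ _)
  rw [h.fderiv]
  rfl

theorem XH_eq {H : ℝ × Ph m → ℝ} (hH : Differentiable ℝ H) (s : ℝ) (x : Ph m) :
    XH H s x = JJ m (fderiv ℝ H (s, x)) := by
  unfold XH
  simp only [fderiv_slice hH]
  rfl

theorem XH_contDiff {H : ℝ × Ph m → ℝ} (hH : ContDiff ℝ ∞ H) :
    ContDiff ℝ ∞ fun y : ℝ × Ph m => XH H y.1 y.2 := by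
  have e : (fun y : ℝ × Ph m => XH H y.1 y.2) = fun y => JJ m (fderiv ℝ H y) :=
    funext fun y => XH_eq (hH.differentiable (by simp)) y.1 y.2
  rw [e]
  exact (JJ m).contDiff.comp (hH.fderiv_right (by simp))

theorem fderiv_per' {E : Type*} [NormedAddCommGroup E] [NormedSpace ℝ E] {f : ℝ × Ph m → E}
    {k : Fin m → ℤ} {l : ℤ} (h : ∀ s q p, f (s, (q + lat k l, p)) = f (s, (q, p))) (s : ℝ)
    (q p : V m) : fderiv ℝ f (s, (q + lat k l, p)) = fderiv ℝ f (s, (q, p)) := by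
  have h1 : (fun y : ℝ × Ph m => f (y + (0, (lat k l, 0)))) = f := by
    funext y
    have := h y.1 y.2.1 y.2.2
    rw [show y + (0, (lat k l, 0)) = (y.1, (y.2.1 + lat k l, y.2.2)) from
      Prod.ext (by simp) (Prod.ext (by simp) (by simp))]
    exact this
  have h2 := congrArg (fun g => fderiv ℝ g (s, (q, p))) h1
  rw [fderiv_comp_add_right] at h2
  rw [← h2]
  congr 1
  exact Prod.ext (by simp) (Prod.ext (by simp) (by simp))

theorem fderiv_supp {E : Type*} [NormedAddCommGroup E] [NormedSpace ℝ E] {f : ℝ × Ph m → E}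
    {R : ℝ} (h : ∀ s q p, R < ‖p‖ → f (s, (q, p)) = 0) (s : ℝ)
    (q p : V m) (hp : R < ‖p‖) : fderiv ℝ f (s, (q, p)) = 0 := by
  have h1 : f =ᶠ[𝓝 (s, (q, p))] fun _ => 0 := by
    have : ∀ᶠ y : ℝ × Ph m in 𝓝 (s, (q, p)), R < ‖y.2.2‖ :=
      (continuousAt_const).eventually_lt
        (by fun_prop : ContinuousAt (fun y : ℝ × Ph m => ‖y.2.2‖) (s, (q, p))) hp
    filter_upwards [this] with y hy
    exact h y.1 y.2.1 y.2.2 hy
  rw [h1.fderiv_eq, fderiv_fun_const]
  rfl

/-- periodic functions with compact support in `p` are bounded for `s ∈ [0, 1]` -/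
theorem bdd_of_per {E : Type*} [NormedAddCommGroup E] {f : ℝ × Ph m → E} (hf : Continuous f)
    (h : ∀ s q p k l, f (s, (q + lat k l, p)) = f (s, (q, p))) {R : ℝ}
    (h' : ∀ s q p, R < ‖p‖ → f (s, (q, p)) = 0) :
    ∃ C : ℝ≥0, ∀ s ∈ Icc (0 : ℝ) 1, ∀ x, ‖f (s, x)‖ ≤ C := by
  have hK : IsCompact ((Icc (0 : ℝ) 1) ×ˢ ((Metric.closedBall (0 : V m) (1 / 2)) ×ˢ
      (Metric.closedBall (0 : V m) R))) :=
    isCompact_Icc.prod ((isCompact_closedBall _ _).prod (isCompact_closedBall _ _))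
  obtain ⟨C, hC⟩ := hK.exists_bound_of_continuousOn hf.continuousOn
  refine ⟨C.toNNReal, fun s hs x => ?_⟩
  rcases lt_or_ge R ‖x.2‖ with hx | hx
  · rw [show x = (x.1, x.2) from rfl, h' s x.1 x.2 hx, norm_zero]
    exact NNReal.coe_nonneg _
  · obtain ⟨k, l, hkl⟩ := exists_box (0 : V m) x.1
    rw [sub_zero] at hkl
    have h1 := hC (s, (x.1 + lat k l, x.2)) ⟨hs, by
      rw [Metric.mem_closedBall, dist_zero_right]; exact hkl, by
      rw [Metric.mem_closedBall, dist_zero_right]; exact hx⟩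
    rw [h] at h1
    exact h1.trans (Real.le_coe_toNNReal C)

/-- bounds on the Hamiltonian vector field -/
theorem IsHam.bounds {H : ℝ × Ph m → ℝ} (hH : IsHam H) :
    ∃ C K : ℝ≥0, (∀ s ∈ Icc (0 : ℝ) 1, ∀ x, ‖XH H s x‖ ≤ C) ∧
      ∀ s ∈ Icc (0 : ℝ) 1, LipschitzWith K (XH H s) := by
  obtain ⟨R, hR⟩ := hH.supp
  have hd := hH.smooth.differentiable (by simp)
  have hs := XH_contDiff hH.smooth
  have p1 : ∀ s q p k l, XH H s (q + lat k l, p) = XH H s (q, p) := by
    intro s q p k l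
    rw [XH_eq hd, XH_eq hd, fderiv_per' fun s q p => hH.periodic s q p k l]
  have p2 : ∀ s q p, R < ‖p‖ → XH H s (q, p) = 0 := by
    intro s q p hp
    rw [XH_eq hd, fderiv_supp (fun s q p hp => hR s q p hp.le) s q p hp, map_zero]
  obtain ⟨C, hC⟩ := bdd_of_per (f := fun y : ℝ × Ph m => XH H y.1 y.2) hs.continuous p1 p2
  obtain ⟨K, hK⟩ := bdd_of_per (hs.continuous_fderiv (by simp))
    (fun s q p k l => fderiv_per' (fun s q p => p1 s q p k l) s q p)
    (fun s q p hp => fderiv_supp p2 s q p hp)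
  refine ⟨C, K, hC, fun s hs' => ?_⟩
  have hds := hs.differentiable (by simp)
  refine lipschitzWith_of_nnnorm_fderiv_le (𝕜 := ℝ) ?_ fun x => ?_
  · exact hds.comp (differentiable_const s |>.prodMk differentiable_id)
  · have h1 : ‖fderiv ℝ (XH H s) x‖ ≤ K := by
      refine ContinuousLinearMap.opNorm_le_bound _ (NNReal.coe_nonneg _) fun u => ?_
      have h2 : fderiv ℝ (XH H s) x u = _ := fderiv_slice hds s x u
      rw [h2]
      refine (ContinuousLinearMap.le_opNorm _ _).trans ?_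
      refine mul_le_mul (hK s hs' x) ?_ (norm_nonneg _) (NNReal.coe_nonneg _)
      rw [Prod.norm_def]
      simp
    exact_mod_cast h1

theorem IsHam.exists_flow {H : ℝ × Ph m → ℝ} (hH : IsHam H) : ∃ φ, IsFlow H φ := by
  obtain ⟨C, K, hC, hK⟩ := hH.bounds
  have hcont := (XH_contDiff hH.smooth).continuous
  have key : ∀ x : Ph m, ∃ α : ℝ → Ph m, α 0 = x ∧
      ∀ t ∈ Icc (0 : ℝ) 1, HasDerivWithinAt α (XH H t (α t)) (Icc 0 1) t := by
    intro x
    have hPL : IsPicardLindelof (XH H) (tmin := 0) (tmax := 1) ⟨0, by simp⟩ x C 0 C K := by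
      refine ⟨fun t ht => (hK t ht).lipschitzOnWith, fun y _ => ?_, fun t ht y _ => hC t ht y, ?_⟩
      · exact (hcont.comp (continuous_id.prodMk continuous_const)).continuousOn
      · simp
    obtain ⟨α, h1, h2⟩ := hPL.exists_eq_forall_mem_Icc_hasDerivWithinAt₀
    exact ⟨α, h1, h2⟩
  choose α h1 h2 using key
  exact ⟨fun s x => α x s, h1, h2⟩

theorem IsFlow.unique {H : ℝ × Ph m → ℝ} (hH : IsHam H) {φ : ℝ → Ph m → Ph m} (hφ : IsFlow H φ)
    {c : ℝ → Ph m} (hc : ∀ s ∈ Icc (0 : ℝ) 1, HasDerivWithinAt c (XH H s (c s)) (Icc 0 1) s) :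
    ∀ s ∈ Icc (0 : ℝ) 1, φ s (c 0) = c s := by
  obtain ⟨C, K, hC, hK⟩ := hH.bounds
  have hd : ∀ {f : ℝ → Ph m} {f' : Ph m} {t : ℝ}, t ∈ Ico (0 : ℝ) 1 →
      HasDerivWithinAt f f' (Icc 0 1) t → HasDerivWithinAt f f' (Ici t) t := by
    intro f f' t ht h
    have h1 : HasDerivWithinAt f f' (Icc t 1) t := h.mono (Icc_subset_Icc_left ht.1)
    exact h1.mono_of_mem_nhdsWithin (Icc_mem_nhdsGE ht.2)
  have := ODE_solution_unique_of_mem_Icc_right (v := XH H) (s := fun _ => univ) (K := K)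
    (f := fun s => φ s (c 0)) (g := c) (a := 0) (b := 1)
    (fun t ht => (hK t (Ico_subset_Icc_self ht)).lipschitzOnWith)
    (fun t ht => (hφ.2 (c 0) t ht).continuousWithinAt)
    (fun t ht => hd ht (hφ.2 (c 0) t (Ico_subset_Icc_self ht))) (fun _ _ => mem_univ _)
    (fun t ht => (hc t ht).continuousWithinAt)
    (fun t ht => hd ht (hc t (Ico_subset_Icc_self ht))) (fun _ _ => mem_univ _) (hφ.1 (c 0))
  exact fun s hs => this hs

/-- an exact isotopy starting at the zero section is a Hamiltonian isotopy -/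
theorem IsExactIso.hamIsotopic {ι : ℝ × V m → Ph m} {F : ℝ × V m → ℝ} (h : IsExactIso ι F)
    (h0 : ∀ x, ι (0, x) = (x, 0)) : HamIsotopicToZero (range fun x => ι (1, x)) := by
  obtain ⟨K, hK, hKp, hKd⟩ := h.exists_ham
  have hι := h.emb.smooth
  -- bound on the momenta
  obtain ⟨R, hR⟩ : ∃ R : ℝ, ∀ s ∈ Icc (0 : ℝ) 1, ∀ x, ‖(ι (s, x)).2‖ ≤ R := by
    have hc : IsCompact ((Icc (0 : ℝ) 1) ×ˢ (Metric.closedBall (0 : V m) (1 / 2))) :=
      isCompact_Icc.prod (isCompact_closedBall _ _)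
    obtain ⟨C, hC⟩ := hc.exists_bound_of_continuousOn
      (continuous_snd.comp hι.continuous).continuousOn
    refine ⟨C, fun s hs x => ?_⟩
    obtain ⟨k, l, hkl⟩ := exists_box (0 : V m) x
    rw [sub_zero] at hkl
    have h1 := hC (s, x + lat k l) ⟨hs, by
      rw [Metric.mem_closedBall, dist_zero_right]; exact hkl⟩
    simp only [Function.comp_apply, h.emb.equiv, Prod.snd_add, add_zero] at h1
    exact h1
  set r : ℝ := max R 0 + 1 with hr
  have hr0 : 0 < r := by positivity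
  set χ : ContDiffBump (0 : V m) := ⟨r, r + 1, hr0, by linarith⟩ with hχ
  set H : ℝ × Ph m → ℝ := fun y => χ y.2.2 * K y with hHdef
  have hH : IsHam H := by
    refine ⟨?_, fun s q p k l => ?_, r + 1, fun s q p hp => ?_⟩
    · exact (χ.contDiff.comp (contDiff_snd.comp contDiff_snd)).mul hK
    · simp only [hHdef, hKp]
    · have : χ p = 0 := by
        refine χ.zero_of_le_dist ?_
        rw [dist_zero_right]
        exact hp
      simp only [hHdef, this, zero_mul]
  have hvel : ∀ s ∈ Icc (0 : ℝ) 1, ∀ x, XH H s (ι (s, x)) = vel ι (s, x) := by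
    intro s hs x
    have he : (fun y => H (s, y)) =ᶠ[𝓝 (ι (s, x))] fun y => K (s, y) := by
      have h1 : ∀ᶠ y : Ph m in 𝓝 (ι (s, x)), ‖y.2‖ < r := by
        refine (by fun_prop : ContinuousAt (fun y : Ph m => ‖y.2‖) (ι (s, x))).eventually_lt
          continuousAt_const ?_
        have := hR s hs x
        have h2 := le_max_left R 0
        linarith
      filter_upwards [h1] with y hy
      have : χ y.2 = 1 := χ.one_of_mem_closedBall (by
        rw [mem_closedBall_zero_iff]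
        exact hy.le)
      simp only [hHdef, this, one_mul]
    unfold XH
    rw [he.fderiv_eq]
    simp only [hKd, pair_single_left, pair_single_right, pair_one_left, pair_one_right,
      pair_zero_left, pair_zero_right, sub_zero, zero_sub, neg_neg]
  obtain ⟨φ, hφ⟩ := hH.exists_flow
  have hcurve : ∀ x, φ 1 (x, 0) = ι (1, x) := by
    intro x
    have h1 := hφ.unique hH (c := fun s => ι (s, x)) (fun s hs => ?_) 1 (by simp)
    · simp only [h0] at h1
      exact h1
    · rw [hvel s hs]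
      have h2 : HasDerivAt (fun s : ℝ => (s, x)) ((1 : ℝ), (0 : V m)) s :=
        (hasDerivAt_id s).prodMk (hasDerivAt_const s x)
      exact (((hι.differentiable (by simp) (s, x)).hasFDerivAt).comp_hasDerivAt s
        h2).hasDerivWithinAt
  refine ⟨H, φ, hH, hφ, ?_⟩
  ext z
  constructor
  · rintro ⟨y, hy, rfl⟩
    refine ⟨y.1, ?_⟩
    have : y = (y.1, 0) := Prod.ext rfl hy
    rw [this]
    exact (hcurve _).symm
  · rintro ⟨x, rfl⟩
    exact ⟨(x, 0), rfl, hcurve x⟩

end Vale.Agent.P220.H64
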