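import Vale.Agent.P220.H64.Tau

/-!
# Exact Lagrangian isotopies of the torus are induced by Hamiltonians
-/

open Set Filter Topology
open scoped ContDiff Real

namespace Vale.Agent.P220.H64

variable {m : ℕ}

/-- the pairing as a bilinear map -/
noncomputable def pairL (m : ℕ) : V m →L[ℝ] V m →L[ℝ] ℝ :=
  ∑ j, (ContinuousLinearMap.mul ℝ ℝ).bilinearComp
      ((ContinuousLinearMap.proj j).comp (ContinuousLinearMap.fst ℝ (Fin m → ℝ) ℝ))
      ((ContinuousLinearMap.proj j).comp (ContinuousLinearMap.fst ℝ (Fin m → ℝ) ℝ)) +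
    (ContinuousLinearMap.mul ℝ ℝ).bilinearComp (ContinuousLinearMap.snd ℝ (Fin m → ℝ) ℝ)
      (ContinuousLinearMap.snd ℝ (Fin m → ℝ) ℝ)

theorem pairL_apply (p v : V m) : pairL m p v = pair p v := by
  simp [pairL, pair]

theorem pair_sub_left (a b c : V m) : pair (a - b) c = pair a c - pair b c := by
  simp only [← pairL_apply, map_sub, sub_apply]

theorem pair_sub_right (a b c : V m) : pair a (b - c) = pair a b - pair a c := by
  simp only [← pairL_apply, map_sub]

theorem pair_zero_left (a : V m) : pair 0 a = 0 := by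
  simp only [← pairL_apply, map_zero, zero_apply]

theorem pair_zero_right (a : V m) : pair a 0 = 0 := by
  simp only [← pairL_apply, map_zero]

theorem pair_single_left (j : Fin m) (a : V m) : pair (Pi.single j 1, 0) a = a.1 j := by
  simp [pair, Pi.single_apply]

theorem pair_single_right (j : Fin m) (a : V m) : pair a (Pi.single j 1, 0) = a.1 j := by
  simp [pair, Pi.single_apply]

theorem pair_one_left (a : V m) : pair (0, 1) a = a.2 := by
  simp [pair]

theorem pair_one_right (a : V m) : pair a (0, 1) = a.2 := by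
  simp [pair]

theorem hasFDerivAt_pair {E : Type*} [NormedAddCommGroup E] [NormedSpace ℝ E] {f g : E → V m}
    {f' g' : E →L[ℝ] V m} {y : E} (hf : HasFDerivAt f f' y) (hg : HasFDerivAt g g' y) :
    HasFDerivAt (fun y => pair (f y) (g y))
      (((pairL m).flip (g y)).comp f' + ((pairL m) (f y)).comp g') y := by
  have h := (pairL m).hasFDerivAt_of_bilinear hf hg
  have e : (fun y => pair (f y) (g y)) = fun y => pairL m (f y) (g y) := by
    funext y; rw [pairL_apply]
  rw [e]
  refine h.congr_fderiv (ContinuousLinearMap.ext fun v => ?_)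
  simp only [ContinuousLinearMap.precompR_apply, ContinuousLinearMap.precompL_apply,
    add_apply, ContinuousLinearMap.comp_apply, ContinuousLinearMap.flip_apply]
  exact add_comm _ _

theorem contDiff_pair {E : Type*} [NormedAddCommGroup E] [NormedSpace ℝ E] {f g : E → V m}
    (hf : ContDiff ℝ ∞ f) (hg : ContDiff ℝ ∞ g) : ContDiff ℝ ∞ fun y => pair (f y) (g y) := by
  have e : (fun y => pair (f y) (g y)) = fun y => pairL m (f y) (g y) := by
    funext y; rw [pairL_apply]
  rw [e]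
  exact ((pairL m).contDiff.comp hf).clm_apply hg

/-- an exact Lagrangian isotopy -/
structure IsExactIso (ι : ℝ × V m → Ph m) (F : ℝ × V m → ℝ) : Prop where
  emb : IsEmbFam ι
  smoothF : ContDiff ℝ ∞ F
  perF : ∀ s x k l, F (s, x + lat k l) = F (s, x)
  exact : ∀ y v, fderiv ℝ F y (0, v) = pair (ι y).2 (fderiv ℝ ι y (0, v)).1

/-- velocity -/
noncomputable def vel (ι : ℝ × V m → Ph m) (y : ℝ × V m) : Ph m := fderiv ℝ ι y (1, 0)

/-- the generating function of the isotopy -/
noncomputable def gen (ι : ℝ × V m → Ph m) (F : ℝ × V m → ℝ) (y : ℝ × V m) : ℝ :=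
  pair (ι y).2 (vel ι y).1 - fderiv ℝ F y (1, 0)

theorem vel_contDiff {ι : ℝ × V m → Ph m} (h : ContDiff ℝ ∞ ι) : ContDiff ℝ ∞ (vel ι) :=
  (h.fderiv_right (by simp)).clm_apply contDiff_const

theorem gen_contDiff {ι : ℝ × V m → Ph m} {F : ℝ × V m → ℝ} (h : ContDiff ℝ ∞ ι)
    (hF : ContDiff ℝ ∞ F) : ContDiff ℝ ∞ (gen ι F) :=
  (contDiff_pair (contDiff_snd.comp h) (contDiff_fst.comp (vel_contDiff h))).sub
    ((hF.fderiv_right (by simp)).clm_apply contDiff_const)

theorem fderiv_per {E : Type*} [NormedAddCommGroup E] [NormedSpace ℝ E] {f : ℝ × V m → E} {c : E}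
    {k : Fin m → ℤ} {l : ℤ} (h : ∀ s x, f (s, x + lat k l) = f (s, x) + c) (s : ℝ) (x : V m) :
    fderiv ℝ f (s, x + lat k l) = fderiv ℝ f (s, x) := by
  have h1 : (fun y : ℝ × V m => f (y + (0, lat k l))) = fun y => f y + c := by
    funext y
    have := h y.1 y.2
    rw [show y + (0, lat k l) = (y.1, y.2 + lat k l) from Prod.ext (by simp) (by simp)]
    exact this
  have h2 := congrArg (fun g => fderiv ℝ g (s, x)) h1
  simp only [fderiv_add_const] at h2
  rw [fderiv_comp_add_right] at h2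
  rw [← h2]
  congr 1
  exact Prod.ext (by simp) (by simp)

theorem hasFDerivAt_fderiv_apply {E F : Type*} [NormedAddCommGroup E] [NormedSpace ℝ E]
    [NormedAddCommGroup F] [NormedSpace ℝ F] {f : E → F} (hf : ContDiff ℝ ∞ f) (a y : E) :
    HasFDerivAt (fun y => fderiv ℝ f y a) ((fderiv ℝ (fderiv ℝ f) y).flip a) y := by
  have h1 : ContDiff ℝ ∞ (fderiv ℝ f) := hf.fderiv_right (by simp)
  have h2 := (h1.differentiable (by simp) y).hasFDerivAt
  have h3 := h2.clm_apply (hasFDerivAt_const a y)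
  refine h3.congr_fderiv (ContinuousLinearMap.ext fun v => ?_)
  simp

theorem second_symm {E F : Type*} [NormedAddCommGroup E] [NormedSpace ℝ E]
    [NormedAddCommGroup F] [NormedSpace ℝ F] {f : E → F} (hf : ContDiff ℝ ∞ f) (y a b : E) :
    fderiv ℝ (fderiv ℝ f) y a b = fderiv ℝ (fderiv ℝ f) y b a := by
  have h : IsSymmSndFDerivAt ℝ f y := hf.contDiffAt.isSymmSndFDerivAt
    (by simpa using (WithTop.coe_le_coe.2 le_top : ((2 : ℕ∞) : WithTop ℕ∞) ≤ ∞))
  exact h a b

/-- the derivative of the generating function -/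
theorem IsExactIso.fderiv_gen {ι : ℝ × V m → Ph m} {F : ℝ × V m → ℝ} (h : IsExactIso ι F)
    (y : ℝ × V m) (v : V m) : fderiv ℝ (gen ι F) y (0, v) =
      pair (fderiv ℝ ι y (0, v)).2 (vel ι y).1 - pair (vel ι y).2 (fderiv ℝ ι y (0, v)).1 := by
  have hι := h.emb.smooth
  have hF := h.smoothF
  have d1 := (hι.differentiable (by simp) y).hasFDerivAt
  have dP : HasFDerivAt (fun y => (ι y).2) ((ContinuousLinearMap.snd ℝ (V m) (V m)).comp
      (fderiv ℝ ι y)) y := (ContinuousLinearMap.snd ℝ (V m) (V m)).hasFDerivAt.comp y d1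
  have dv : ∀ a, HasFDerivAt (fun y => (fderiv ℝ ι y a).1)
      ((ContinuousLinearMap.fst ℝ (V m) (V m)).comp ((fderiv ℝ (fderiv ℝ ι) y).flip a)) y :=
    fun a => (ContinuousLinearMap.fst ℝ (V m) (V m)).hasFDerivAt.comp y
      (hasFDerivAt_fderiv_apply hι a y)
  have dg := (hasFDerivAt_pair dP (dv (1, 0))).sub (hasFDerivAt_fderiv_apply hF (1, 0) y)
  have e1 : fderiv ℝ (gen ι F) y = _ := HasFDerivAt.fderiv dg
  have dl := hasFDerivAt_pair dP (dv (0, v))
  have dr := hasFDerivAt_fderiv_apply hF (0, v) y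
  have e2 : (fun y => fderiv ℝ F y (0, v)) = fun y => pair (ι y).2 (fderiv ℝ ι y (0, v)).1 :=
    funext fun y => h.exact y v
  rw [e2] at dr
  have e3 := congrArg (fun L : ℝ × V m →L[ℝ] ℝ => L (1, 0)) (dr.unique dl)
  simp only [ContinuousLinearMap.flip_apply, add_apply,
    ContinuousLinearMap.comp_apply, ContinuousLinearMap.coe_snd', ContinuousLinearMap.coe_fst',
    pairL_apply] at e3
  rw [e1]
  simp only [ContinuousLinearMap.flip_apply, add_apply,
    ContinuousLinearMap.comp_apply, ContinuousLinearMap.coe_snd', ContinuousLinearMap.coe_fst',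
    pairL_apply, sub_apply]
  rw [second_symm hF y (0, v) (1, 0), e3, second_symm hι y (0, v) (1, 0)]
  unfold vel
  ring

/-- the Hamiltonian of an exact isotopy -/
theorem IsExactIso.exists_ham {ι : ℝ × V m → Ph m} {F : ℝ × V m → ℝ} (h : IsExactIso ι F) :
    ∃ K : ℝ × Ph m → ℝ, ContDiff ℝ ∞ K ∧
      (∀ s q p k l, K (s, (q + lat k l, p)) = K (s, (q, p))) ∧
      ∀ s x u, fderiv ℝ (fun z => K (s, z)) (ι (s, x)) u =
        pair u.2 (vel ι (s, x)).1 - pair (vel ι (s, x)).2 u.1 := by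
  obtain ⟨τ, hτ, hτ1, hτ2⟩ := h.emb.exists_tau
  have hι := h.emb.smooth
  have hσ : ContDiff ℝ ∞ fun w : ℝ × Ph m => (w.1, τ w) := contDiff_fst.prodMk hτ
  have hισ : ContDiff ℝ ∞ fun w : ℝ × Ph m => w.2 - ι (w.1, τ w) :=
    contDiff_snd.sub (hι.comp hσ)
  have hvσ : ContDiff ℝ ∞ fun w : ℝ × Ph m => vel ι (w.1, τ w) := (vel_contDiff hι).comp hσ
  refine ⟨fun w => gen ι F (w.1, τ w) + (pair (w.2 - ι (w.1, τ w)).2 (vel ι (w.1, τ w)).1 -
    pair (vel ι (w.1, τ w)).2 (w.2 - ι (w.1, τ w)).1), ?_, ?_, ?_⟩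
  · exact ((gen_contDiff hι h.smoothF).comp hσ).add
      ((contDiff_pair (contDiff_snd.comp hισ) (contDiff_fst.comp hvσ)).sub
        (contDiff_pair (contDiff_snd.comp hvσ) (contDiff_fst.comp hισ)))
  · intro s q p k l
    have e1 : vel ι (s, τ (s, (q, p)) + lat k l) = vel ι (s, τ (s, (q, p))) := by
      unfold vel
      rw [fderiv_per (fun s x => h.emb.equiv s x k l)]
    have e2 : fderiv ℝ F (s, τ (s, (q, p)) + lat k l) = fderiv ℝ F (s, τ (s, (q, p))) :=
      fderiv_per (c := 0) (fun s x => by rw [h.perF, add_zero]) s _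
    have e3 : gen ι F (s, τ (s, (q, p)) + lat k l) = gen ι F (s, τ (s, (q, p))) := by
      unfold gen
      rw [e1, e2, h.emb.equiv, Prod.snd_add, add_zero]
    have e4 : ((q + lat k l, p) : Ph m) - ι (s, τ (s, (q, p)) + lat k l) =
        (q, p) - ι (s, τ (s, (q, p))) := by
      rw [h.emb.equiv]
      refine Prod.ext ?_ ?_
      · simp
      · simp
    simp only [hτ2, e1, e3, e4]
  · intro s x u
    have d0 : HasFDerivAt (fun z : Ph m => ((s, z) : ℝ × Ph m))
        (ContinuousLinearMap.inr ℝ ℝ (Ph m)) (ι (s, x)) := hasFDerivAt_prodMk_right _ _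
    have dτ : HasFDerivAt (fun z => τ (s, z)) ((fderiv ℝ τ (s, ι (s, x))).comp
        (ContinuousLinearMap.inr ℝ ℝ (Ph m))) (ι (s, x)) :=
      HasFDerivAt.comp (f := fun z => (s, z)) (ι (s, x))
        (hτ.differentiable (by simp) _).hasFDerivAt d0
    set T := (fderiv ℝ τ (s, ι (s, x))).comp (ContinuousLinearMap.inr ℝ ℝ (Ph m)) with hT
    have dσ : HasFDerivAt (fun z => (s, τ (s, z))) ((ContinuousLinearMap.inr ℝ ℝ (V m)).comp T)
        (ι (s, x)) :=
      HasFDerivAt.comp (g := fun v : V m => (s, v)) (f := fun z => τ (s, z)) (ι (s, x))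
        (hasFDerivAt_prodMk_right _ _) dτ
    have hx : τ (s, ι (s, x)) = x := hτ1 s x
    have dg : ∀ {E : Type} [NormedAddCommGroup E] [NormedSpace ℝ E] (g : ℝ × V m → E),
        ContDiff ℝ ∞ g → HasFDerivAt (fun z => g (s, τ (s, z))) ((fderiv ℝ g (s, x)).comp
          ((ContinuousLinearMap.inr ℝ ℝ (V m)).comp T)) (ι (s, x)) := by
      intro E _ _ g hg
      have h1 : HasFDerivAt g (fderiv ℝ g (s, x)) (s, τ (s, ι (s, x))) := by
        rw [hx]
        exact (hg.differentiable (by simp) _).hasFDerivAt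
      exact HasFDerivAt.comp (g := g) (f := fun z => (s, τ (s, z))) (ι (s, x)) h1 dσ
    have d1 := dg _ (gen_contDiff hι h.smoothF)
    have d2 := (hasFDerivAt_id (ι (s, x))).sub (dg _ hι)
    have d3 := dg _ (vel_contDiff hι)
    have d2a := (ContinuousLinearMap.fst ℝ (V m) (V m)).hasFDerivAt.comp (ι (s, x)) d2
    have d2b := (ContinuousLinearMap.snd ℝ (V m) (V m)).hasFDerivAt.comp (ι (s, x)) d2
    have d3a := (ContinuousLinearMap.fst ℝ (V m) (V m)).hasFDerivAt.comp (ι (s, x)) d3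
    have d3b := (ContinuousLinearMap.snd ℝ (V m) (V m)).hasFDerivAt.comp (ι (s, x)) d3
    have d4 := d1.add ((hasFDerivAt_pair d2b d3a).sub (hasFDerivAt_pair d3b d2a))
    have e : fderiv ℝ (fun z => gen ι F (s, τ (s, z)) +
        (pair (z - ι (s, τ (s, z))).2 (vel ι (s, τ (s, z))).1 -
          pair (vel ι (s, τ (s, z))).2 (z - ι (s, τ (s, z))).1)) (ι (s, x)) = _ :=
      HasFDerivAt.fderiv d4
    rw [e]
    have hg := h.fderiv_gen (s, x) (T u)
    simp only [ContinuousLinearMap.flip_apply, add_apply,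
      ContinuousLinearMap.comp_apply, ContinuousLinearMap.coe_snd', ContinuousLinearMap.coe_fst',
      pairL_apply, sub_apply, ContinuousLinearMap.inr_apply, hg,
      Function.comp_apply, id_eq, hx, ContinuousLinearMap.id_apply, Pi.sub_apply, Prod.fst_sub, Prod.snd_sub,
      pair_sub_left, pair_sub_right]
    ring

end Vale.Agent.P220.H64
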