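import Vale.Agent.P220.H64.Conf

/-!
# Basic facts about the conformal data, and the Hopf lemma
-/

open Set Metric Filter Topology Complex Bornology
open scoped ComplexConjugate Real

namespace Vale.Agent.P220.H64

open Vale.Agent.P116.FK

theorem conj_inv_mem {R : ℝ} (hR : 0 < R) {ζ : ℂ} (hζ : ζ ∈ ann R⁻¹ R) :
    (conj ζ)⁻¹ ∈ ann R⁻¹ R := by
  have h1 := inv_mem_ann hR hζ
  have h2 : ‖(conj ζ)⁻¹‖ = ‖ζ⁻¹‖ := by rw [norm_inv, norm_inv, RCLike.norm_conj]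
  exact ⟨by rw [h2]; exact h1.1, by rw [h2]; exact h1.2⟩

theorem conj_inv_of_norm_one {ζ : ℂ} (hζ : ‖ζ‖ = 1) : (conj ζ)⁻¹ = ζ := by
  have h1 : conj ζ * ζ = 1 := by
    rw [mul_comm, Complex.mul_conj, Complex.normSq_eq_norm_sq, hζ]; simp
  exact inv_eq_of_mul_eq_one_right h1

/-- a one-sided maximum at the right end point -/
theorem deriv_nonneg_of_left_max {K : ℝ → ℝ} {K' a ρ : ℝ} (hρ : ρ < a) (hK : HasDerivAt K K' a)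
    (h : ∀ r, ρ < r → r < a → K r ≤ K a) : 0 ≤ K' := by
  have h1 : Tendsto (slope K a) (𝓝[<] a) (𝓝 K') :=
    (hasDerivAt_iff_tendsto_slope.1 hK).mono_left (nhdsWithin_mono _ fun x hx => ne_of_lt hx)
  refine ge_of_tendsto h1 ?_
  filter_upwards [Ioo_mem_nhdsLT hρ] with r hr
  rw [slope_def_field]
  exact div_nonneg_of_nonpos (by linarith [h r hr.1 hr.2]) (by linarith [hr.2])

namespace CM

variable {R : ℝ} {Γ : ℂ → ℂ} {Ω : Set ℂ} {φ ψ g Φ : ℂ → ℂ}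

theorem ψ0 (c : CM R Γ Ω φ ψ g Φ) : ψ 0 = 0 := by
  have := c.ψφ 0 c.h0
  rwa [c.φ0] at this

theorem ψinj (c : CM R Γ Ω φ ψ g Φ) : InjOn ψ (ball 0 1) := fun z hz z' hz' h => by
  rw [← c.φψ z hz, h, c.φψ z' hz']

theorem φzero (c : CM R Γ Ω φ ψ g Φ) {w : ℂ} (hw : w ∈ Ω) (h : φ w = 0) : w = 0 := by
  have := c.ψφ w hw
  rw [h, c.ψ0] at this
  exact this.symm

theorem Φne (c : CM R Γ Ω φ ψ g Φ) {ζ : ℂ} (hζ : ζ ∈ ann R⁻¹ R) : Φ ζ ≠ 0 := by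
  intro h
  have := c.Φr ζ hζ
  rw [h, map_zero, zero_mul] at this
  exact zero_ne_one this

theorem Φone (c : CM R Γ Ω φ ψ g Φ) (h : AC R Γ) {ζ : ℂ} (hζ : ‖ζ‖ = 1) : ‖Φ ζ‖ = 1 := by
  have h1 := c.Φr ζ (h.mem1 hζ)
  rw [conj_inv_of_norm_one hζ] at h1
  have h2 : ‖conj (Φ ζ) * Φ ζ‖ = 1 := by rw [h1, norm_one]
  rw [norm_mul, RCLike.norm_conj] at h2
  nlinarith [norm_nonneg (Φ ζ)]

theorem Φlt (c : CM R Γ Ω φ ψ g Φ) {ζ : ℂ} (hζ : ζ ∈ ann R⁻¹ R) (h1 : ‖ζ‖ < 1) : ‖Φ ζ‖ < 1 := by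
  rw [c.Φin ζ hζ h1]
  exact c.φm _ ((c.mem ζ hζ).2 h1)

theorem Φgt (c : CM R Γ Ω φ ψ g Φ) (h : AC R Γ) {ζ : ℂ} (hζ : ζ ∈ ann R⁻¹ R) (h1 : 1 < ‖ζ‖) :
    1 < ‖Φ ζ‖ := by
  have h2 := c.Φr ζ hζ
  have h3 : ‖(conj ζ)⁻¹‖ < 1 := by
    rw [norm_inv, RCLike.norm_conj]; exact inv_lt_one_of_one_lt₀ h1
  have h4 := c.Φlt (conj_inv_mem h.R0 hζ) h3
  have h5 : ‖Φ ζ‖ * ‖Φ (conj ζ)⁻¹‖ = 1 := by
    rw [← RCLike.norm_conj (Φ ζ), ← norm_mul, h2, norm_one]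
  by_contra hcon
  rw [not_lt] at hcon
  nlinarith [norm_nonneg (Φ ζ), norm_nonneg (Φ (conj ζ)⁻¹)]

theorem Φge (c : CM R Γ Ω φ ψ g Φ) (h : AC R Γ) {ζ : ℂ} (hζ : ζ ∈ ann R⁻¹ R) (h1 : 1 ≤ ‖ζ‖) :
    1 ≤ ‖Φ ζ‖ := by
  rcases h1.eq_or_lt with h2 | h2
  · exact (c.Φone h h2.symm).ge
  · exact (c.Φgt h hζ h2).le

/-- Hopf lemma -/
theorem hopf (c : CM R Γ Ω φ ψ g Φ) (h : AC R Γ) {ζ : ℂ} (hζ : ‖ζ‖ = 1) :
    0 < (ζ * deriv Φ ζ / Φ ζ).re := by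
  set ρ := (R⁻¹ + 1) / 2 with hρ
  have hρ1 : R⁻¹ < ρ := by rw [hρ]; linarith [h.Ri]
  have hρ2 : ρ < 1 := by rw [hρ]; linarith [h.Ri]
  have hρ0 : 0 < ρ := h.Ri0.trans hρ1
  have hsub : sphere (0 : ℂ) ρ ⊆ ann R⁻¹ R := h.sph hρ1 (hρ2.trans h.hR)
  obtain ⟨M, hM0, hM1, hM⟩ : ∃ M, 0 ≤ M ∧ M < 1 ∧ ∀ z ∈ sphere (0 : ℂ) ρ, ‖Φ z‖ ≤ M := by
    obtain ⟨z, hz, hmax⟩ := (isCompact_sphere (0 : ℂ) ρ).exists_isMaxOn
      (NormedSpace.sphere_nonempty.2 hρ0.le) ((c.Φd.continuousOn.mono hsub).norm)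
    refine ⟨‖Φ z‖, norm_nonneg _, c.Φlt (hsub hz) ?_, fun y hy => hmax hy⟩
    rw [mem_sphere_zero_iff_norm.1 hz]; exact hρ2
  obtain ⟨N, hN⟩ := exists_pow_lt_of_lt_one hρ0 hM1
  have key : ∀ z : ℂ, ρ ≤ ‖z‖ → ‖z‖ ≤ 1 → ‖Φ z‖ ^ N ≤ ‖z‖ := by
    intro z hz hz'
    have h1 : DifferentiableOn ℂ (fun z => Φ z ^ N / z) (ann R⁻¹ R) :=
      (c.Φd.pow N).div differentiableOn_id fun z hz => h.nz hz
    have h2 := max_ann (a := ρ) (b := 1) hρ1 h.hR h1 (C := 1) (fun z hz => ?_) (fun z hz => ?_)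
      hz hz'
    · rw [norm_div, norm_pow, div_le_one (hρ0.trans_le hz)] at h2
      exact h2
    · rw [norm_div, norm_pow, hz, div_le_one hρ0]
      exact (pow_le_pow_left₀ (norm_nonneg _) (hM z (mem_sphere_zero_iff_norm.2 hz)) N).trans hN.le
    · rw [norm_div, norm_pow, hz, c.Φone h hz]; simp
  have hd : HasDerivAt Φ (deriv Φ ζ) ζ :=
    (c.Φd.differentiableAt ((isOpen_ann _ _).mem_nhds (h.mem1 hζ))).hasDerivAt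
  have h1 : HasDerivAt (fun r : ℝ => Φ ((r : ℂ) * ζ)) (ζ * deriv Φ ζ) 1 := by
    have h2 : HasDerivAt (fun r : ℝ => (r : ℂ) * ζ) ζ 1 := by
      simpa using (Complex.ofRealCLM.hasDerivAt (x := (1 : ℝ))).mul_const ζ
    have h3 : HasDerivAt Φ (deriv Φ ζ) (((1 : ℝ) : ℂ) * ζ) := by simpa using hd
    have h4 := h3.comp (1 : ℝ) h2
    simpa [Function.comp_def, mul_comm] using h4
  have h2 := h1.norm_sq
  have h3 := h2.pow N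
  have h4 : HasDerivAt (fun r : ℝ => (‖Φ ((r : ℂ) * ζ)‖ ^ 2) ^ N - r ^ 2) _ 1 :=
    h3.sub (hasDerivAt_pow 2 (1 : ℝ))
  have h5 := deriv_nonneg_of_left_max hρ2 h4 (fun r hr hr' => ?_)
  · simp only [Complex.ofReal_one, one_mul, c.Φone h hζ, one_pow, mul_one, Nat.cast_ofNat] at h5
    have h6 : inner ℝ (Φ ζ) (ζ * deriv Φ ζ) = (ζ * deriv Φ ζ / Φ ζ).re := by
      rw [Complex.inner]
      congr 1
      have h7 : conj (Φ ζ) = (Φ ζ)⁻¹ := by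
        have h8 : conj (Φ ζ) * Φ ζ = 1 := by
          have := c.Φr ζ (h.mem1 hζ)
          rwa [conj_inv_of_norm_one hζ] at this
        exact eq_inv_of_mul_eq_one_left h8
      rw [h7]; ring
    rw [h6] at h5
    by_contra hcon
    rw [not_lt] at hcon
    have h9 : (N : ℝ) * (2 * (ζ * deriv Φ ζ / Φ ζ).re) ≤ 0 :=
      mul_nonpos_of_nonneg_of_nonpos (Nat.cast_nonneg N) (by linarith)
    linarith
  · have hr0 : 0 < r := hρ0.trans hr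
    have hn : ‖(r : ℂ) * ζ‖ = r := by
      rw [norm_mul, hζ, mul_one, Complex.norm_real, Real.norm_of_nonneg hr0.le]
    have h6 := key ((r : ℂ) * ζ) (by rw [hn]; exact hr.le) (by rw [hn]; exact hr'.le)
    rw [hn] at h6
    have h7 : (‖Φ ((r : ℂ) * ζ)‖ ^ 2) ^ N ≤ r ^ 2 := by
      rw [← pow_mul, mul_comm 2 N, pow_mul]
      exact pow_le_pow_left₀ (by positivity) h6 2
    simp only [Complex.ofReal_one, one_mul, c.Φone h hζ, one_pow]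
    linarith

end CM

end Vale.Agent.P220.H64
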