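import Vale.Agent.P116.FK.RF
import Vale.Agent.P116.FK.E
import Vale.Agent.P116.FK.Top

/-!
# The Jordan curve theorem for analytic curves of degree one
-/

open Set Metric Filter Topology Complex Bornology
open scoped ComplexConjugate Real

namespace Vale.Agent.P220.H64

open Vale.Agent.P116.FK

/-- univalent function on an annulus, of degree one -/
structure AC (R : ℝ) (Γ : ℂ → ℂ) : Prop where
  hR : 1 < R
  diff : DifferentiableOn ℂ Γ (ann R⁻¹ R)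
  inj : InjOn Γ (ann R⁻¹ R)
  deg : ∃ p : ℂ → ℂ, DifferentiableOn ℂ p (ann R⁻¹ R) ∧ ∀ ζ ∈ ann R⁻¹ R, Γ ζ = ζ * exp (p ζ)

/-- winding number integral -/
noncomputable def wn (Γ : ℂ → ℂ) (ρ : ℝ) (w : ℂ) : ℂ := ∮ ζ in C(0, ρ), deriv Γ ζ / (Γ ζ - w)

namespace AC

variable {R : ℝ} {Γ : ℂ → ℂ}

theorem R0 (h : AC R Γ) : 0 < R := by linarith [h.hR]

theorem Ri (h : AC R Γ) : R⁻¹ < 1 := inv_lt_one_of_one_lt₀ h.hR

theorem Ri0 (h : AC R Γ) : 0 < R⁻¹ := inv_pos.2 h.R0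

theorem mem1 (h : AC R Γ) {ζ : ℂ} (hζ : ‖ζ‖ = 1) : ζ ∈ ann R⁻¹ R :=
  ⟨by rw [hζ]; exact h.Ri, by rw [hζ]; exact h.hR⟩

theorem sph (_h : AC R Γ) {ρ : ℝ} (h1 : R⁻¹ < ρ) (h2 : ρ < R) : sphere (0 : ℂ) ρ ⊆ ann R⁻¹ R := by
  intro ζ hζ
  rw [mem_sphere_zero_iff_norm] at hζ
  exact ⟨hζ ▸ h1, hζ ▸ h2⟩

theorem dat (h : AC R Γ) {ζ : ℂ} (hζ : ζ ∈ ann R⁻¹ R) : DifferentiableAt ℂ Γ ζ :=
  h.diff.differentiableAt ((isOpen_ann _ _).mem_nhds hζ)

theorem ne0 (h : AC R Γ) {ζ : ℂ} (hζ : ζ ∈ ann R⁻¹ R) : Γ ζ ≠ 0 := by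
  obtain ⟨p, _, hp⟩ := h.deg
  rw [hp ζ hζ]
  refine mul_ne_zero (fun h0 => ?_) (exp_ne_zero _)
  have := hζ.1
  rw [h0, norm_zero] at this
  exact absurd this (not_lt.2 h.Ri0.le)

theorem dcont (h : AC R Γ) : ContinuousOn (deriv Γ) (ann R⁻¹ R) :=
  (h.diff.deriv (isOpen_ann _ _)).continuousOn

theorem ci (h : AC R Γ) {ρ : ℝ} (h1 : R⁻¹ < ρ) (h2 : ρ < R) {w : ℂ}
    (hw : w ∉ Γ '' sphere 0 ρ) : CircleIntegrable (fun ζ => deriv Γ ζ / (Γ ζ - w)) 0 ρ := by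
  refine ContinuousOn.circleIntegrable (h.Ri0.trans h1).le ?_
  refine (h.dcont.mono (h.sph h1 h2)).div
    ((h.diff.continuousOn.mono (h.sph h1 h2)).sub continuousOn_const) fun ζ hζ h0 => ?_
  exact hw ⟨ζ, hζ, sub_eq_zero.1 h0⟩

theorem compact_im (h : AC R Γ) {ρ : ℝ} (h1 : R⁻¹ < ρ) (h2 : ρ < R) :
    IsCompact (Γ '' sphere 0 ρ) :=
  (isCompact_sphere _ _).image_of_continuousOn (h.diff.continuousOn.mono (h.sph h1 h2))

theorem wn_locConst (h : AC R Γ) {ρ : ℝ} (h1 : R⁻¹ < ρ) (h2 : ρ < R) {w₀ : ℂ}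
    (hw : w₀ ∉ Γ '' sphere 0 ρ) : ∀ᶠ w in 𝓝 w₀, wn Γ ρ w = wn Γ ρ w₀ := by
  have hcl : IsClosed (Γ '' sphere 0 ρ) := (h.compact_im h1 h2).isClosed
  obtain ⟨d, hd, hball⟩ := Metric.isOpen_iff.1 hcl.isOpen_compl w₀ hw
  filter_upwards [ball_mem_nhds w₀ hd] with w hww
  have hρ : 0 ≤ ρ := (h.Ri0.trans h1).le
  have hfar : ∀ ζ ∈ sphere (0 : ℂ) ρ, d ≤ ‖Γ ζ - w₀‖ := by
    intro ζ hζ
    by_contra hcon
    exact hball (mem_ball_iff_norm.2 (not_le.1 hcon)) ⟨ζ, hζ, rfl⟩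
  have hww' : ‖w - w₀‖ < d := mem_ball_iff_norm.1 hww
  have key : (∮ ζ in C(0, ρ), (deriv Γ ζ / (Γ ζ - w) - deriv Γ ζ / (Γ ζ - w₀))) = 0 := by
    refine circleIntegral.integral_eq_zero_of_hasDerivWithinAt
      (f := fun ζ => Complex.log ((Γ ζ - w) / (Γ ζ - w₀))) hρ fun ζ hζ => ?_
    have h3 : HasDerivAt Γ (deriv Γ ζ) ζ := (h.dat (h.sph h1 h2 hζ)).hasDerivAt
    have h4 : Γ ζ - w₀ ≠ 0 := norm_pos_iff.1 (hd.trans_le (hfar ζ hζ))
    have h5 : Γ ζ - w ≠ 0 := by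
      intro h0
      have : w = Γ ζ := (sub_eq_zero.1 h0).symm
      rw [this] at hww'
      exact absurd hww' (not_lt.2 (hfar ζ hζ))
    have h6 : (Γ ζ - w) / (Γ ζ - w₀) ∈ slitPlane := by
      have h7 : (Γ ζ - w) / (Γ ζ - w₀) = 1 - (w - w₀) / (Γ ζ - w₀) := by
        field_simp; ring
      rw [h7, sub_eq_add_neg]
      refine Complex.mem_slitPlane_of_norm_lt_one ?_
      rw [norm_neg, norm_div, div_lt_one (norm_pos_iff.2 h4)]
      exact hww'.trans_le (hfar ζ hζ)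
    have h8 : HasDerivAt (fun ζ => (Γ ζ - w) / (Γ ζ - w₀))
        ((deriv Γ ζ * (Γ ζ - w₀) - (Γ ζ - w) * deriv Γ ζ) / (Γ ζ - w₀) ^ 2) ζ :=
      (h3.sub_const w).div (h3.sub_const w₀) h4
    have h9 := (h8.clog h6).hasDerivWithinAt (s := sphere 0 ρ)
    convert h9 using 1
    field_simp
  rw [circleIntegral.integral_sub (h.ci h1 h2 ?_) (h.ci h1 h2 hw)] at key
  · exact sub_eq_zero.1 key
  · rintro ⟨ζ, hζ, rfl⟩
    exact absurd hww' (not_lt.2 (hfar ζ hζ))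

theorem wn_const (h : AC R Γ) {ρ : ℝ} (h1 : R⁻¹ < ρ) (h2 : ρ < R) {S : Set ℂ}
    (hS : IsPreconnected S) (hd : Disjoint S (Γ '' sphere 0 ρ)) {w w' : ℂ} (hw : w ∈ S)
    (hw' : w' ∈ S) : wn Γ ρ w = wn Γ ρ w' := by
  refine hS.induction₂ (fun x y => wn Γ ρ x = wn Γ ρ y) (fun x hx => ?_)
    (fun x y z _ _ _ hxy hyz => hxy.trans hyz) (fun x y _ _ hxy => hxy.symm) hw hw'
  have := h.wn_locConst h1 h2 (fun hx' => disjoint_left.1 hd hx hx')
  exact (this.mono fun y hy => hy.symm).filter_mono nhdsWithin_le_nhds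

theorem wn_far (h : AC R Γ) {ρ : ℝ} (h1 : R⁻¹ < ρ) (h2 : ρ < R) {ε : ℝ} (hε : 0 < ε) :
    ∃ M : ℝ, ∀ w, M < ‖w‖ → ‖wn Γ ρ w‖ ≤ ε := by
  have hρ : 0 ≤ ρ := (h.Ri0.trans h1).le
  obtain ⟨A, hA⟩ := (isCompact_sphere (0 : ℂ) ρ).exists_bound_of_continuousOn
    (h.dcont.mono (h.sph h1 h2))
  obtain ⟨B, hB⟩ := (isCompact_sphere (0 : ℂ) ρ).exists_bound_of_continuousOn
    (h.diff.continuousOn.mono (h.sph h1 h2))
  set A' := max A 0
  have hA0 : 0 ≤ A' := le_max_right _ _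
  refine ⟨B + (2 * π * ρ * A' / ε) + 1, fun w hw => ?_⟩
  set M := 2 * π * ρ * A' / ε with hM
  have hM0 : 0 ≤ M := by positivity
  have hb : ∀ ζ ∈ sphere (0 : ℂ) ρ, ‖deriv Γ ζ / (Γ ζ - w)‖ ≤ A' / (M + 1) := by
    intro ζ hζ
    have h3 : M + 1 ≤ ‖Γ ζ - w‖ := by
      have := norm_sub_norm_le w (Γ ζ)
      rw [norm_sub_rev] at this
      have := hB ζ hζ
      linarith
    rw [norm_div]
    exact div_le_div₀ hA0 ((hA ζ hζ).trans (le_max_left _ _)) (by linarith) h3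
  have h4 := circleIntegral.norm_integral_le_of_norm_le_const hρ hb
  refine h4.trans ?_
  rw [← mul_div_assoc, div_le_iff₀ (by linarith)]
  have h5 : 2 * π * ρ * A' = M * ε := by rw [hM]; field_simp
  rw [h5]
  nlinarith

theorem wn_zero (h : AC R Γ) : wn Γ 1 0 = 2 * π * I := by
  obtain ⟨p, hp, hΓ⟩ := h.deg
  have h1 : ∀ ζ ∈ sphere (0 : ℂ) 1, deriv Γ ζ / (Γ ζ - 0) = (ζ - 0)⁻¹ + deriv p ζ := by
    intro ζ hζ
    have hζ' := h.sph h.Ri h.hR hζ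
    have hpd : HasDerivAt p (deriv p ζ) ζ :=
      (hp.differentiableAt ((isOpen_ann _ _).mem_nhds hζ')).hasDerivAt
    have h2 : HasDerivAt (fun ζ => ζ * exp (p ζ))
        (1 * exp (p ζ) + ζ * (exp (p ζ) * deriv p ζ)) ζ := (hasDerivAt_id ζ).mul hpd.cexp
    have h3 : Γ =ᶠ[𝓝 ζ] fun ζ => ζ * exp (p ζ) := by
      filter_upwards [(isOpen_ann R⁻¹ R).mem_nhds hζ'] with z hz
      exact hΓ z hz
    have hζ0 : ζ ≠ 0 := by
      intro h0
      rw [h0, mem_sphere_zero_iff_norm, norm_zero] at hζ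
      exact zero_ne_one hζ
    rw [h3.deriv_eq, h2.deriv, hΓ ζ hζ', sub_zero, sub_zero]
    have := exp_ne_zero (p ζ)
    field_simp
  have hpc : CircleIntegrable (deriv p) 0 1 :=
    ((hp.deriv (isOpen_ann _ _)).continuousOn.mono (h.sph h.Ri h.hR)).circleIntegrable zero_le_one
  have hic : CircleIntegrable (fun ζ : ℂ => (ζ - 0)⁻¹) 0 1 := by
    refine (ContinuousOn.inv₀ (by fun_prop) fun ζ hζ h0 => ?_).circleIntegrable zero_le_one
    rw [sub_zero] at h0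
    rw [h0, mem_sphere_zero_iff_norm, norm_zero] at hζ
    exact zero_ne_one hζ
  rw [wn, circleIntegral.integral_congr zero_le_one h1, circleIntegral.integral_add hic hpc]
  rw [circleIntegral.integral_sub_inv_of_mem_ball (mem_ball_self one_pos)]
  rw [circleIntegral.integral_eq_zero_of_hasDerivWithinAt (f := p) zero_le_one, add_zero]
  intro ζ hζ
  exact ((hp.differentiableAt ((isOpen_ann _ _).mem_nhds
    (h.sph h.Ri h.hR hζ))).hasDerivAt).hasDerivWithinAt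

/-- the jump relation -/
theorem wn_jump (h : AC R Γ) {ω₁ ω₂ : ℂ} (h1 : ω₁ ∈ ann R⁻¹ R) (h2 : ω₂ ∈ ann R⁻¹ R)
    (h1' : ‖ω₁‖ < 1) (h2' : 1 < ‖ω₂‖) : wn Γ 1 (Γ ω₁) = wn Γ 1 (Γ ω₂) + 2 * π * I := by
  -- the regular part
  set c : ℂ → ℝ → ℂ := fun ω ρ => ∮ ζ in C(0, ρ), deriv (dslope Γ ω) ζ / dslope Γ ω ζ with hc
  have hds : ∀ ω ∈ ann R⁻¹ R, DifferentiableOn ℂ (dslope Γ ω) (ann R⁻¹ R) := fun ω hω =>
    (differentiableOn_dslope ((isOpen_ann _ _).mem_nhds hω)).2 h.diff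
  have hdn : ∀ ω ∈ ann R⁻¹ R, ∀ ζ ∈ ann R⁻¹ R, dslope Γ ω ζ ≠ 0 := by
    intro ω hω ζ hζ
    by_cases hne : ζ = ω
    · subst hne
      rw [dslope_same]
      exact injOn_deriv_ne_zero (isOpen_ann _ _) h.diff h.inj hω
    · rw [dslope_of_ne _ hne, slope_def_field]
      exact div_ne_zero (sub_ne_zero.2 fun h0 => hne (h.inj hζ hω h0)) (sub_ne_zero.2 hne)
  have hdq : ∀ ω ∈ ann R⁻¹ R, DifferentiableOn ℂ
      (fun ζ => deriv (dslope Γ ω) ζ / dslope Γ ω ζ) (ann R⁻¹ R) := fun ω hω =>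
    ((hds ω hω).deriv (isOpen_ann _ _)).div (hds ω hω) (hdn ω hω)
  have hcρ : ∀ ω ∈ ann R⁻¹ R, ∀ ρ, 1 ≤ ρ → ρ < R → c ω ρ = c ω 1 := fun ω hω ρ h3 h4 =>
    ann_eq one_pos h.Ri h3 h4 (hdq ω hω)
  have hwn : ∀ ω ∈ ann R⁻¹ R, ∀ ρ, R⁻¹ < ρ → ρ < R → ρ ≠ ‖ω‖ →
      wn Γ ρ (Γ ω) = (∮ ζ in C(0, ρ), (ζ - ω)⁻¹) + c ω ρ := by
    intro ω hω ρ h3 h4 h5
    have hρ : 0 ≤ ρ := (h.Ri0.trans h3).le
    have hne : ∀ ζ ∈ sphere (0 : ℂ) ρ, ζ - ω ≠ 0 := by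
      intro ζ hζ h0
      rw [mem_sphere_zero_iff_norm, sub_eq_zero.1 h0] at hζ
      exact h5 hζ.symm
    rw [wn, hc, ← circleIntegral.integral_add]
    · refine circleIntegral.integral_congr hρ fun ζ hζ => ?_
      have hζ' := h.sph h3 h4 hζ
      have h6 : Γ =ᶠ[𝓝 ζ] fun z => Γ ω + (z - ω) * dslope Γ ω z := by
        filter_upwards [(isOpen_ann R⁻¹ R).mem_nhds hζ'] with z hz
        have := sub_smul_dslope Γ ω z
        rw [smul_eq_mul] at this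
        rw [this]; ring
      have h7 : HasDerivAt (dslope Γ ω) (deriv (dslope Γ ω) ζ) ζ :=
        ((hds ω hω).differentiableAt ((isOpen_ann _ _).mem_nhds hζ')).hasDerivAt
      have h8 : HasDerivAt (fun z => Γ ω + (z - ω) * dslope Γ ω z)
          (1 * dslope Γ ω ζ + (ζ - ω) * deriv (dslope Γ ω) ζ) ζ :=
        (((hasDerivAt_id ζ).sub_const ω).mul h7).const_add _
      have h9 : Γ ζ - Γ ω = (ζ - ω) * dslope Γ ω ζ := by
        have := sub_smul_dslope Γ ω ζ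
        rw [smul_eq_mul] at this
        exact this.symm
      rw [h6.deriv_eq, h8.deriv, h9]
      have h10 := hdn ω hω ζ hζ'
      have h11 := hne ζ hζ
      field_simp
    · exact (ContinuousOn.inv₀ (by fun_prop) hne).circleIntegrable hρ
    · exact ((hdq ω hω).continuousOn.mono (h.sph h3 h4)).circleIntegrable hρ
  -- choose `ρ'`
  obtain ⟨ρ', h3, h4⟩ : ∃ ρ', ‖ω₂‖ < ρ' ∧ ρ' < R := exists_between h2.2
  have h5 : 1 < ρ' := h2'.trans h3
  have h6 : wn Γ ρ' (Γ ω₁) = wn Γ ρ' (Γ ω₂) := by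
    refine h.wn_const (S := Γ '' ann R⁻¹ ρ') (h.Ri.trans h5) h4 ?_ ?_ ?_ ?_
    · refine (isConnected_ann h.Ri0.le (h.Ri.trans h5)).isPreconnected.image _ ?_
      exact h.diff.continuousOn.mono fun z hz => ⟨hz.1, hz.2.trans h4⟩
    · rw [disjoint_left]
      rintro _ ⟨z, hz, rfl⟩ ⟨z', hz', h7⟩
      have h8 := h.inj (h.sph (h.Ri.trans h5) h4 hz') ⟨hz.1, hz.2.trans h4⟩ h7
      rw [mem_sphere_zero_iff_norm, h8] at hz'
      exact absurd hz.2 (not_lt.2 hz'.ge)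
    · exact ⟨ω₁, ⟨h1.1, h1'.trans h5⟩, rfl⟩
    · exact ⟨ω₂, ⟨h2.1, h3⟩, rfl⟩
  rw [hwn ω₁ h1 ρ' (h.Ri.trans h5) h4 (by linarith), hwn ω₂ h2 ρ' (h.Ri.trans h5) h4 (by linarith),
    circleIntegral.integral_sub_inv_of_mem_ball (mem_ball_zero_iff.2 (h1'.trans h5)),
    circleIntegral.integral_sub_inv_of_mem_ball (mem_ball_zero_iff.2 h3), hcρ ω₁ h1 ρ' h5.le h4,
    hcρ ω₂ h2 ρ' h5.le h4] at h6
  rw [hwn ω₁ h1 1 h.Ri h.hR (by linarith), hwn ω₂ h2 1 h.Ri h.hR (by linarith),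
    circleIntegral.integral_sub_inv_of_mem_ball (mem_ball_zero_iff.2 h1')]
  have h7 : (∮ ζ in C(0, 1), (ζ - ω₂)⁻¹) = 0 := by
    refine Complex.circleIntegral_eq_zero_of_differentiable_on_off_countable zero_le_one
      Set.countable_empty ?_ ?_
    · refine ContinuousOn.inv₀ (by fun_prop) fun ζ hζ h0 => ?_
      rw [mem_closedBall_zero_iff, sub_eq_zero.1 h0] at hζ
      exact absurd h2' (not_lt.2 hζ)
    · intro ζ hζ
      have hζ' : ζ ∈ ball (0 : ℂ) 1 := hζ.1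
      refine DifferentiableAt.inv (by fun_prop) fun h0 => ?_
      rw [mem_ball_zero_iff, sub_eq_zero.1 h0] at hζ'
      exact absurd h2' (not_lt.2 hζ'.le)
  rw [h7]
  linear_combination h6

theorem out_pre (h : AC R Γ) : IsPreconnected (Γ '' ann 1 R) :=
  (isConnected_ann zero_le_one h.hR).isPreconnected.image _
    (h.diff.continuousOn.mono fun _ hz => ⟨h.Ri.trans hz.1, hz.2⟩)

theorem in_pre (h : AC R Γ) : IsPreconnected (Γ '' ann R⁻¹ 1) :=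
  (isConnected_ann h.Ri0.le h.Ri).isPreconnected.image _
    (h.diff.continuousOn.mono fun _ hz => ⟨hz.1, hz.2.trans h.hR⟩)

theorem notMem_J (h : AC R Γ) {ζ : ℂ} (hζ : ζ ∈ ann R⁻¹ R) (h1 : ‖ζ‖ ≠ 1) :
    Γ ζ ∉ Γ '' sphere 0 1 := by
  rintro ⟨z, hz, h2⟩
  have := h.inj (h.sph h.Ri h.hR hz) hζ h2
  rw [← this] at h1
  exact h1 (mem_sphere_zero_iff_norm.1 hz)

/-- the Jordan curve theorem -/
theorem exists_K (h : AC R Γ) : ∃ K : Set ℂ, IsCompact K ∧ IsConnected K ∧ IsConnected Kᶜ ∧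
    (0 : ℂ) ∈ K ∧ (∀ ζ ∈ ann R⁻¹ R, Γ ζ ∈ K ↔ ‖ζ‖ ≤ 1) ∧
    ∀ z ∈ K, z ∈ closure Kᶜ → z ∈ Γ '' sphere 0 1 := by
  set J := Γ '' sphere (0 : ℂ) 1 with hJ
  have hJc : IsCompact J := h.compact_im h.Ri h.hR
  have hJo : IsOpen Jᶜ := hJc.isClosed.isOpen_compl
  obtain ⟨ω₁, hω₁⟩ := (isConnected_ann h.Ri0.le h.Ri).nonempty
  obtain ⟨ω₂, hω₂⟩ := (isConnected_ann zero_le_one h.hR).nonempty
  have hω₁' : ω₁ ∈ ann R⁻¹ R := ⟨hω₁.1, hω₁.2.trans h.hR⟩
  have hω₂' : ω₂ ∈ ann R⁻¹ R := ⟨h.Ri.trans hω₂.1, hω₂.2⟩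
  have hjump := h.wn_jump hω₁' hω₂' hω₁.2 hω₂.1
  have hdin : Disjoint (Γ '' ann R⁻¹ 1) J := by
    rw [disjoint_left]
    rintro _ ⟨z, hz, rfl⟩
    exact h.notMem_J ⟨hz.1, hz.2.trans h.hR⟩ hz.2.ne
  have hdout : Disjoint (Γ '' ann 1 R) J := by
    rw [disjoint_left]
    rintro _ ⟨z, hz, rfl⟩
    exact h.notMem_J ⟨h.Ri.trans hz.1, hz.2⟩ hz.1.ne'
  -- each component touches the curve
  have hcomp : ∀ w ∉ J, (connectedComponentIn Jᶜ w ∩ Γ '' ann R⁻¹ 1).Nonempty ∨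
      (connectedComponentIn Jᶜ w ∩ Γ '' ann 1 R).Nonempty := by
    intro w hw
    set C := connectedComponentIn Jᶜ w with hC
    have hwC : w ∈ C := mem_connectedComponentIn hw
    have hCo : IsOpen C := hJo.connectedComponentIn
    have hCs : C ⊆ Jᶜ := connectedComponentIn_subset _ _
    have hne : C ≠ univ := by
      intro h0
      have h1 : Γ 1 ∈ C := by rw [h0]; trivial
      exact hCs h1 ⟨1, by simp, rfl⟩
    obtain ⟨z, hz⟩ := nonempty_frontier_iff.2 ⟨⟨w, hwC⟩, hne⟩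
    have hzc : z ∈ closure C := frontier_subset_closure hz
    have hzn : z ∉ C := fun h0 => by
      rw [hCo.frontier_eq] at hz
      exact hz.2 h0
    have hzJ : z ∈ J := by
      by_contra hzJ
      have h1 : IsPreconnected (insert z C) :=
        isPreconnected_connectedComponentIn.subset_closure (subset_insert _ _)
          (insert_subset hzc subset_closure)
      have h2 := h1.subset_connectedComponentIn (mem_insert_of_mem _ hwC)
        (insert_subset hzJ hCs)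
      exact hzn (h2 (mem_insert _ _))
    obtain ⟨ζ₀, hζ₀, rfl⟩ := hzJ
    have hN : Γ '' ann R⁻¹ R ∈ 𝓝 (Γ ζ₀) :=
      (isOpen_image_of_injOn (isOpen_ann _ _) h.diff h.inj).mem_nhds
        ⟨ζ₀, h.sph h.Ri h.hR hζ₀, rfl⟩
    obtain ⟨_, ⟨ζ, hζ, rfl⟩, hζC⟩ := mem_closure_iff_nhds.1 hzc _ hN
    rcases lt_trichotomy ‖ζ‖ 1 with h1 | h1 | h1
    · exact Or.inl ⟨_, hζC, ζ, ⟨hζ.1, h1⟩, rfl⟩
    · exact absurd ⟨ζ, by rwa [mem_sphere_zero_iff_norm], rfl⟩ (hCs hζC)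
    · exact Or.inr ⟨_, hζC, ζ, ⟨h1, hζ.2⟩, rfl⟩
  have hCd : ∀ w, Disjoint (connectedComponentIn Jᶜ w) J := fun w =>
    disjoint_left.2 fun x hx => connectedComponentIn_subset _ _ hx
  have hin : ∀ w ∈ Γ '' ann R⁻¹ 1, wn Γ 1 w = wn Γ 1 (Γ ω₁) := fun w hw =>
    h.wn_const h.Ri h.hR h.in_pre hdin hw ⟨ω₁, hω₁, rfl⟩
  have hout : ∀ w ∈ Γ '' ann 1 R, wn Γ 1 w = wn Γ 1 (Γ ω₂) := fun w hw =>
    h.wn_const h.Ri h.hR h.out_pre hdout hw ⟨ω₂, hω₂, rfl⟩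
  have hval1 : ∀ w ∉ J, (connectedComponentIn Jᶜ w ∩ Γ '' ann R⁻¹ 1).Nonempty →
      wn Γ 1 w = wn Γ 1 (Γ ω₁) := by
    rintro w hw ⟨x, hx, hx'⟩
    rw [← hin x hx']
    exact h.wn_const h.Ri h.hR isPreconnected_connectedComponentIn (hCd w)
      (mem_connectedComponentIn hw) hx
  have hval2 : ∀ w ∉ J, (connectedComponentIn Jᶜ w ∩ Γ '' ann 1 R).Nonempty →
      wn Γ 1 w = wn Γ 1 (Γ ω₂) := by
    rintro w hw ⟨x, hx, hx'⟩
    rw [← hout x hx']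
    exact h.wn_const h.Ri h.hR isPreconnected_connectedComponentIn (hCd w)
      (mem_connectedComponentIn hw) hx
  have h0J : (0 : ℂ) ∉ J := by
    rintro ⟨z, hz, h0⟩
    exact h.ne0 (h.sph h.Ri h.hR hz) h0
  have h2pi : ‖(2 * π * I : ℂ)‖ = 2 * π := by
    simp [abs_of_pos Real.pi_pos]
  have h2pi0 : (2 * π * I : ℂ) ≠ 0 := two_pi_I_ne
  obtain ⟨M, hM⟩ := h.wn_far h.Ri h.hR one_pos
  obtain ⟨M', hM'⟩ := hJc.isBounded.subset_closedBall (0 : ℂ)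
  have hval : wn Γ 1 (Γ ω₂) = 0 := by
    set w : ℂ := ((max (max M M') 0 + 1 : ℝ) : ℂ) with hw
    have hwn : ‖w‖ = max (max M M') 0 + 1 := by
      rw [hw, Complex.norm_real, Real.norm_of_nonneg (by positivity)]
    have hwM : M < ‖w‖ := by rw [hwn]; linarith [le_max_left M M', le_max_left (max M M') 0]
    have hwM' : M' < ‖w‖ := by rw [hwn]; linarith [le_max_right M M', le_max_left (max M M') 0]
    have hwJ : w ∉ J := fun h1 => by
      have := hM' h1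
      rw [mem_closedBall_zero_iff] at this
      linarith
    have hsmall := hM w hwM
    have hpi : 3 < π := Real.pi_gt_three
    have hz : wn Γ 1 (Γ ω₂) = 0 ∨ wn Γ 1 (Γ ω₂) = 2 * π * I := by
      rcases hcomp 0 h0J with h1 | h1
      · have h2 := hval1 0 h0J h1
        rw [h.wn_zero, hjump] at h2
        left
        linear_combination -h2
      · have h2 := hval2 0 h0J h1
        rw [h.wn_zero] at h2
        exact Or.inr h2.symm
    rcases hz with hz | hz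
    · exact hz
    · exfalso
      rcases hcomp w hwJ with h1 | h1
      · rw [hval1 w hwJ h1, hjump, hz] at hsmall
        have : ‖(2 * π * I + 2 * π * I : ℂ)‖ = 2 * (2 * π) := by
          rw [← two_mul, norm_mul, h2pi]; simp
        rw [this] at hsmall
        linarith
      · rw [hval2 w hwJ h1, hz, h2pi] at hsmall
        linarith
  have hval' : wn Γ 1 (Γ ω₁) = 2 * π * I := by rw [hjump, hval, zero_add]
  set A : Set ℂ := {w | w ∉ J ∧ wn Γ 1 w = 2 * π * I} with hA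
  set B : Set ℂ := {w | w ∉ J ∧ wn Γ 1 w = 0} with hB
  have hAo : IsOpen A := by
    rw [isOpen_iff_mem_nhds]
    rintro w ⟨hw, hw'⟩
    filter_upwards [hJo.mem_nhds hw, h.wn_locConst h.Ri h.hR hw] with x hx hx'
    exact ⟨hx, hx'.trans hw'⟩
  have hBo : IsOpen B := by
    rw [isOpen_iff_mem_nhds]
    rintro w ⟨hw, hw'⟩
    filter_upwards [hJo.mem_nhds hw, h.wn_locConst h.Ri h.hR hw] with x hx hx'
    exact ⟨hx, hx'.trans hw'⟩
  have hcov : ∀ w ∉ J, w ∈ A ∨ w ∈ B := by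
    intro w hw
    rcases hcomp w hw with h1 | h1
    · exact Or.inl ⟨hw, (hval1 w hw h1).trans hval'⟩
    · exact Or.inr ⟨hw, (hval2 w hw h1).trans hval⟩
  have hAB : Disjoint A B := disjoint_left.2 fun w h1 h2 => h2pi0 (h1.2.symm.trans h2.2)
  have hinA : Γ '' ann R⁻¹ 1 ⊆ A := fun w hw =>
    ⟨disjoint_left.1 hdin hw, (hin w hw).trans hval'⟩
  have houtB : Γ '' ann 1 R ⊆ B := fun w hw =>
    ⟨disjoint_left.1 hdout hw, (hout w hw).trans hval⟩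
  have hAc : IsPreconnected A := by
    refine isPreconnected_of_forall (Γ ω₁) fun y hy => ?_
    refine ⟨connectedComponentIn Jᶜ y ∪ Γ '' ann R⁻¹ 1, ?_, Or.inr ⟨ω₁, hω₁, rfl⟩,
      Or.inl (mem_connectedComponentIn hy.1), ?_⟩
    · refine union_subset (fun x hx => ?_) hinA
      exact ⟨connectedComponentIn_subset _ _ hx, (h.wn_const h.Ri h.hR
        isPreconnected_connectedComponentIn (hCd y) hx (mem_connectedComponentIn hy.1)).trans hy.2⟩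
    · rcases hcomp y hy.1 with h1 | h1
      · obtain ⟨x, hx, hx'⟩ := h1
        exact IsPreconnected.union x hx hx' isPreconnected_connectedComponentIn h.in_pre
      · exact absurd ((hval2 y hy.1 h1).trans hval) (fun h2 => h2pi0 (hy.2.symm.trans h2))
  have hBc : IsPreconnected B := by
    refine isPreconnected_of_forall (Γ ω₂) fun y hy => ?_
    refine ⟨connectedComponentIn Jᶜ y ∪ Γ '' ann 1 R, ?_, Or.inr ⟨ω₂, hω₂, rfl⟩,
      Or.inl (mem_connectedComponentIn hy.1), ?_⟩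
    · refine union_subset (fun x hx => ?_) houtB
      exact ⟨connectedComponentIn_subset _ _ hx, (h.wn_const h.Ri h.hR
        isPreconnected_connectedComponentIn (hCd y) hx (mem_connectedComponentIn hy.1)).trans hy.2⟩
    · rcases hcomp y hy.1 with h1 | h1
      · exact absurd ((hval1 y hy.1 h1).trans hval') (fun h2 => h2pi0 (h2.symm.trans hy.2))
      · obtain ⟨x, hx, hx'⟩ := h1
        exact IsPreconnected.union x hx hx' isPreconnected_connectedComponentIn h.out_pre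
  have hKc : (Bᶜ)ᶜ = B := compl_compl B
  have hBK : ∀ w, w ∈ Bᶜ ↔ w ∈ A ∨ w ∈ J := by
    intro w
    constructor
    · intro hw
      by_cases hwJ : w ∈ J
      · exact Or.inr hwJ
      · exact Or.inl ((hcov w hwJ).resolve_right hw)
    · rintro (hw | hw) hw'
      · exact disjoint_left.1 hAB hw hw'
      · exact hw'.1 hw
  refine ⟨Bᶜ, ?_, ?_, ?_, ?_, ?_, ?_⟩
  · refine Metric.isCompact_of_isClosed_isBounded hBo.isClosed_compl ?_
    refine (Metric.isBounded_closedBall (x := (0 : ℂ)) (r := max M M')).subset fun w hw => ?_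
    rw [mem_closedBall_zero_iff]
    by_contra hcon
    rw [not_le] at hcon
    rcases (hBK w).1 hw with h1 | h1
    · have h2 := hM w ((le_max_left _ _).trans_lt hcon)
      rw [h1.2, h2pi] at h2
      linarith [Real.pi_gt_three]
    · have := hM' h1
      rw [mem_closedBall_zero_iff] at this
      exact absurd hcon (not_lt.2 (this.trans (le_max_right _ _)))
  · refine ⟨⟨0, (hBK 0).2 (Or.inl ⟨h0J, h.wn_zero⟩)⟩, ?_⟩
    refine hAc.subset_closure (fun w hw => (hBK w).2 (Or.inl hw)) fun w hw => ?_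
    rcases (hBK w).1 hw with h1 | ⟨ζ, hζ, rfl⟩
    · exact subset_closure h1
    · rw [mem_closure_iff_nhds]
      intro t ht
      have hζ' := h.sph h.Ri h.hR hζ
      have h1 : Tendsto (fun r : ℝ => Γ ((r : ℂ) * ζ)) (𝓝[<] 1) (𝓝 (Γ ζ)) := by
        have h2 : Tendsto (fun r : ℝ => (r : ℂ) * ζ) (𝓝[<] 1) (𝓝 ζ) := by
          have : Tendsto (fun r : ℝ => (r : ℂ) * ζ) (𝓝 1) (𝓝 (((1 : ℝ) : ℂ) * ζ)) :=
            Continuous.tendsto (by fun_prop) _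
          rw [Complex.ofReal_one, one_mul] at this
          exact this.mono_left nhdsWithin_le_nhds
        exact (h.dat hζ').continuousAt.tendsto.comp h2
      have h3 : ∀ᶠ r : ℝ in 𝓝[<] 1, R⁻¹ < r := by
        filter_upwards [Ioo_mem_nhdsLT h.Ri] with r hr using hr.1
      obtain ⟨r, hr1, hr2, hr3⟩ := ((h1.eventually ht).and (h3.and self_mem_nhdsWithin)).exists
      refine ⟨_, hr1, hinA ⟨_, ?_, rfl⟩⟩
      have hr3' : r < 1 := hr3
      have hr0 : 0 < r := h.Ri0.trans hr2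
      have hn : ‖(r : ℂ) * ζ‖ = r := by
        rw [norm_mul, mem_sphere_zero_iff_norm.1 hζ, mul_one, Complex.norm_real,
          Real.norm_of_nonneg hr0.le]
      exact ⟨by rw [hn]; exact hr2, by rw [hn]; exact hr3'⟩
  · rw [hKc]
    exact ⟨⟨_, houtB ⟨ω₂, hω₂, rfl⟩⟩, hBc⟩
  · exact (hBK 0).2 (Or.inl ⟨h0J, h.wn_zero⟩)
  · intro ζ hζ
    constructor
    · intro h1
      by_contra h2
      exact h1 (houtB ⟨ζ, ⟨not_le.1 h2, hζ.2⟩, rfl⟩)
    · intro h1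
      rcases h1.lt_or_eq with h2 | h2
      · exact (hBK _).2 (Or.inl (hinA ⟨ζ, ⟨hζ.1, h2⟩, rfl⟩))
      · exact (hBK _).2 (Or.inr ⟨ζ, mem_sphere_zero_iff_norm.2 h2, rfl⟩)
  · intro z hz hz'
    rw [hKc] at hz'
    rcases (hBK z).1 hz with h1 | h1
    · obtain ⟨x, hx, hx'⟩ := mem_closure_iff_nhds.1 hz' A (hAo.mem_nhds h1)
      exact absurd hx' (disjoint_left.1 hAB hx)
    · exact h1

end AC

end Vale.Agent.P220.H64
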