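import Mathlib

/-!
# Local smooth inverse in finite dimension
-/

open Set Filter Topology
open scoped ContDiff

namespace Vale.Agent.P220.H64

theorem det_ne_zero_of_injective' {E : Type*} [NormedAddCommGroup E] [NormedSpace ℝ E]
    [FiniteDimensional ℝ E] {f : E →L[ℝ] E} (h : Function.Injective f) : f.det ≠ 0 := by
  intro h0
  have h1 : LinearMap.det (f : E →ₗ[ℝ] E) = 0 := h0
  have h2 := LinearMap.bot_lt_ker_of_det_eq_zero h1
  have h3 : LinearMap.ker (f : E →ₗ[ℝ] E) = ⊥ := LinearMap.ker_eq_bot.2 h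
  rw [h3] at h2
  exact lt_irrefl _ h2

theorem exists_loc_inv' {E : Type*} [NormedAddCommGroup E] [NormedSpace ℝ E]
    [FiniteDimensional ℝ E] {A : E → E} (hA : ContDiff ℝ ∞ A) {x₀ : E}
    (hx : Function.Injective (fderiv ℝ A x₀)) :
    ∃ U ∈ 𝓝 (A x₀), ∃ T : E → E, ContDiffOn ℝ ∞ T U ∧ (∀ᶠ x in 𝓝 x₀, T (A x) = x) ∧
      (∀ᶠ y in 𝓝 (A x₀), A (T y) = y) ∧ Tendsto T (𝓝 (A x₀)) (𝓝 x₀) := by
  have : CompleteSpace E := FiniteDimensional.complete ℝ E
  have hd := det_ne_zero_of_injective' hx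
  have hf' : HasFDerivAt A (((fderiv ℝ A x₀).toContinuousLinearEquivOfDetNeZero hd : E ≃L[ℝ] E) :
      E →L[ℝ] E) x₀ := by
    rw [ContinuousLinearMap.coe_toContinuousLinearEquivOfDetNeZero]
    exact (hA.differentiable (by simp) x₀).hasFDerivAt
  set e := (hA.contDiffAt (x := x₀)).toOpenPartialHomeomorph A hf' (by simp) with he
  have hcoe : (e : E → E) = A := rfl
  have hsrc : x₀ ∈ e.source :=
    ContDiffAt.mem_toOpenPartialHomeomorph_source (hA.contDiffAt) hf' (by simp)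
  have htgt : A x₀ ∈ e.target :=
    ContDiffAt.image_mem_toOpenPartialHomeomorph_target (hA.contDiffAt) hf' (by simp)
  have hdc : Continuous fun x => (fderiv ℝ A x).det :=
    ContinuousLinearMap.continuous_det.comp (hA.continuous_fderiv (by simp))
  have hopen : IsOpen (e.target ∩ e.symm ⁻¹' {x | (fderiv ℝ A x).det ≠ 0}) :=
    e.symm.isOpen_inter_preimage (isOpen_ne.preimage hdc)
  have hinv : e.symm (A x₀) = x₀ := e.left_inv hsrc
  refine ⟨_, hopen.mem_nhds ⟨htgt, by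
    show (fderiv ℝ A (e.symm (A x₀))).det ≠ 0
    rw [hinv]; exact hd⟩, e.symm, ?_, ?_, ?_, ?_⟩
  · intro y hy
    have h1 : (fderiv ℝ A (e.symm y)).det ≠ 0 := hy.2
    have h2 : HasFDerivAt e (((fderiv ℝ A (e.symm y)).toContinuousLinearEquivOfDetNeZero h1 :
        E ≃L[ℝ] E) : E →L[ℝ] E) (e.symm y) := by
      rw [ContinuousLinearMap.coe_toContinuousLinearEquivOfDetNeZero]
      exact (hA.differentiable (by simp) _).hasFDerivAt
    exact (e.contDiffAt_symm hy.1 h2 hA.contDiffAt).contDiffWithinAt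
  · filter_upwards [e.open_source.mem_nhds hsrc] with x hx
    exact e.left_inv hx
  · filter_upwards [e.open_target.mem_nhds htgt] with y hy
    exact e.right_inv hy
  · have h := e.continuousAt_symm htgt
    unfold ContinuousAt at h
    rwa [hinv] at h

theorem exists_loc_inv_aux {E : Type*} [NormedAddCommGroup E] [NormedSpace ℝ E]
    [FiniteDimensional ℝ E] {A : E → E} (hA : ContDiff ℝ ∞ A) {x₀ : E}
    (hx : Function.Injective (fderiv ℝ A x₀)) :
    ∃ U ∈ 𝓝 (A x₀), ∃ T : E → E, ContDiffOn ℝ ∞ T U ∧ ∀ᶠ x in 𝓝 x₀, T (A x) = x := by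
  obtain ⟨U, hU, T, h1, h2, -, -⟩ := exists_loc_inv' hA hx
  exact ⟨U, hU, T, h1, h2⟩

end Vale.Agent.P220.H64
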