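import Vale.Agent.P220.H64.Fib

/-!
# Fibred exact Lagrangian tori are Hamiltonian isotopic to the zero section
-/

open Set Filter Topology
open scoped ContDiff Real

namespace Vale.Agent.P220.H64

variable {m : ℕ}

/-- the family of curves of a fibred torus -/
noncomputable def curve (ι : V m → Ph m) (x : V m) : ℂ :=
  ((ι x).2.2 : ℂ) + ((ι x).1.2 : ℂ) * Complex.I

theorem curve_re (ι : V m → Ph m) (x : V m) : (curve ι x).re = (ι x).2.2 := by simp [curve]

theorem curve_im (ι : V m → Ph m) (x : V m) : (curve ι x).im = (ι x).1.2 := by simp [curve]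

/-- an exact torus is Lagrangian -/
theorem IsExactLagTorus.lagrangian {ι : V m → Ph m} (h : IsExactLagTorus ι) (x u v : V m) :
    pair (fderiv ℝ ι x u).2 (fderiv ℝ ι x v).1 = pair (fderiv ℝ ι x v).2 (fderiv ℝ ι x u).1 := by
  obtain ⟨f, hfs, -, hfe⟩ := h.exact
  have hι := h.smooth
  have key : ∀ u v, fderiv ℝ (fderiv ℝ f) x u v = pair (fderiv ℝ ι x u).2 (fderiv ℝ ι x v).1 +
      pair (ι x).2 (fderiv ℝ (fderiv ℝ ι) x u v).1 := by
    intro u v
    have d1 := (hι.differentiable (by simp) x).hasFDerivAt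
    have dP : HasFDerivAt (fun y => (ι y).2) ((ContinuousLinearMap.snd ℝ (V m) (V m)).comp
        (fderiv ℝ ι x)) x := (ContinuousLinearMap.snd ℝ (V m) (V m)).hasFDerivAt.comp x d1
    have dv : HasFDerivAt (fun y => (fderiv ℝ ι y v).1)
        ((ContinuousLinearMap.fst ℝ (V m) (V m)).comp ((fderiv ℝ (fderiv ℝ ι) x).flip v)) x :=
      (ContinuousLinearMap.fst ℝ (V m) (V m)).hasFDerivAt.comp x
        (hasFDerivAt_fderiv_apply hι v x)
    have dl := hasFDerivAt_pair dP dv
    have dr := hasFDerivAt_fderiv_apply hfs v x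
    have e2 : (fun y => fderiv ℝ f y v) = fun y => pair (ι y).2 (fderiv ℝ ι y v).1 :=
      funext fun y => hfe y v
    rw [e2] at dr
    have e3 := congrArg (fun L : V m →L[ℝ] ℝ => L u) (dr.unique dl)
    simp only [ContinuousLinearMap.flip_apply, add_apply,
      ContinuousLinearMap.comp_apply, ContinuousLinearMap.coe_snd', ContinuousLinearMap.coe_fst',
      pairL_apply] at e3
    exact e3
  have h1 := key u v
  have h2 := key v u
  rw [second_symm hfs x v u, second_symm hι x v u] at h2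
  linarith

/-- the derivative of the base components -/
theorem fderiv_base {ι : V m → Ph m} (hs : ContDiff ℝ ∞ ι) (hb : ∀ x, (ι x).1.1 = x.1) (x v : V m) :
    (fderiv ℝ ι x v).1.1 = v.1 := by
  have e1 : HasFDerivAt (fun x => (ι x).1.1) (((ContinuousLinearMap.fst ℝ (Fin m → ℝ) ℝ).comp
      (ContinuousLinearMap.fst ℝ (V m) (V m))).comp (fderiv ℝ ι x)) x :=
    ((ContinuousLinearMap.fst ℝ (Fin m → ℝ) ℝ).comp
      (ContinuousLinearMap.fst ℝ (V m) (V m))).hasFDerivAt.comp x
      (hs.differentiable (by simp) x).hasFDerivAt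
  have e2 : HasFDerivAt (fun x => (ι x).1.1) (ContinuousLinearMap.fst ℝ (Fin m → ℝ) ℝ) x := by
    have : (fun x => (ι x).1.1) = Prod.fst := funext fun x => hb x
    rw [this]
    exact hasFDerivAt_fst
  exact congrArg (fun L : V m →L[ℝ] (Fin m → ℝ) => L v) (e1.unique e2)

/-- the curves of a fibred exact torus are immersed -/
theorem fibred_imm {ι : V m → Ph m} (h : IsExactLagTorus ι) (hb : ∀ x, (ι x).1.1 = x.1)
    (b : Fin m → ℝ) (t : ℝ) (h1 : (fderiv ℝ ι (b, t) (0, 1)).1.2 = 0)
    (h2 : (fderiv ℝ ι (b, t) (0, 1)).2.2 = 0) : False := by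
  have h3 : (fderiv ℝ ι (b, t) (0, 1)).1 = 0 :=
    Prod.ext (fderiv_base h.smooth hb (b, t) (0, 1)) h1
  have h4 : (fderiv ℝ ι (b, t) (0, 1)).2.1 = 0 := by
    funext j
    have h5 := h.lagrangian (b, t) (0, 1) (Pi.single j 1, 0)
    rw [h3, pair_zero_right] at h5
    have h6 := fderiv_base h.smooth hb (b, t) (Pi.single j 1, 0)
    simp only [pair, h6, h2, zero_mul, add_zero, Pi.single_apply, mul_ite, mul_one, mul_zero,
      Finset.sum_ite_eq', Finset.mem_univ, if_true] at h5
    exact h5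
  have h7 : fderiv ℝ ι (b, t) (0, 1) = 0 := Prod.ext h3 (Prod.ext h4 h2)
  have h8 := h.imm (b, t) (h7.trans (map_zero _).symm)
  have h9 : (1 : ℝ) = 0 := congrArg Prod.snd h8
  exact one_ne_zero h9

theorem curve_fam {ι : V m → Ph m} (h : IsExactLagTorus ι) (hf : IsFibred ι) :
    IsCurveFam (curve ι) := by
  have hs := h.smooth
  have he := h.equivariant
  have h1 : ContDiff ℝ ∞ fun x => (ι x).2.2 := contDiff_snd.comp (contDiff_snd.comp hs)
  have h2 : ContDiff ℝ ∞ fun x => (ι x).1.2 := contDiff_snd.comp (contDiff_fst.comp hs)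
  have hc : ContDiff ℝ ∞ (curve ι) :=
    (Complex.ofRealCLM.contDiff.comp h1).add ((Complex.ofRealCLM.contDiff.comp h2).mul
      contDiff_const)
  refine ⟨hc, fun x k l => ?_, fun b t t' h => ?_, fun b t h' => ?_⟩
  · apply Complex.ext
    · rw [Complex.add_re, curve_re, curve_re, he]
      simp
    · rw [Complex.add_im, curve_im, curve_im, he]
      simp [lat]
  · refine hf.inj b t t' ?_ ?_
    · rw [← curve_im, ← curve_im, h]
    · rw [← curve_re, ← curve_re, h]
  · have hl : HasDerivAt (fun r : ℝ => ((b, r) : V m)) (0, 1) t :=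
      (hasDerivAt_const t b).prodMk (hasDerivAt_id t)
    have hι := ((hs.differentiable (by simp) (b, t)).hasFDerivAt).comp_hasDerivAt t hl
    have d1 : HasDerivAt (fun r => (ι (b, r)).2.2) (fderiv ℝ ι (b, t) (0, 1)).2.2 t :=
      (((ContinuousLinearMap.snd ℝ (Fin m → ℝ) ℝ).comp
        (ContinuousLinearMap.snd ℝ (V m) (V m))).hasFDerivAt).comp_hasDerivAt t hι
    have d2 : HasDerivAt (fun r => (ι (b, r)).1.2) (fderiv ℝ ι (b, t) (0, 1)).1.2 t :=
      (((ContinuousLinearMap.snd ℝ (Fin m → ℝ) ℝ).comp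
        (ContinuousLinearMap.fst ℝ (V m) (V m))).hasFDerivAt).comp_hasDerivAt t hι
    have h3 := d1.ofReal_comp.add (d2.ofReal_comp.mul_const Complex.I)
    have h4 : deriv (fun r => curve ι (b, r)) t = _ := HasDerivAt.deriv h3
    rw [h4] at h'
    refine fibred_imm h hf.base b t ?_ ?_
    · have := congrArg Complex.im h'
      simpa using this
    · have := congrArg Complex.re h'
      simpa using this

theorem hasDerivAt_line {g : ℝ × V m → ℝ} (hg : ContDiff ℝ ∞ g) (s : ℝ) (b : Fin m → ℝ) (t : ℝ) :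
    HasDerivAt (fun r => g (s, (b, r))) (fderiv ℝ g (s, (b, t)) (0, (0, 1))) t := by
  have h2 : HasDerivAt (fun r : ℝ => ((s, (b, r)) : ℝ × V m)) (0, (0, 1)) t :=
    (hasDerivAt_const t s).prodMk ((hasDerivAt_const t b).prodMk (hasDerivAt_id t))
  exact ((hg.differentiable (by simp) (s, (b, t))).hasFDerivAt).comp_hasDerivAt t h2

theorem fibred_hamIsotopic {ι : V m → Ph m} (h : IsExactLagTorus ι) (hf : IsFibred ι) :
    HamIsotopicToZero (range ι) := by
  obtain ⟨f, hfs, hfp, hfe⟩ := h.exact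
  have hw : IsCurveFam (curve ι) := curve_fam h hf
  obtain ⟨W, hW, hWc, hW0, hW1⟩ := (iso_std hw).symm
  set Θ : ℝ × V m → ℝ := fun y => (W y).im with hΘdef
  set N₀ : ℝ × V m → ℝ := fun y => (W y).re with hN₀def
  have hΘ : ContDiff ℝ ∞ Θ := Complex.imCLM.contDiff.comp hW
  have hN₀ : ContDiff ℝ ∞ N₀ := Complex.reCLM.contDiff.comp hW
  set Θt : ℝ × V m → ℝ := fun y => fderiv ℝ Θ y (0, (0, 1)) with hΘtdef
  have hΘt : ContDiff ℝ ∞ Θt := (hΘ.fderiv_right (by simp)).clm_apply contDiff_const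
  have eΘ : ∀ s x k l, Θ (s, x + lat k l) = Θ (s, x) + l := by
    intro s x k l
    simp only [hΘdef, (hWc s).equiv x k l]
    simp
  have eN₀ : ∀ s x k l, N₀ (s, x + lat k l) = N₀ (s, x) := by
    intro s x k l
    simp only [hN₀def, (hWc s).equiv x k l]
    simp
  have eΘt : ∀ s x k l, Θt (s, x + lat k l) = Θt (s, x) := by
    intro s x k l
    simp only [hΘtdef]
    rw [fderiv_per (fun s x => eΘ s x k l)]
  set a : ℝ × (Fin m → ℝ) → ℝ :=
    fun e => ∫ r in (0 : ℝ)..1, N₀ (e.1, (e.2, r)) * Θt (e.1, (e.2, r)) with hadef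
  have hassoc : ContDiff ℝ ∞ fun z : (ℝ × (Fin m → ℝ)) × ℝ => ((z.1.1, (z.1.2, z.2)) : ℝ × V m) :=
    (contDiff_fst.comp contDiff_fst).prodMk ((contDiff_snd.comp contDiff_fst).prodMk contDiff_snd)
  have ha : ContDiff ℝ ∞ a :=
    contDiff_integral_unit (g := fun z : (ℝ × (Fin m → ℝ)) × ℝ =>
      N₀ (z.1.1, (z.1.2, z.2)) * Θt (z.1.1, (z.1.2, z.2))) ((hN₀.comp hassoc).mul (hΘt.comp hassoc))
  set N : ℝ × V m → ℝ := fun y => N₀ y - a (y.1, y.2.1) with hNdef
  have hN : ContDiff ℝ ∞ N :=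
    hN₀.sub (ha.comp (contDiff_fst.prodMk (contDiff_fst.comp contDiff_snd)))
  have latk : ∀ (b : Fin m → ℝ) (r : ℝ) (k : Fin m → ℤ),
      ((b + (lat k 0).1, r) : V m) = (b, r) + lat k 0 := by
    intro b r k
    refine Prod.ext rfl ?_
    simp [lat]
  have ea : ∀ s b k l, a (s, b + (lat k l).1) = a (s, b) := by
    intro s b k l
    simp only [hadef]
    refine intervalIntegral.integral_congr fun r _ => ?_
    show N₀ (s, (b + (lat k 0).1, r)) * Θt (s, (b + (lat k 0).1, r)) = _
    rw [latk, eN₀, eΘt]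
  have eN : ∀ s x k l, N (s, x + lat k l) = N (s, x) := by
    intro s x k l
    simp only [hNdef, eN₀]
    rw [show (x + lat k l).1 = x.1 + (lat k l).1 from rfl, ea]
  -- the derivative of Θ integrates to one
  have hΘ1 : ∀ s b, ∫ r in (0 : ℝ)..1, Θt (s, (b, r)) = 1 := by
    intro s b
    rw [intervalIntegral.integral_eq_sub_of_hasDerivAt
      (f := fun r => Θ (s, (b, r))) (fun r _ => hasDerivAt_line hΘ s b r)
      ((hΘt.continuous.comp (by fun_prop : Continuous fun r : ℝ =>
        ((s, (b, r)) : ℝ × V m))).intervalIntegrable _ _)]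
    have h1 : ((b, (1 : ℝ)) : V m) = (b, 0) + lat 0 1 := by
      refine Prod.ext ?_ ?_
      · funext j
        simp [lat]
      · simp [lat]
    rw [h1, eΘ]
    simp
  have hcn : ∀ (g : ℝ × V m → ℝ), Continuous g → ∀ s b,
      Continuous fun r : ℝ => g (s, (b, r)) := fun g hg s b => hg.comp (by fun_prop)
  have hint : ∀ s b, ∫ r in (0 : ℝ)..1, N (s, (b, r)) * Θt (s, (b, r)) = 0 := by
    intro s b
    have h1 : ∀ r, N (s, (b, r)) * Θt (s, (b, r)) =
        N₀ (s, (b, r)) * Θt (s, (b, r)) - a (s, b) * Θt (s, (b, r)) := by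
      intro r
      simp only [hNdef]
      ring
    simp only [h1]
    have i1 : IntervalIntegrable (fun r => N₀ (s, (b, r)) * Θt (s, (b, r)))
        MeasureTheory.volume 0 1 :=
      ((hcn _ hN₀.continuous s b).mul (hcn _ hΘt.continuous s b)).intervalIntegrable _ _
    have i2 : IntervalIntegrable (fun r => a (s, b) * Θt (s, (b, r)))
        MeasureTheory.volume 0 1 :=
      (continuous_const.mul (hcn _ hΘt.continuous s b)).intervalIntegrable _ _
    rw [intervalIntegral.integral_sub i1 i2, intervalIntegral.integral_const_mul, hΘ1, mul_one]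
    exact sub_self _
  set g : (ℝ × (Fin m → ℝ)) × ℝ → ℝ := fun z =>
    N (z.1.1, (z.1.2, z.2)) * Θt (z.1.1, (z.1.2, z.2)) with hgdef
  have hg : ContDiff ℝ ∞ g := (hN.comp hassoc).mul (hΘt.comp hassoc)
  set G : ℝ × V m → ℝ := fun y => ∫ r in (0 : ℝ)..y.2.2, g ((y.1, y.2.1), r) with hGdef
  have hG : ContDiff ℝ ∞ G :=
    (contDiff_primitive hg).comp ((contDiff_fst.prodMk (contDiff_fst.comp contDiff_snd)).prodMk
      (contDiff_snd.comp contDiff_snd) :
      ContDiff ℝ ∞ fun y : ℝ × V m => (((y.1, y.2.1), y.2.2) : (ℝ × (Fin m → ℝ)) × ℝ))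
  set ρ : ℝ → ℝ := Real.smoothTransition with hρ
  set F : ℝ × V m → ℝ := fun y => G y + ρ y.1 * f (y.2.1, 0) with hFdef
  have hF : ContDiff ℝ ∞ F :=
    hG.add ((Real.smoothTransition.contDiff.comp contDiff_fst).mul
      (hfs.comp ((contDiff_fst.comp contDiff_snd).prodMk contDiff_const)))
  have hgp : ∀ s b, Function.Periodic (fun r => g ((s, b), r)) 1 := by
    intro s b r
    have h1 : ((b, r + 1) : V m) = (b, r) + lat 0 1 := by
      refine Prod.ext ?_ ?_
      · funext j
        simp [lat]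
      · simp [lat]
    simp only [hgdef]
    rw [h1, eN, eΘt]
  have hg0 : ∀ s b, ∫ r in (0 : ℝ)..1, g ((s, b), r) = 0 := hint
  have hgi : ∀ s b t (l : ℤ), ∫ r in (0 : ℝ)..(t + l), g ((s, b), r) =
      ∫ r in (0 : ℝ)..t, g ((s, b), r) := by
    intro s b t l
    have hc : Continuous fun r => g ((s, b), r) := hg.continuous.comp (by fun_prop)
    have h1 := (hgp s b).intervalIntegral_add_zsmul_eq l t
      (fun t₁ t₂ => hc.intervalIntegrable _ _)
    have h0 := (hgp s b).intervalIntegral_add_eq t 0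
    rw [zero_add, hg0] at h0
    rw [h0, smul_zero, zsmul_one] at h1
    have h2 := intervalIntegral.integral_add_adjacent_intervals
      (hc.intervalIntegrable (μ := MeasureTheory.volume) 0 t)
      (hc.intervalIntegrable (μ := MeasureTheory.volume) t (t + l))
    rw [← h2, h1, add_zero]
  have hgb : ∀ s b k r, g ((s, b + (lat k 0).1), r) = g ((s, b), r) := by
    intro s b k r
    simp only [hgdef]
    rw [latk, eN, eΘt]
  have eF : ∀ s x k l, F (s, x + lat k l) = F (s, x) := by
    intro s x k l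
    simp only [hFdef, hGdef]
    have h1 : (x + lat k l).1 = x.1 + (lat k 0).1 := rfl
    have h2 : (x + lat k l).2 = x.2 + l := rfl
    rw [h1, h2, hgi, latk, hfp]
    congr 1
    exact intervalIntegral.integral_congr fun r _ => hgb s x.1 k r
  have hGt : ∀ s b t, HasDerivAt (fun t => G (s, (b, t))) (g ((s, b), t)) t := by
    intro s b t
    have hc : Continuous fun r => g ((s, b), r) := hg.continuous.comp (by fun_prop)
    exact intervalIntegral.integral_hasDerivAt_right (hc.intervalIntegrable _ _)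
      (hc.stronglyMeasurableAtFilter _ _) hc.continuousAt
  have hFt : ∀ y, fderiv ℝ F y (0, (0, 1)) = N y * fderiv ℝ Θ y (0, (0, 1)) := by
    rintro ⟨s, b, t⟩
    have h1 := hasDerivAt_line hF s b t
    have h2 : HasDerivAt (fun t => F (s, (b, t))) (g ((s, b), t)) t :=
      (hGt s b t).add_const (ρ s * f (b, 0))
    exact h1.unique h2
  have hNt : ∀ y, fderiv ℝ N y (0, (0, 1)) = fderiv ℝ N₀ y (0, (0, 1)) := by
    rintro ⟨s, b, t⟩
    have h1 := hasDerivAt_line hN s b t
    have h2 : HasDerivAt (fun t => N (s, (b, t))) (fderiv ℝ N₀ (s, (b, t)) (0, (0, 1))) t :=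
      (hasDerivAt_line hN₀ s b t).sub_const (a (s, b))
    exact h1.unique h2
  have inj : ∀ s b t t', Θ (s, (b, t)) = Θ (s, (b, t')) → N (s, (b, t)) = N (s, (b, t')) →
      t = t' := by
    intro s b t t' h1 h2
    refine (hWc s).inj b t t' (Complex.ext ?_ h1)
    exact sub_left_injective h2
  have imm : ∀ y, fderiv ℝ Θ y (0, (0, 1)) ≠ 0 ∨ fderiv ℝ N y (0, (0, 1)) ≠ 0 := by
    rintro ⟨s, b, t⟩
    by_contra hcon
    push Not at hcon
    rw [hNt] at hcon
    have h3 := (hasDerivAt_line hN₀ s b t).ofReal_comp.add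
      ((hasDerivAt_line hΘ s b t).ofReal_comp.mul_const Complex.I)
    rw [hcon.1, hcon.2] at h3
    have h4 : (fun r => W (s, (b, r))) = fun r => ((N₀ (s, (b, r)) : ℝ) : ℂ) +
        ((Θ (s, (b, r)) : ℝ) : ℂ) * Complex.I := by
      funext r
      exact (Complex.re_add_im _).symm
    have h5 := (hWc s).imm b t
    apply h5
    have h6 : HasDerivAt (fun r => W (s, (b, r))) (((0 : ℝ) : ℂ) + ((0 : ℝ) : ℂ) * Complex.I) t := by
      rw [h4]
      exact h3
    rw [h6.deriv]
    simp
  have hiso := mk_exactIso hΘ hN hF eΘ eN eF hFt inj imm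
  have hFd := hF.differentiable (by simp)
  have hΘd := hΘ.differentiable (by simp)
  -- time zero
  have z1 : ∀ x, Θ (0, x) = x.2 := by
    intro x
    simp only [hΘdef]
    rw [hW0 0 le_rfl]
    simp
  have z2 : ∀ x, N₀ (0, x) = 0 := by
    intro x
    simp only [hN₀def]
    rw [hW0 0 le_rfl]
    simp
  have z3 : ∀ x, N (0, x) = 0 := by
    intro x
    simp only [hNdef, hadef, z2, zero_mul, intervalIntegral.integral_zero, sub_zero]
  have z4 : ∀ x, F (0, x) = 0 := by
    intro x
    have : ρ 0 = 0 := Real.smoothTransition.zero_of_nonpos le_rfl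
    simp only [hFdef, hGdef, hgdef, z3, this, zero_mul, intervalIntegral.integral_zero, add_zero]
  have h0 : ∀ x, mk Θ N F (0, x) = (x, 0) := by
    intro x
    have h1 : ∀ u, fderiv ℝ F (0, x) (0, u) = 0 := by
      intro u
      rw [← fderiv_slice hFd]
      simp only [z4]
      simp
    unfold mk
    simp only [z1, z3, h1, zero_mul, sub_zero]
    rfl
  -- time one
  have o1 : ∀ x, Θ (1, x) = (ι x).1.2 := by
    intro x
    simp only [hΘdef]
    rw [hW1 1 le_rfl, curve_im]
  have o2 : ∀ x, N₀ (1, x) = (ι x).2.2 := by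
    intro x
    simp only [hN₀def]
    rw [hW1 1 le_rfl, curve_re]
  have hιd := h.smooth.differentiable (by simp)
  -- derivative of the base components
  have db1 : ∀ x v, (fderiv ℝ ι x v).1.1 = v.1 := fun x v => fderiv_base h.smooth hf.base x v
  have db2 : ∀ x v, (fderiv ℝ ι x v).1.2 = fderiv ℝ Θ (1, x) (0, v) := by
    intro x v
    rw [← fderiv_slice hΘd]
    simp only [o1]
    have e1 : HasFDerivAt (fun x => (ι x).1.2) (((ContinuousLinearMap.snd ℝ (Fin m → ℝ) ℝ).comp
        (ContinuousLinearMap.fst ℝ (V m) (V m))).comp (fderiv ℝ ι x)) x :=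
      ((ContinuousLinearMap.snd ℝ (Fin m → ℝ) ℝ).comp
        (ContinuousLinearMap.fst ℝ (V m) (V m))).hasFDerivAt.comp x (hιd x).hasFDerivAt
    rw [e1.fderiv]
    rfl
  have o3 : ∀ b t, (ι (b, t)).2.2 * Θt (1, (b, t)) = fderiv ℝ f (b, t) (0, 1) := by
    intro b t
    rw [hfe]
    have e1 : (fderiv ℝ ι (b, t) (0, 1)).1 = (0, Θt (1, (b, t))) :=
      Prod.ext (db1 _ _) (db2 _ _)
    rw [e1]
    simp [pair]
  have hfline : ∀ b t, HasDerivAt (fun r => f (b, r)) (fderiv ℝ f (b, t) (0, 1)) t := by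
    intro b t
    have h2 : HasDerivAt (fun r : ℝ => ((b, r) : V m)) (0, 1) t :=
      (hasDerivAt_const t b).prodMk (hasDerivAt_id t)
    exact ((hfs.differentiable (by simp) (b, t)).hasFDerivAt).comp_hasDerivAt t h2
  have hfint : ∀ b t, ∫ r in (0 : ℝ)..t, fderiv ℝ f (b, r) (0, 1) = f (b, t) - f (b, 0) := by
    intro b t
    refine intervalIntegral.integral_eq_sub_of_hasDerivAt (f := fun r => f (b, r))
      (fun r _ => hfline b r) (Continuous.intervalIntegrable ?_ _ _)
    exact ((hfs.continuous_fderiv (by simp)).comp (by fun_prop : Continuous fun r : ℝ =>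
      ((b, r) : V m))).clm_apply continuous_const
  have o4 : ∀ b, a (1, b) = 0 := by
    intro b
    simp only [hadef, o2, o3]
    rw [hfint]
    have h1 : ((b, (1 : ℝ)) : V m) = (b, 0) + lat 0 1 := by
      refine Prod.ext ?_ ?_
      · funext j
        simp [lat]
      · simp [lat]
    rw [h1, hfp, sub_self]
  have o5 : ∀ x, N (1, x) = (ι x).2.2 := by
    intro x
    simp only [hNdef, o2, o4, sub_zero]
  have o6 : ∀ x, F (1, x) = f x := by
    intro x
    have : ρ 1 = 1 := Real.smoothTransition.one_of_one_le le_rfl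
    simp only [hFdef, hGdef, hgdef, this, one_mul, o5, o3]
    rw [hfint]
    simp
  have h1 : ∀ x, mk Θ N F (1, x) = ι x := by
    intro x
    have h2 : ∀ u, fderiv ℝ F (1, x) (0, u) = fderiv ℝ f x u := by
      intro u
      rw [← fderiv_slice hFd]
      simp only [o6]
    unfold mk
    refine Prod.ext (Prod.ext ?_ ?_) (Prod.ext (funext fun j => ?_) ?_)
    · exact (hf.base x).symm
    · exact o1 x
    · show fderiv ℝ F (1, x) (0, (Pi.single j 1, 0)) -
        N (1, x) * fderiv ℝ Θ (1, x) (0, (Pi.single j 1, 0)) = (ι x).2.1 j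
      rw [h2, o5, hfe, ← db2]
      have e1 : (fderiv ℝ ι x (Pi.single j 1, 0)).1 =
          (Pi.single j 1, (fderiv ℝ ι x (Pi.single j 1, 0)).1.2) := Prod.ext (db1 _ _) rfl
      rw [e1]
      simp [pair, Pi.single_apply]
    · exact o5 x
  have := hiso.hamIsotopic h0
  simp only [h1] at this
  exact this

end Vale.Agent.P220.H64
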