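import Vale.Agent.P220.H64.Defs

/-!
# Exact Lagrangian tori that stay embedded when all but one momentum is forgotten
-/

open scoped ContDiff

namespace Vale.Agent.P220.H64

/-- The map `(q, p) ↦ (q, p(v))` from `T*T^{m+1}` to `T^{m+1} × ℝ` is an injective immersion on the
torus parametrised by `ι`. -/
structure IsMomEmb {m : ℕ} (ι : V m → Ph m) (v : V m) : Prop where
  /-- injective -/
  inj : Function.Injective fun x => ((ι x).1, pair (ι x).2 v)
  /-- an immersion -/
  imm : ∀ x, Function.Injective (fderiv ℝ (fun x => ((ι x).1, pair (ι x).2 v)) x)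

end Vale.Agent.P220.H64
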