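import Vale.Agent.P220.H64.Defs

/-!
# Periodic smooth partitions of unity on `ℝ^m`
-/

open Set Filter Topology
open scoped ContDiff Real

namespace Vale.Agent.P220.H64

variable {m : ℕ}

/-- the integer vector `k` as a real vector -/
def zv (k : Fin m → ℤ) : Fin m → ℝ := fun j => (k j : ℝ)

theorem near_int {δ x : ℝ} (hδ : 0 < δ) (hδ' : δ ≤ 1 / 4)
    (h : Real.cos (2 * π * δ) < Real.cos (2 * π * x)) : ∃ k : ℤ, |x - k| < δ := by
  refine ⟨round x, ?_⟩
  by_contra hcon
  rw [not_lt] at hcon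
  have h1 : |x - round x| ≤ 1 / 2 := abs_sub_round x
  have h2 : Real.cos (2 * π * x) = Real.cos (2 * π * |x - round x|) := by
    rw [← Real.cos_abs (2 * π * |x - round x|), abs_mul, abs_abs, ← abs_mul, Real.cos_abs]
    rw [mul_sub, mul_comm (2 * π) ((round x : ℤ) : ℝ), Real.cos_sub_int_mul_two_pi]
  rw [h2] at h
  have h3 : Real.cos (2 * π * |x - round x|) ≤ Real.cos (2 * π * δ) := by
    apply Real.cos_le_cos_of_nonneg_of_le_pi
    · positivity
    · nlinarith [Real.pi_pos]
    · exact mul_le_mul_of_nonneg_left hcon (by positivity)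
  linarith

/-- periodic smooth partition of unity -/
theorem exists_pou (m : ℕ) {δ : ℝ} (hδ : 0 < δ) : ∃ (J : Type) (_ : Fintype J) (c : J → Fin m → ℝ)
    (χ : J → (Fin m → ℝ) → ℝ), (∀ i, ContDiff ℝ ∞ (χ i)) ∧ (∀ i b, 0 ≤ χ i b) ∧
    (∀ b, ∑ i, χ i b = 1) ∧ (∀ i b k, χ i (b + zv k) = χ i b) ∧
    ∀ i b, χ i b ≠ 0 → ∃ k : Fin m → ℤ, ∀ j, |b j - (c i j + k j)| < δ := by
  set δ' := min δ (1 / 4) with hδ'
  have hd0 : 0 < δ' := lt_min hδ (by norm_num)
  have hd1 : δ' ≤ 1 / 4 := min_le_right _ _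
  obtain ⟨N, hN⟩ := exists_nat_gt (1 / δ')
  have hN0 : (0 : ℝ) < N := (by positivity : (0:ℝ) < 1 / δ').trans hN
  have hN' : 1 / (N : ℝ) < δ' := by
    rw [div_lt_iff₀ hN0]
    rw [div_lt_iff₀ hd0] at hN
    linarith [mul_comm δ' (N : ℝ)]
  have hNn : 0 < N := by exact_mod_cast hN0
  set ψ : ℝ → ℝ := fun x => Real.smoothTransition (x - Real.cos (2 * π * δ')) with hψ
  have hψs : ContDiff ℝ ∞ ψ := Real.smoothTransition.contDiff.comp (contDiff_id.sub contDiff_const)
  have hψ0 : ∀ x, 0 ≤ ψ x := fun x => Real.smoothTransition.nonneg _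
  have hψ1 : ∀ x, ψ x ≠ 0 → Real.cos (2 * π * δ') < x := by
    intro x hx
    by_contra hcon
    exact hx (Real.smoothTransition.zero_of_nonpos (by linarith))
  have hψ2 : ∀ x, Real.cos (2 * π * δ') < x → 0 < ψ x := fun x hx =>
    Real.smoothTransition.pos_of_pos (by linarith)
  set c : (Fin m → Fin N) → Fin m → ℝ := fun i j => ((i j : ℕ) : ℝ) / N with hc
  set ρ : (Fin m → Fin N) → (Fin m → ℝ) → ℝ := fun i b => ∏ j, ψ (Real.cos (2 * π * (b j - c i j)))
    with hρ
  have hρs : ∀ i, ContDiff ℝ ∞ (ρ i) := by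
    intro i
    refine contDiff_prod fun j _ => hψs.comp (Real.contDiff_cos.comp (contDiff_const.mul ?_))
    exact (contDiff_apply ℝ ℝ j).sub contDiff_const
  have hρ0 : ∀ i b, 0 ≤ ρ i b := fun i b => Finset.prod_nonneg fun j _ => hψ0 _
  have hρp : ∀ i b k, ρ i (b + zv k) = ρ i b := by
    intro i b k
    refine Finset.prod_congr rfl fun j _ => ?_
    congr 1
    have : 2 * π * ((b + zv k) j - c i j) = 2 * π * (b j - c i j) + (k j : ℤ) * (2 * π) := by
      simp only [Pi.add_apply, zv]; ring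
    rw [this, Real.cos_add_int_mul_two_pi]
  have hpos : ∀ b, 0 < ∑ i, ρ i b := by
    intro b
    have hex : ∃ i : Fin m → Fin N, 0 < ρ i b := by
      have h1 : ∀ j, ⌊(N : ℝ) * Int.fract (b j)⌋₊ < N := by
        intro j
        rw [Nat.floor_lt (mul_nonneg hN0.le (Int.fract_nonneg _))]
        have := Int.fract_lt_one (b j)
        nlinarith
      refine ⟨fun j => ⟨_, h1 j⟩, Finset.prod_pos fun j _ => hψ2 _ ?_⟩
      set x := Int.fract (b j) - (⌊(N : ℝ) * Int.fract (b j)⌋₊ : ℝ) / N with hx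
      have h2 : Real.cos (2 * π * (b j - c (fun j => ⟨_, h1 j⟩) j)) = Real.cos (2 * π * x) := by
        have : 2 * π * (b j - c (fun j => ⟨_, h1 j⟩) j) = 2 * π * x + (⌊b j⌋ : ℤ) * (2 * π) := by
          simp only [hc, hx]
          have := Int.fract_add_floor (b j)
          nth_rewrite 1 [← this]
          ring
        rw [this, Real.cos_add_int_mul_two_pi]
      rw [h2]
      have h3 : 0 ≤ x := by
        rw [hx, sub_nonneg, div_le_iff₀ hN0]
        have := Nat.floor_le (mul_nonneg hN0.le (Int.fract_nonneg (b j)))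
        linarith [mul_comm (N : ℝ) (Int.fract (b j))]
      have h4 : x < δ' := by
        refine lt_of_lt_of_le ?_ hN'.le
        rw [hx, sub_lt_iff_lt_add, ← add_div, lt_div_iff₀ hN0]
        have := Nat.lt_floor_add_one ((N : ℝ) * Int.fract (b j))
        linarith [mul_comm (N : ℝ) (Int.fract (b j))]
      apply Real.cos_lt_cos_of_nonneg_of_le_pi
      · positivity
      · nlinarith [Real.pi_pos]
      · exact mul_lt_mul_of_pos_left h4 (by positivity)
    obtain ⟨i, hi⟩ := hex
    exact lt_of_lt_of_le hi (Finset.single_le_sum (f := fun i => ρ i b) (fun i _ => hρ0 i b)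
      (Finset.mem_univ i))
  refine ⟨Fin m → Fin N, inferInstance, c, fun i b => ρ i b / ∑ i, ρ i b, ?_, ?_, ?_, ?_, ?_⟩
  · intro i
    exact (hρs i).div (ContDiff.sum fun j _ => hρs j) fun b => (hpos b).ne'
  · exact fun i b => div_nonneg (hρ0 i b) (hpos b).le
  · intro b
    rw [← Finset.sum_div]
    exact div_self (hpos b).ne'
  · intro i b k
    simp only [hρp]
  · intro i b hib
    have h1 : ρ i b ≠ 0 := fun h => hib (by simp only [h, zero_div])
    have h2 : ∀ j, ∃ k : ℤ, |b j - c i j - k| < δ' := by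
      intro j
      refine near_int hd0 hd1 (hψ1 _ fun h => h1 (Finset.prod_eq_zero (Finset.mem_univ j) h))
    choose k hk using h2
    refine ⟨k, fun j => ?_⟩
    have := hk j
    rw [← sub_sub]
    exact lt_of_lt_of_le this (min_le_left _ _)

end Vale.Agent.P220.H64
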