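import Vale.Agent.P220.H64.Strip

/-!
# Every smooth family of embedded curves in the cylinder is isotopic to the standard one
-/

open Set Complex Filter Topology Metric
open scoped ContDiff Real ComplexConjugate

namespace Vale.Agent.P220.H64

open Vale.Agent.P116.FK

variable {m : ℕ}

/-- local uniform continuity in the parameter -/
def LU {X : Type*} [TopologicalSpace X] (F : X → ℂ → ℂ) (S : Set ℂ) : Prop :=
  ∀ x₀, ∀ z₀ ∈ S, ∃ r > 0, closedBall z₀ r ⊆ S ∧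
    ∀ ε > 0, ∀ᶠ x in 𝓝 x₀, ∀ z ∈ closedBall z₀ r, ‖F x z - F x₀ z‖ < ε

theorem LU.cont {X : Type*} [TopologicalSpace X] {F : X → ℂ → ℂ} {S : Set ℂ} (h : LU F S)
    (hc : ∀ x, ContinuousOn (F x) S) : ContinuousOn (fun y : X × ℂ => F y.1 y.2) (univ ×ˢ S) := by
  rintro ⟨x₀, z₀⟩ ⟨-, hz₀⟩
  refine ContinuousAt.continuousWithinAt ?_
  obtain ⟨r, hr, hrS, hu⟩ := h x₀ z₀ hz₀
  rw [Metric.continuousAt_iff']
  intro ε hε
  have h1 : ContinuousAt (F x₀) z₀ :=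
    (hc x₀).continuousAt (mem_of_superset (closedBall_mem_nhds z₀ hr) hrS)
  have h2 := (Metric.continuousAt_iff'.1 h1) (ε / 2) (by linarith)
  have h3 : ∀ᶠ y : X × ℂ in 𝓝 (x₀, z₀), (∀ z ∈ closedBall z₀ r, ‖F y.1 z - F x₀ z‖ < ε / 2) ∧
      (dist (F x₀ y.2) (F x₀ z₀) < ε / 2 ∧ y.2 ∈ closedBall z₀ r) := by
    rw [nhds_prod_eq]
    exact (hu (ε / 2) (by linarith)).prod_mk (h2.and (closedBall_mem_nhds z₀ hr))
  filter_upwards [h3] with y hy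
  have h4 := hy.1 y.2 hy.2.2
  rw [← dist_eq_norm] at h4
  calc dist (F y.1 y.2) (F x₀ z₀) ≤ dist (F y.1 y.2) (F x₀ y.2) + dist (F x₀ y.2) (F x₀ z₀) :=
        dist_triangle _ _ _
    _ < ε := by linarith [hy.2.1]

theorem LU.dd {X : Type*} [TopologicalSpace X] {F : X → ℂ → ℂ} {S : Set ℂ} (h : LU F S)
    (hd : ∀ x, DifferentiableOn ℂ (F x) S) : LU (fun x => deriv (F x)) S := by
  intro x₀ z₀ hz₀
  obtain ⟨r, hr, hrS, hu⟩ := h x₀ z₀ hz₀
  refine ⟨r / 2, by linarith, (closedBall_subset_closedBall (by linarith)).trans hrS,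
    fun ε hε => ?_⟩
  have hr4 : 0 < r / 4 := by linarith
  filter_upwards [hu (ε * (r / 4) / 2) (by positivity)] with x hx z hz
  have hzb : closedBall z (r / 4) ⊆ closedBall z₀ r := by
    refine closedBall_subset_closedBall' ?_
    rw [mem_closedBall] at hz
    linarith
  have hopen : ∀ y, DifferentiableAt ℂ (F y) z := fun y =>
    (hd y).differentiableAt (mem_of_superset (closedBall_mem_nhds z hr4) (hzb.trans hrS))
  have h1 : deriv (F x) z - deriv (F x₀) z = deriv (fun w => F x w - F x₀ w) z :=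
    (deriv_fun_sub (hopen x) (hopen x₀)).symm
  rw [h1]
  have h2 : ‖deriv (fun w => F x w - F x₀ w) z‖ ≤ (ε * (r / 4) / 2) / (r / 4) := by
    refine Complex.norm_deriv_le_of_forall_mem_sphere_norm_le hr4 ?_ fun w hw =>
      (hx w (hzb (sphere_subset_closedBall hw))).le
    refine DifferentiableOn.diffContOnCl ?_
    rw [closure_ball _ hr4.ne']
    exact ((hd x).sub (hd x₀)).mono (hzb.trans hrS)
  have h3 : (ε * (r / 4) / 2) / (r / 4) = ε / 2 := by field_simp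
  rw [h3] at h2
  linarith

theorem cd_comp {f : ℂ → ℂ} {U : Set ℂ} (hU : IsOpen U) (hf : DifferentiableOn ℂ f U)
    {X : Type*} [NormedAddCommGroup X] [NormedSpace ℝ X] {u : X → ℂ} (hu : ContDiff ℝ ∞ u)
    (hm : ∀ x, u x ∈ U) : ContDiff ℝ ∞ (fun x => f (u x)) := by
  rw [contDiff_iff_contDiffAt]
  intro x
  have h1 : ContDiffAt ℂ ∞ f (u x) := (hf.analyticAt (hU.mem_nhds (hm x))).contDiffAt
  exact (h1.restrict_scalars ℝ).comp x hu.contDiffAt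

/-- all the data for an analytic family -/
structure FD (W W' P : (Fin m → ℝ) → ℂ → ℂ) (δ s₁ : ℝ) (g Φ : (Fin m → ℝ) → ℂ → ℂ) : Prop where
  af : AF W W' P
  hs : 0 < s₁
  hδ : s₁ < δ
  strip : ∀ b τ, |τ.im| < δ → W' b τ ≠ 0 ∧ ∀ τ', |τ'.im| < δ → W b τ = W b τ' → τ = τ'
  ac : ∀ b, AC (Real.exp (2 * π * δ)) (AF.Gam P b)
  cm : ∀ b, ∃ Ω φ ψ, CM (Real.exp (2 * π * δ)) (AF.Gam P b) Ω φ ψ (g b) (Φ b)
  gper : ∀ b k, g (b + zv k) = g b
  Φper : ∀ b k, Φ (b + zv k) = Φ b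
  gc : ContinuousOn (fun y : (Fin m → ℝ) × ℂ => g y.1 y.2) (univ ×ˢ ball 0 1)
  gc' : ContinuousOn (fun y : (Fin m → ℝ) × ℂ => deriv (g y.1) y.2) (univ ×ˢ ball 0 1)
  Φc : ContinuousOn (fun y : (Fin m → ℝ) × ℂ => Φ y.1 y.2)
    (univ ×ˢ ann (Real.exp (2 * π * δ))⁻¹ (Real.exp (2 * π * δ)))
  Φc' : ContinuousOn (fun y : (Fin m → ℝ) × ℂ => deriv (Φ y.1) y.2)
    (univ ×ˢ ann (Real.exp (2 * π * δ))⁻¹ (Real.exp (2 * π * δ)))
  pos : ∀ b ζ, ‖ζ‖ = Real.exp (-(2 * π * s₁)) → 0 < (ζ * deriv (Φ b) ζ / Φ b ζ).re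

theorem AF.exists_FD {W W' P : (Fin m → ℝ) → ℂ → ℂ} (h : AF W W' P) :
    ∃ δ s₁ g Φ, FD W W' P δ s₁ g Φ := by
  have hpi := Real.pi_pos
  obtain ⟨δ, hδ, hst⟩ := h.exists_strip
  set R := Real.exp (2 * π * δ) with hR
  have hac : ∀ b, AC R (AF.Gam P b) :=
    h.ac hδ fun b τ hτ => (hst b τ hτ).2
  have hR1 : 1 < R := Real.one_lt_exp_iff.2 (by positivity)
  -- choice of the data, as a function of the curve
  have key : ∀ Γ : ℂ → ℂ, ∃ D : Set ℂ × (ℂ → ℂ) × (ℂ → ℂ) × (ℂ → ℂ) × (ℂ → ℂ),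
      AC R Γ → CM R Γ D.1 D.2.1 D.2.2.1 D.2.2.2.1 D.2.2.2.2 := by
    intro Γ
    by_cases hΓ : AC R Γ
    · obtain ⟨Ω, φ, ψ, g, Φ, hc⟩ := hΓ.exists_cm
      exact ⟨(Ω, φ, ψ, g, Φ), fun _ => hc⟩
    · exact ⟨(∅, id, id, id, id), fun h1 => absurd h1 hΓ⟩
  choose F hF using key
  set g : (Fin m → ℝ) → ℂ → ℂ := fun b => (F (AF.Gam P b)).2.2.2.1 with hg
  set Φ : (Fin m → ℝ) → ℂ → ℂ := fun b => (F (AF.Gam P b)).2.2.2.2 with hΦ
  have hcm : ∀ b, CM R (AF.Gam P b) (F (AF.Gam P b)).1 (F (AF.Gam P b)).2.1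
      (F (AF.Gam P b)).2.2.1 (g b) (Φ b) := fun b => hF _ (hac b)
  have hGp : ∀ b k, AF.Gam P (b + zv k) = AF.Gam P b := by
    intro b k
    funext ζ
    rw [AF.Gam, AF.Gam, h.Pp]
  have hunif : ∀ b₀ : Fin m → ℝ, ∀ a c, R⁻¹ < a → c < R → ∀ ε > 0, ∀ᶠ b in 𝓝 b₀, ∀ ζ : ℂ,
      a ≤ ‖ζ‖ → ‖ζ‖ ≤ c → ‖AF.Gam P b ζ - AF.Gam P b₀ ζ‖ < ε := fun b₀ a c ha _ ε hε =>
    h.Gam_unif b₀ ((inv_pos.2 (by linarith)).trans ha) hε
  have hgLU : LU g (ball 0 1) := by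
    intro b₀ z₀ hz₀
    rw [mem_ball_zero_iff] at hz₀
    set r := (1 - ‖z₀‖) / 2 with hr
    have hr0 : 0 < r := by rw [hr]; linarith
    have hsub : ∀ z ∈ closedBall z₀ r, ‖z‖ ≤ ‖z₀‖ + r := by
      intro z hz
      rw [mem_closedBall, dist_eq_norm] at hz
      have := norm_sub_norm_le z z₀
      linarith
    refine ⟨r, hr0, fun z hz => mem_ball_zero_iff.2 ((hsub z hz).trans_lt (by rw [hr]; linarith)),
      fun ε hε => ?_⟩
    have h1 := (hcm b₀).g_tendsto (hac b₀) hac hcm (hunif b₀) (r := ‖z₀‖ + r)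
      (by positivity) (by rw [hr]; linarith) hε
    filter_upwards [h1] with b hb z hz
    exact hb z (hsub z hz)
  have hΦLU : LU Φ (ann R⁻¹ R) := by
    intro b₀ z₀ hz₀
    set r := min ((‖z₀‖ - R⁻¹) / 2) ((R - ‖z₀‖) / 2) with hr
    have hr0 : 0 < r := lt_min (by linarith [hz₀.1]) (by linarith [hz₀.2])
    have hr1 : r ≤ (‖z₀‖ - R⁻¹) / 2 := min_le_left _ _
    have hr2 : r ≤ (R - ‖z₀‖) / 2 := min_le_right _ _
    have hsub : ∀ z ∈ closedBall z₀ r, ‖z₀‖ - r ≤ ‖z‖ ∧ ‖z‖ ≤ ‖z₀‖ + r := by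
      intro z hz
      rw [mem_closedBall, dist_eq_norm] at hz
      have h1 := norm_sub_norm_le z z₀
      have h2 := norm_sub_norm_le z₀ z
      rw [norm_sub_rev] at h2
      constructor <;> linarith
    refine ⟨r, hr0, fun z hz => ⟨by linarith [(hsub z hz).1, hz₀.1], by
      linarith [(hsub z hz).2, hz₀.2]⟩, fun ε hε => ?_⟩
    have h1 := (hcm b₀).Φ_tendsto (hac b₀) hac hcm (hunif b₀) (a := ‖z₀‖ - r) (b := ‖z₀‖ + r)
      (by linarith [hz₀.1]) (by linarith [hz₀.2]) hε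
    filter_upwards [h1] with b hb z hz
    exact hb z (hsub z hz).1 (hsub z hz).2
  have hgd : ∀ b, DifferentiableOn ℂ (g b) (ball 0 1) := fun b => (hcm b).gd
  have hΦd : ∀ b, DifferentiableOn ℂ (Φ b) (ann R⁻¹ R) := fun b => (hcm b).Φd
  have gc := hgLU.cont fun b => (hgd b).continuousOn
  have gc' := (hgLU.dd hgd).cont fun b => ((hgd b).deriv isOpen_ball).continuousOn
  have Φc := hΦLU.cont fun b => (hΦd b).continuousOn
  have Φc' := (hΦLU.dd hΦd).cont fun b => ((hΦd b).deriv (isOpen_ann _ _)).continuousOn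
  have hgper : ∀ b k, g (b + zv k) = g b := fun b k => by simp only [hg, hGp]
  have hΦper : ∀ b k, Φ (b + zv k) = Φ b := fun b k => by simp only [hΦ, hGp]
  -- positivity near the unit circle
  set cube : Set (Fin m → ℝ) := Set.pi univ fun _ => Icc (0 : ℝ) 1 with hcube
  have hcc : IsCompact cube := isCompact_univ_pi fun _ => isCompact_Icc
  have hfc : ContinuousOn (fun y : (Fin m → ℝ) × ℂ =>
      (y.2 * deriv (Φ y.1) y.2 / Φ y.1 y.2).re) (univ ×ˢ ann R⁻¹ R) := by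
    refine Complex.continuous_re.comp_continuousOn ?_
    exact (continuousOn_snd.mul Φc').div Φc fun y hy => (hcm y.1).Φne hy.2
  have hU : IsOpen ((univ ×ˢ ann R⁻¹ R : Set ((Fin m → ℝ) × ℂ)) ∩
      (fun y : (Fin m → ℝ) × ℂ => (y.2 * deriv (Φ y.1) y.2 / Φ y.1 y.2).re) ⁻¹' Ioi 0) :=
    hfc.isOpen_inter_preimage (isOpen_univ.prod (isOpen_ann _ _)) isOpen_Ioi
  obtain ⟨δ', hδ', hth⟩ := (hcc.prod (isCompact_sphere (0 : ℂ) 1)).exists_thickening_subset_open hU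
    (by
      rintro ⟨b, ζ⟩ ⟨-, hζ⟩
      rw [mem_sphere_zero_iff_norm] at hζ
      exact ⟨⟨trivial, (hac b).mem1 hζ⟩, (hcm b).hopf (hac b) hζ⟩)
  set s₁ := min (δ / 2) (δ' / (4 * π)) with hs₁
  have hs0 : 0 < s₁ := lt_min (by linarith) (by positivity)
  have hs1 : s₁ ≤ δ / 2 := min_le_left _ _
  have hs2 : 2 * π * s₁ ≤ δ' / 2 := by
    have : s₁ ≤ δ' / (4 * π) := min_le_right _ _
    calc 2 * π * s₁ ≤ 2 * π * (δ' / (4 * π)) := mul_le_mul_of_nonneg_left this (by positivity)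
      _ = δ' / 2 := by field_simp; ring
  refine ⟨δ, s₁, g, Φ, h, hs0, by linarith, hst, hac, fun b => ⟨_, _, _, hcm b⟩, hgper, hΦper, gc,
    gc', Φc, Φc', fun b ζ hζ => ?_⟩
  obtain ⟨k, hk⟩ := exists_frac b
  rw [← hΦper b k]
  have h1 : (b + zv k, ζ) ∈ thickening δ' (cube ×ˢ sphere (0 : ℂ) 1) := by
    have hζ0 : 0 < ‖ζ‖ := by rw [hζ]; exact Real.exp_pos _
    rw [mem_thickening_iff]
    refine ⟨(b + zv k, ζ / ‖ζ‖), ⟨fun j _ => hk j, ?_⟩, ?_⟩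
    · rw [mem_sphere_zero_iff_norm, norm_div, Complex.norm_real, norm_norm, div_self hζ0.ne']
    · have h3 : ζ - ζ / ‖ζ‖ = ((1 - ‖ζ‖⁻¹ : ℝ) : ℂ) * ζ := by
        push_cast; ring
      rw [Prod.dist_eq, dist_self]
      refine max_lt hδ' ?_
      rw [dist_eq_norm, h3, norm_mul, Complex.norm_real, Real.norm_eq_abs]
      have h4 : |1 - ‖ζ‖⁻¹| * ‖ζ‖ = |‖ζ‖ - 1| := by
        rw [← abs_of_pos hζ0, ← abs_mul, abs_of_pos hζ0]
        congr 1
        field_simp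
      rw [h4, hζ, abs_lt]
      have h5 := Real.add_one_le_exp (-(2 * π * s₁))
      have h6 : Real.exp (-(2 * π * s₁)) ≤ 1 := by
        rw [Real.exp_le_one_iff]
        have : 0 < 2 * π * s₁ := by positivity
        linarith
      constructor <;> linarith
  exact (hth h1).2

end Vale.Agent.P220.H64
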