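import Vale.Agent.P220.H64.Curve
import Vale.Agent.P220.H64.POU

/-!
# Paths of families of curves that are only continuous in the parameter `b`
-/

open Set Complex Filter Topology
open scoped ContDiff Real

namespace Vale.Agent.P220.H64

variable {m : ℕ}

theorem per_D {v D : ℝ → ℂ} (hd : ∀ t, HasDerivAt v (D t) t)
    (he : ∀ t (l : ℤ), v (t + l) = v t + l * I) (t : ℝ) (l : ℤ) : D (t + l) = D t := by
  have h1 : HasDerivAt (fun r => v (r + l)) (D (t + l)) t :=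
    HasDerivAt.comp_add_const t (l : ℝ) (hd (t + l))
  have h2 : HasDerivAt (fun r => v (r + l)) (D t) t := by
    rw [show (fun r => v (r + l)) = fun r => v r + l * I from funext fun r => he r l]
    exact (hd t).add_const _
  exact h1.unique h2

theorem sub_eq_Q {v D : ℝ → ℂ} (hd : ∀ t, HasDerivAt v (D t) t) (hc : Continuous D) (t t' : ℝ) :
    v t - v t' = ((t - t' : ℝ) : ℂ) * ∫ r in (0 : ℝ)..1, D (t' + r * (t - t')) := by
  have h1 : ∀ r : ℝ, HasDerivAt (fun r => v (t' + r * (t - t')))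
      (((t - t' : ℝ) : ℂ) * D (t' + r * (t - t'))) r := by
    intro r
    have h2 : HasDerivAt (fun r : ℝ => t' + r * (t - t')) (t - t') r := by
      simpa using ((hasDerivAt_id r).mul_const (t - t')).const_add t'
    have h3 := (hd (t' + r * (t - t'))).scomp r h2
    simpa [Function.comp_def] using h3
  have h4 := intervalIntegral.integral_eq_sub_of_hasDerivAt (a := 0) (b := 1)
    (fun r _ => h1 r) (Continuous.intervalIntegrable (by fun_prop) _ _)
  rw [intervalIntegral.integral_const_mul] at h4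
  rw [h4]
  congr 2 <;> ring

theorem exists_emb_of_compact {X : Type*} [TopologicalSpace X] {K : Set X} (hK : IsCompact K)
    {v D : X → ℝ → ℂ} (hd : ∀ x t, HasDerivAt (v x) (D x t) t)
    (hc : Continuous fun y : X × ℝ => D y.1 y.2)
    (he : ∀ x t (l : ℤ), v x (t + l) = v x t + l * I)
    (hi : ∀ x t t', v x t = v x t' → t = t') (h0 : ∀ x t, D x t ≠ 0) :
    ∃ c > 0, ∀ x ∈ K, Emb c (v x) := by
  have hper : ∀ x t (l : ℤ), D x (t + l) = D x t := fun x => per_D (hd x) (he x)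
  have hcx : ∀ x, Continuous (D x) := fun x => hc.comp (Continuous.prodMk_right x)
  -- bound for `D - I`
  obtain ⟨C, hC⟩ := (hK.prod (isCompact_Icc (a := (0 : ℝ)) (b := 1))).exists_bound_of_continuousOn
    (f := fun y : X × ℝ => D y.1 y.2 - I) ((hc.sub continuous_const).continuousOn)
  have hC' : ∀ x ∈ K, ∀ t, ‖D x t - I‖ ≤ max C 0 := by
    intro x hx t
    have h1 := hC (x, Int.fract t) ⟨hx, Int.fract_nonneg t, (Int.fract_lt_one t).le⟩
    have h2 : D x (Int.fract t) = D x t := by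
      have := hper x t (-⌊t⌋)
      rw [← this]
      congr 1
      push_cast
      rw [Int.fract]; ring
    simp only [h2] at h1
    exact h1.trans (le_max_left _ _)
  set C₀ := max C 0 with hC₀
  have hC₀' : 0 ≤ C₀ := le_max_right _ _
  have hosc : ∀ x ∈ K, ∀ t t', ‖(v x t - v x t') - ((t - t' : ℝ) : ℂ) * I‖ ≤ C₀ := by
    intro x hx t t'
    set n := ⌊t - t'⌋ with hn
    have h1 : ‖(v x t - (t : ℂ) * I) - (v x (t' + n) - ((t' + n : ℝ) : ℂ) * I)‖ ≤
        C₀ * ‖t - (t' + n)‖ := by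
      refine Convex.norm_image_sub_le_of_norm_hasDerivWithin_le
        (f := fun t : ℝ => v x t - (t : ℂ) * I)
        (f' := fun t => D x t - 1 * I) (s := univ) (fun y _ => ?_) (fun y _ => ?_) convex_univ
        (mem_univ _) (mem_univ _)
      · exact ((hd x y).sub (HasDerivAt.mul_const (Complex.ofRealCLM.hasDerivAt) I)).hasDerivWithinAt
      · rw [one_mul]; exact hC' x hx y
    have h2 : ‖t - (t' + n)‖ ≤ 1 := by
      have h3 : t - (t' + n) = Int.fract (t - t') := by rw [Int.fract]; ring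
      rw [h3, Real.norm_of_nonneg (Int.fract_nonneg _)]
      exact (Int.fract_lt_one _).le
    have h3 : (v x t - v x t') - ((t - t' : ℝ) : ℂ) * I =
        (v x t - (t : ℂ) * I) - (v x (t' + n) - ((t' + n : ℝ) : ℂ) * I) := by
      rw [he x t' n]; push_cast; ring
    rw [h3]
    calc _ ≤ _ := h1
      _ ≤ C₀ * 1 := mul_le_mul_of_nonneg_left h2 hC₀'
      _ = C₀ := mul_one _
  set R := 2 * C₀ + 1 with hR
  have hQc : Continuous fun y : X × ℝ × ℝ => ∫ r in (0 : ℝ)..1,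
      D y.1 (y.2.2 + r * (y.2.1 - y.2.2)) := by
    apply intervalIntegral.continuous_parametric_intervalIntegral_of_continuous'
      (f := fun (y : X × ℝ × ℝ) r => D y.1 (y.2.2 + r * (y.2.1 - y.2.2)))
    exact hc.comp (f := fun z : (X × ℝ × ℝ) × ℝ => (z.1.1, z.1.2.2 + z.2 * (z.1.2.1 - z.1.2.2)))
      (by fun_prop)
  have hQ0 : ∀ y : X × ℝ × ℝ, (∫ r in (0 : ℝ)..1, D y.1 (y.2.2 + r * (y.2.1 - y.2.2))) ≠ 0 := by
    rintro ⟨x, t, t'⟩ h
    simp only at h
    have h1 := sub_eq_Q (hd x) (hcx x) t t'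
    rw [h, mul_zero, sub_eq_zero] at h1
    have h2 := hi x t t' h1
    subst h2
    simp only [sub_self, mul_zero, add_zero, intervalIntegral.integral_const, sub_zero,
      one_smul] at h
    exact h0 x t h
  obtain ⟨c₁, hc₁, hc₁'⟩ : ∃ c₁ > 0, ∀ x ∈ K, ∀ t ∈ Icc (-R) (R + 1), ∀ t' ∈ Icc (0 : ℝ) 1,
      c₁ ≤ ‖∫ r in (0 : ℝ)..1, D x (t' + r * (t - t'))‖ := by
    have hcomp : IsCompact (K ×ˢ (Icc (-R) (R + 1) ×ˢ Icc (0 : ℝ) 1)) :=
      hK.prod (isCompact_Icc.prod isCompact_Icc)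
    rcases (K ×ˢ (Icc (-R) (R + 1) ×ˢ Icc (0 : ℝ) 1)).eq_empty_or_nonempty with he | hne
    · refine ⟨1, one_pos, fun x hx t ht t' ht' => ?_⟩
      have : (x, t, t') ∈ K ×ˢ (Icc (-R) (R + 1) ×ˢ Icc (0 : ℝ) 1) := ⟨hx, ht, ht'⟩
      rw [he] at this
      exact absurd this (notMem_empty _)
    · obtain ⟨y, hy, hmin⟩ := hcomp.exists_isMinOn hne hQc.norm.continuousOn
      exact ⟨_, norm_pos_iff.2 (hQ0 y), fun x hx t ht t' ht' =>
        hmin (show (x, t, t') ∈ K ×ˢ (Icc (-R) (R + 1) ×ˢ Icc (0 : ℝ) 1) from ⟨hx, ht, ht'⟩)⟩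
  refine ⟨min (1 / 2) c₁, lt_min (by norm_num) hc₁, fun x hx t t' => ?_⟩
  rcases le_or_gt R |t - t'| with h | h
  · have h1 := hosc x hx t t'
    have h2 : ‖((t - t' : ℝ) : ℂ) * I‖ = |t - t'| := by
      rw [norm_mul, norm_I, mul_one, Complex.norm_real, Real.norm_eq_abs]
    have h3 : ‖((t - t' : ℝ) : ℂ) * I‖ ≤ ‖v x t - v x t'‖ +
        ‖(v x t - v x t') - ((t - t' : ℝ) : ℂ) * I‖ := by
      have : ((t - t' : ℝ) : ℂ) * I = (v x t - v x t') -
        ((v x t - v x t') - ((t - t' : ℝ) : ℂ) * I) := by ring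
      nth_rewrite 1 [this]
      exact norm_sub_le _ _
    rw [h2] at h3
    have h4 : min (1 / 2) c₁ * |t - t'| ≤ 1 / 2 * |t - t'| :=
      mul_le_mul_of_nonneg_right (min_le_left _ _) (abs_nonneg _)
    linarith
  · set n := ⌊t'⌋ with hn
    have h1 : v x t - v x t' = v x (t - n) - v x (t' - n) := by
      have h2 := he x (t - n) n
      have h3 := he x (t' - n) n
      rw [sub_add_cancel] at h2 h3
      rw [h2, h3]; ring
    have h2 : t' - n = Int.fract t' := rfl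
    have h3 := Int.fract_nonneg t'
    have h4 := (Int.fract_lt_one t').le
    have h5 : t' - n ∈ Icc (0 : ℝ) 1 := by rw [h2]; exact ⟨h3, h4⟩
    have h6 : t - n ∈ Icc (-R) (R + 1) := by
      have := abs_lt.1 h
      constructor <;> linarith [h5.1, h5.2]
    have h7 := hc₁' x hx _ h6 _ h5
    rw [h1, sub_eq_Q (hd x) (hcx x), norm_mul, Complex.norm_real, Real.norm_eq_abs]
    have h8 : |t - n - (t' - n)| = |t - t'| := by congr 1; ring
    rw [h8, mul_comm]
    refine mul_le_mul_of_nonneg_left ((min_le_right _ _).trans h7) (abs_nonneg _)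

/-- a path of families of embedded curves, continuous in `b` -/
structure CPath (V D : ℝ → (Fin m → ℝ) → ℝ → ℂ) : Prop where
  smooth : ∀ b, ContDiff ℝ ∞ fun y : ℝ × ℝ => V y.1 b y.2
  hd : ∀ s b t, HasDerivAt (V s b) (D s b t) t
  cont : Continuous fun y : ℝ × (Fin m → ℝ) × ℝ => D y.1 y.2.1 y.2.2
  equiv : ∀ s b t k (l : ℤ), V s (b + zv k) (t + l) = V s b t + l * I
  inj : ∀ s b t t', V s b t = V s b t' → t = t'
  imm : ∀ s b t, D s b t ≠ 0
  left : ∀ s ≤ 0, V s = V 0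
  right : ∀ s, 1 ≤ s → V s = V 1

/-- `w` is a smooth family close to `v` -/
def IsRep (w : V m → ℂ) (v D : (Fin m → ℝ) → ℝ → ℂ) : Prop :=
  IsCurveFam w ∧ ∃ c > 0, (∀ b, Emb c (v b)) ∧
    ∀ b t, ‖deriv (fun r => w (b, r)) t - D b t‖ ≤ c / 2

theorem IsRep.iso {w w' : V m → ℂ} {v D : (Fin m → ℝ) → ℝ → ℂ}
    (hd : ∀ b t, HasDerivAt (v b) (D b t) t) (h : IsRep w v D) (h' : IsRep w' v D) : Iso w w' := by
  obtain ⟨h1, c, hc, h2, h3⟩ := h
  obtain ⟨h1', c', hc', h2', h3'⟩ := h'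
  refine iso_of_close (c := max c c') h1.smooth h1'.smooth h1.equiv h1'.equiv hd
    (lt_max_of_lt_left hc) (fun b => (h2 b).max (h2' b)) (fun b t => (h3 b t).trans ?_)
    (fun b t => (h3' b t).trans ?_)
  · exact div_le_div_of_nonneg_right (le_max_left _ _) (by norm_num)
  · exact div_le_div_of_nonneg_right (le_max_right _ _) (by norm_num)

/-- all smooth representatives of `v` and `v'` are isotopic -/
def CIso (v D v' D' : (Fin m → ℝ) → ℝ → ℂ) : Prop :=
  ∀ w w', IsRep w v D → IsRep w' v' D' → Iso w w'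

theorem exists_frac (b : Fin m → ℝ) : ∃ k : Fin m → ℤ, ∀ j, (b + zv k) j ∈ Icc (0 : ℝ) 1 := by
  refine ⟨fun j => -⌊b j⌋, fun j => ?_⟩
  have h1 : (b + zv fun j => -⌊b j⌋) j = Int.fract (b j) := by
    simp only [Pi.add_apply, zv, Int.fract]; push_cast; ring
  rw [h1]
  exact ⟨Int.fract_nonneg _, (Int.fract_lt_one _).le⟩

namespace CPath

variable {V D : ℝ → (Fin m → ℝ) → ℝ → ℂ}

theorem eqZ (h : CPath V D) (s : ℝ) (b : Fin m → ℝ) (t : ℝ) (l : ℤ) :
    V s b (t + l) = V s b t + l * I := by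
  have := h.equiv s b t 0 l
  rwa [show b + zv 0 = b by ext j; simp [zv]] at this

theorem eqB (h : CPath V D) (s : ℝ) (b : Fin m → ℝ) (k : Fin m → ℤ) :
    V s (b + zv k) = V s b := by
  funext t
  have := h.equiv s b t k 0
  simpa using this

theorem DZ (h : CPath V D) (s : ℝ) (b : Fin m → ℝ) (t : ℝ) (l : ℤ) :
    D s b (t + l) = D s b t := per_D (h.hd s b) (h.eqZ s b) t l

theorem DB (h : CPath V D) (s : ℝ) (b : Fin m → ℝ) (k : Fin m → ℤ) :
    D s (b + zv k) = D s b := by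
  funext t
  have h1 := h.hd s (b + zv k) t
  rw [h.eqB] at h1
  exact h1.unique (h.hd s b t)

theorem DL (h : CPath V D) (s : ℝ) (hs : s ≤ 0) : D s = D 0 := by
  funext b t
  have h1 := h.hd s b t
  rw [h.left s hs] at h1
  exact h1.unique (h.hd 0 b t)

theorem DR (h : CPath V D) (s : ℝ) (hs : 1 ≤ s) : D s = D 1 := by
  funext b t
  have h1 := h.hd s b t
  rw [h.right s hs] at h1
  exact h1.unique (h.hd 1 b t)

theorem exists_emb (h : CPath V D) : ∃ c > 0, ∀ s b, Emb c (V s b) := by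
  obtain ⟨c, hc, h1⟩ := exists_emb_of_compact (X := ℝ × (Fin m → ℝ))
    (K := Icc (0 : ℝ) 1 ×ˢ (Set.pi univ fun _ => Icc (0 : ℝ) 1))
    (isCompact_Icc.prod (isCompact_univ_pi fun _ => isCompact_Icc))
    (v := fun x => V x.1 x.2) (D := fun x => D x.1 x.2) (fun x => h.hd x.1 x.2)
    (h.cont.comp (f := fun y : (ℝ × (Fin m → ℝ)) × ℝ => (y.1.1, y.1.2, y.2)) (by fun_prop))
    (fun x => h.eqZ x.1 x.2) (fun x => h.inj x.1 x.2) (fun x => h.imm x.1 x.2)
  have h2 : ∀ s ∈ Icc (0 : ℝ) 1, ∀ b, Emb c (V s b) := by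
    intro s hs b
    obtain ⟨k, hk⟩ := exists_frac b
    have := h1 (s, b + zv k) ⟨hs, fun j _ => hk j⟩
    simpa only [h.eqB] using this
  refine ⟨c, hc, fun s b => ?_⟩
  rcases le_or_gt s 0 with hs | hs
  · rw [h.left s hs]; exact h2 0 ⟨le_rfl, zero_le_one⟩ b
  rcases le_or_gt 1 s with hs' | hs'
  · rw [h.right s hs']; exact h2 1 ⟨zero_le_one, le_rfl⟩ b
  · exact h2 s ⟨hs.le, hs'.le⟩ b

theorem unif (h : CPath V D) {ε : ℝ} (hε : 0 < ε) : ∃ δ > 0, ∀ s b b' t, (∀ j, |b j - b' j| < δ) →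
    ‖D s b t - D s b' t‖ ≤ ε := by
  have hK : IsCompact (Icc (0 : ℝ) 1 ×ˢ ((Set.pi univ fun _ : Fin m => Icc (-1 : ℝ) 2) ×ˢ
      Icc (0 : ℝ) 1)) :=
    isCompact_Icc.prod ((isCompact_univ_pi fun _ => isCompact_Icc).prod isCompact_Icc)
  have hu := hK.uniformContinuousOn_of_continuous h.cont.continuousOn
  rw [Metric.uniformContinuousOn_iff_le] at hu
  obtain ⟨δ, hδ, h1⟩ := hu ε hε
  have h2 : ∀ s ∈ Icc (0 : ℝ) 1, ∀ b b' t, (∀ j, |b j - b' j| < min δ 1) →
      ‖D s b t - D s b' t‖ ≤ ε := by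
    intro s hs b b' t hbb
    obtain ⟨k, hk⟩ := exists_frac b
    have h3 : D s b t = D s (b + zv k) (Int.fract t) := by
      rw [h.DB, ← h.DZ s b (Int.fract t) ⌊t⌋, Int.fract_add_floor]
    have h4 : D s b' t = D s (b' + zv k) (Int.fract t) := by
      rw [h.DB, ← h.DZ s b' (Int.fract t) ⌊t⌋, Int.fract_add_floor]
    rw [h3, h4, ← dist_eq_norm]
    have h5 : Int.fract t ∈ Icc (0 : ℝ) 1 := ⟨Int.fract_nonneg _, (Int.fract_lt_one _).le⟩
    refine h1 (s, b + zv k, Int.fract t) ⟨hs, fun j _ => ?_, h5⟩ (s, b' + zv k, Int.fract t)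
      ⟨hs, fun j _ => ?_, h5⟩ ?_
    · exact ⟨by linarith [(hk j).1], by linarith [(hk j).2]⟩
    · have h6 := abs_lt.1 ((hbb j).trans_le (min_le_right _ _))
      have h7 := hk j
      simp only [Pi.add_apply] at h7 ⊢
      exact ⟨by linarith [h7.1], by linarith [h7.2]⟩
    · rw [Prod.dist_eq, Prod.dist_eq, dist_self, dist_self]
      simp only [dist_nonneg, sup_of_le_left, sup_of_le_right]
      rw [dist_pi_le_iff hδ.le]
      intro j
      rw [Real.dist_eq]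
      simp only [Pi.add_apply, add_sub_add_right_eq_sub]
      exact ((hbb j).trans_le (min_le_left _ _)).le
  refine ⟨min δ 1, lt_min hδ one_pos, fun s b b' t hbb => ?_⟩
  rcases le_or_gt s 0 with hs | hs
  · rw [h.DL s hs]; exact h2 0 ⟨le_rfl, zero_le_one⟩ b b' t hbb
  rcases le_or_gt 1 s with hs' | hs'
  · rw [h.DR s hs']; exact h2 1 ⟨zero_le_one, le_rfl⟩ b b' t hbb
  · exact h2 s ⟨hs.le, hs'.le⟩ b b' t hbb

/-- smoothing a path in the parameter -/
theorem exists_smooth (h : CPath V D) : ∃ W : ℝ × H64.V m → ℂ, ContDiff ℝ ∞ W ∧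
    (∀ s, IsRep (fun x => W (s, x)) (V s) (D s)) ∧ (∀ s ≤ 0, ∀ x, W (s, x) = W (0, x)) ∧
    ∀ s, 1 ≤ s → ∀ x, W (s, x) = W (1, x) := by
  obtain ⟨c, hc, hE⟩ := h.exists_emb
  obtain ⟨δ, hδ, hu⟩ := h.unif (show 0 < c / 2 by linarith)
  obtain ⟨J, hJ, p, χ, h1, h2, h3, h4, h5⟩ := exists_pou m hδ
  set W : ℝ × H64.V m → ℂ := fun y => ∑ i, ((χ i y.2.1 : ℝ) : ℂ) * V y.1 (p i) y.2.2 with hW
  have hWs : ContDiff ℝ ∞ W := by
    refine ContDiff.sum fun i _ => ?_
    refine (Complex.ofRealCLM.contDiff.comp ((h1 i).comp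
      (contDiff_fst.comp contDiff_snd))).mul ?_
    exact (h.smooth (p i)).comp (contDiff_fst.prodMk (contDiff_snd.comp contDiff_snd))
  have hWd : ∀ s b t, HasDerivAt (fun r => W (s, (b, r)))
      (∑ i, ((χ i b : ℝ) : ℂ) * D s (p i) t) t := by
    intro s b t
    exact HasDerivAt.fun_sum fun i _ => (h.hd s (p i) t).const_mul ((χ i b : ℝ) : ℂ)
  have hcl : ∀ s b t, ‖(∑ i, ((χ i b : ℝ) : ℂ) * D s (p i) t) - D s b t‖ ≤ c / 2 := by
    intro s b t
    have h6 : (∑ i, ((χ i b : ℝ) : ℂ) * D s (p i) t) - D s b t =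
        ∑ i, ((χ i b : ℝ) : ℂ) * (D s (p i) t - D s b t) := by
      simp only [mul_sub, Finset.sum_sub_distrib, ← Finset.sum_mul]
      rw [← Complex.ofReal_sum, h3 b, Complex.ofReal_one, one_mul]
    rw [h6]
    refine (norm_sum_le _ _).trans ?_
    have h7 : ∀ i ∈ Finset.univ, ‖((χ i b : ℝ) : ℂ) * (D s (p i) t - D s b t)‖ ≤
        χ i b * (c / 2) := by
      intro i _
      rw [norm_mul, Complex.norm_real, Real.norm_of_nonneg (h2 i b)]
      by_cases hi : χ i b = 0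
      · rw [hi]; simp
      · obtain ⟨k, hk⟩ := h5 i b hi
        refine mul_le_mul_of_nonneg_left ?_ (h2 i b)
        rw [norm_sub_rev, ← h.DB s (p i) k]
        exact hu s b (p i + zv k) t hk
    refine (Finset.sum_le_sum h7).trans ?_
    rw [← Finset.sum_mul, h3 b, one_mul]
  refine ⟨W, hWs, fun s => ⟨?_, c, hc, fun b => hE s b, fun b t => ?_⟩, fun s hs x => ?_,
    fun s hs x => ?_⟩
  · have hE' : ∀ b, Emb (c - c / 2) (fun r => W (s, (b, r))) := fun b =>
      emb_of_close (hE s b) (h.hd s b) (hWd s b) (hcl s b)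
    refine ⟨hWs.comp (contDiff_const.prodMk contDiff_id), fun x k l => ?_,
      fun b t t' ht => ?_, fun b t ht => ?_⟩
    · show ∑ i, ((χ i (x.1 + zv k) : ℝ) : ℂ) * V s (p i) (x.2 + l) =
        ∑ i, ((χ i x.1 : ℝ) : ℂ) * V s (p i) x.2 + l * I
      simp only [h4, h.eqZ, mul_add, Finset.sum_add_distrib, ← Finset.sum_mul]
      rw [← Complex.ofReal_sum, h3, Complex.ofReal_one, one_mul]
    · exact (hE' b).inj (by linarith) ht
    · have h6 := (hE' b).deriv_le (hWd s b t)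
      have h7 := (hWd s b t).deriv
      rw [h7] at ht
      rw [ht, norm_zero] at h6
      linarith
  · simp only
    rw [(hWd s b t).deriv]
    exact hcl s b t
  · simp only [hW, h.left s hs]
  · simp only [hW, h.right s hs]

theorem ciso (h : CPath V D) : CIso (V 0) (D 0) (V 1) (D 1) := by
  intro w w' hw hw'
  obtain ⟨W, h1, h2, h3, h4⟩ := h.exists_smooth
  have h5 : Iso (fun x => W (0, x)) (fun x => W (1, x)) :=
    ⟨W, h1, fun s => (h2 s).1, h3, h4⟩
  exact ((hw.iso (h.hd 0) (h2 0)).trans h5).trans ((h2 1).iso (h.hd 1) hw')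

end CPath

theorem CIso.trans {v₁ D₁ v₂ D₂ v₃ D₃ : (Fin m → ℝ) → ℝ → ℂ} (h : CIso v₁ D₁ v₂ D₂)
    (h' : CIso v₂ D₂ v₃ D₃) (hex : ∃ w, IsRep w v₂ D₂) : CIso v₁ D₁ v₃ D₃ := by
  obtain ⟨w₂, hw₂⟩ := hex
  exact fun w w' hw hw' => (h w w₂ hw hw₂).trans (h' w₂ w' hw₂ hw')

theorem CPath.exists_rep {V D : ℝ → (Fin m → ℝ) → ℝ → ℂ} (h : CPath V D) (s : ℝ) :
    ∃ w, IsRep w (V s) (D s) := by
  obtain ⟨W, _, h2, _⟩ := h.exists_smooth
  exact ⟨_, h2 s⟩

end Vale.Agent.P220.H64
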