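import Vale.Agent.P220.H64.Trig
import Vale.Agent.P220.H64.Cont

/-!
# Univalence of an analytic family on a strip
-/

open Set Complex Filter Topology Metric
open scoped ContDiff Real

namespace Vale.Agent.P220.H64

open Vale.Agent.P116.FK

variable {m : ℕ}

namespace AF

variable {W W' P : (Fin m → ℝ) → ℂ → ℂ}

theorem W'per (h : AF W W' P) (b : Fin m → ℝ) (τ : ℂ) (k : Fin m → ℤ) (l : ℤ) :
    W' (b + zv k) (τ + l) = W' b τ := by
  have h1 : HasDerivAt (fun z => W (b + zv k) (z + l)) (W' (b + zv k) (τ + l)) τ :=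
    HasDerivAt.comp_add_const τ (l : ℂ) (h.Wd (b + zv k) (τ + l))
  have h2 : HasDerivAt (fun z => W (b + zv k) (z + l)) (W' b τ) τ := by
    rw [show (fun z => W (b + zv k) (z + l)) = fun z => W b z + l * I from
      funext fun z => h.Wt b z k l]
    exact (h.Wd b τ).add_const _
  exact h1.unique h2

theorem sub_eq (h : AF W W' P) (b : Fin m → ℝ) (τ τ' : ℂ) :
    W b τ - W b τ' = (τ - τ') * ∫ r in (0 : ℝ)..1, W' b (τ' + r * (τ - τ')) := by
  have hc : Continuous (W' b) := h.Wc.comp (Continuous.prodMk_right b)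
  have h1 : ∀ r : ℝ, HasDerivAt (fun r : ℝ => W b (τ' + r * (τ - τ')))
      ((τ - τ') * W' b (τ' + r * (τ - τ'))) r := by
    intro r
    have h2 : HasDerivAt (fun r : ℂ => τ' + r * (τ - τ')) (τ - τ') (r : ℂ) := by
      simpa using ((hasDerivAt_id (r : ℂ)).mul_const (τ - τ')).const_add τ'
    have h3 := (h.Wd b (τ' + r * (τ - τ'))).comp (r : ℂ) h2
    have h4 := h3.comp_ofReal
    simpa [Function.comp_def, mul_comm] using h4
  have h4 := intervalIntegral.integral_eq_sub_of_hasDerivAt (a := 0) (b := 1)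
    (fun r _ => h1 r) (Continuous.intervalIntegrable (by fun_prop) _ _)
  rw [intervalIntegral.integral_const_mul] at h4
  rw [h4]
  simp

/-- univalence on a strip -/
theorem exists_strip (h : AF W W' P) : ∃ δ > 0, ∀ b τ, |τ.im| < δ → W' b τ ≠ 0 ∧
    ∀ τ', |τ'.im| < δ → W b τ = W b τ' → τ = τ' := by
  set cube : Set (Fin m → ℝ) := Set.pi univ fun _ => Icc (0 : ℝ) 1 with hcube
  have hcc : IsCompact cube := isCompact_univ_pi fun _ => isCompact_Icc
  -- bound for `W' - I`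
  obtain ⟨C, hC⟩ := (hcc.prod (isCompact_Icc (a := (0 : ℝ)) (b := 1) |>.reProdIm
    (isCompact_Icc (a := (-1 : ℝ)) (b := 1)))).exists_bound_of_continuousOn
    (f := fun y : (Fin m → ℝ) × ℂ => W' y.1 y.2 - I) ((h.Wc.sub continuous_const).continuousOn)
  set C₀ := max C 0 with hC₀
  have hC₀' : 0 ≤ C₀ := le_max_right _ _
  have hC' : ∀ b τ, |τ.im| ≤ 1 → ‖W' b τ - I‖ ≤ C₀ := by
    intro b τ hτ
    obtain ⟨k, hk⟩ := exists_frac b
    have h1 : W' b τ = W' (b + zv k) (τ + ((-⌊τ.re⌋ : ℤ) : ℂ)) := (h.W'per b τ k _).symm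
    rw [h1]
    refine (hC (b + zv k, τ + ((-⌊τ.re⌋ : ℤ) : ℂ)) ⟨fun j _ => hk j, ?_⟩).trans (le_max_left _ _)
    rw [mem_reProdIm]
    have h2 := abs_le.1 hτ
    simp only [add_re, intCast_re, add_im, intCast_im, add_zero]
    refine ⟨⟨?_, ?_⟩, h2.1, h2.2⟩
    · push_cast; linarith [Int.floor_le τ.re]
    · push_cast; linarith [Int.lt_floor_add_one τ.re]
  have hosc : ∀ b τ τ', |τ.im| ≤ 1 → |τ'.im| ≤ 1 →
      ‖(W b τ - W b τ') - (τ - τ') * I‖ ≤ C₀ * 3 := by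
    intro b τ τ' hτ hτ'
    set n := ⌊τ.re - τ'.re⌋ with hn
    have hconv : Convex ℝ {z : ℂ | |z.im| ≤ 1} := by
      have : {z : ℂ | |z.im| ≤ 1} = Complex.imLm ⁻¹' (Icc (-1) 1) := by
        ext z; simp [abs_le]
      rw [this]
      exact (convex_Icc _ _).linear_preimage _
    have h1 : ‖(W b τ - τ * I) - (W b (τ' + n) - (τ' + n) * I)‖ ≤ C₀ * ‖τ - (τ' + n)‖ := by
      refine hconv.norm_image_sub_le_of_norm_hasDerivWithin_le (𝕜 := ℂ)
        (f := fun z => W b z - z * I) (f' := fun z => W' b z - 1 * I)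
        (fun z _ => ?_) (fun z hz => ?_) ?_ hτ
      · exact ((h.Wd b z).sub ((hasDerivAt_id z).mul_const I)).hasDerivWithinAt
      · rw [one_mul]; exact hC' b z hz
      · simpa using hτ'
    have h2 : ‖τ - (τ' + n)‖ ≤ 3 := by
      refine (Complex.norm_le_abs_re_add_abs_im _).trans ?_
      have h3 : (τ - (τ' + n)).re = Int.fract (τ.re - τ'.re) := by
        simp only [sub_re, add_re, intCast_re, Int.fract]; ring
      have h4 : (τ - (τ' + n)).im = τ.im - τ'.im := by simp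
      rw [h3, h4, abs_of_nonneg (Int.fract_nonneg _)]
      have h5 := Int.fract_lt_one (τ.re - τ'.re)
      have h6 := abs_sub τ.im τ'.im
      linarith
    have h3 : (W b τ - W b τ') - (τ - τ') * I =
        (W b τ - τ * I) - (W b (τ' + n) - (τ' + n) * I) := by
      have := h.Wt b τ' 0 n
      rw [show b + zv (0 : Fin m → ℤ) = b by ext j; simp [zv]] at this
      rw [this]; ring
    rw [h3]
    exact h1.trans (mul_le_mul_of_nonneg_left h2 hC₀')
  set R := 3 * C₀ with hR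
  have hQc : Continuous fun y : (Fin m → ℝ) × ℂ × ℂ => ∫ r in (0 : ℝ)..1,
      W' y.1 (y.2.2 + r * (y.2.1 - y.2.2)) := by
    apply intervalIntegral.continuous_parametric_intervalIntegral_of_continuous'
      (f := fun (y : (Fin m → ℝ) × ℂ × ℂ) (r : ℝ) => W' y.1 (y.2.2 + r * (y.2.1 - y.2.2)))
    exact h.Wc.comp (f := fun z : ((Fin m → ℝ) × ℂ × ℂ) × ℝ =>
      (z.1.1, z.1.2.2 + (z.2 : ℂ) * (z.1.2.1 - z.1.2.2))) (by fun_prop)
  set K : Set ((Fin m → ℝ) × ℂ × ℂ) := (fun y : (Fin m → ℝ) × ℝ × ℝ =>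
    (y.1, ((y.2.1 : ℝ) : ℂ), ((y.2.2 : ℝ) : ℂ))) '' (cube ×ˢ (Icc (-R) (R + 1) ×ˢ Icc (0 : ℝ) 1))
    with hK
  have hKc : IsCompact K := (hcc.prod (isCompact_Icc.prod isCompact_Icc)).image (by fun_prop)
  have hU : IsOpen {y : (Fin m → ℝ) × ℂ × ℂ | (∫ r in (0 : ℝ)..1,
      W' y.1 (y.2.2 + r * (y.2.1 - y.2.2))) ≠ 0} := isOpen_ne.preimage hQc
  obtain ⟨δ₀, hδ₀, hth⟩ := hKc.exists_thickening_subset_open hU (by
    rintro _ ⟨⟨b, t, t'⟩, _, rfl⟩ h0
    simp only at h0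
    have h1 := h.sub_eq b t t'
    rw [h0, mul_zero, sub_eq_zero] at h1
    have h2 := h.inj b t t' h1
    subst h2
    simp only [sub_self, mul_zero, add_zero, intervalIntegral.integral_const, sub_zero,
      one_smul] at h0
    exact h.imm b t h0)
  have hQ : ∀ b τ τ', |τ.im| < min δ₀ 1 → |τ'.im| < min δ₀ 1 → |τ.re - τ'.re| ≤ R →
      (∫ r in (0 : ℝ)..1, W' b (τ' + r * (τ - τ'))) ≠ 0 := by
    intro b τ τ' h1 h2 h3
    obtain ⟨k, hk⟩ := exists_frac b
    set n : ℤ := -⌊τ'.re⌋ with hn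
    have h4 : (∫ r in (0 : ℝ)..1, W' b (τ' + r * (τ - τ'))) =
        ∫ r in (0 : ℝ)..1, W' (b + zv k) ((τ' + n) + r * ((τ + n) - (τ' + n))) := by
      refine intervalIntegral.integral_congr fun r _ => ?_
      show W' b (τ' + r * (τ - τ')) = W' (b + zv k) ((τ' + n) + r * ((τ + n) - (τ' + n)))
      rw [show τ' + n + r * (τ + n - (τ' + n)) = (τ' + r * (τ - τ')) + n by ring, h.W'per]
    rw [h4]
    refine hth (a := (b + zv k, τ + n, τ' + n)) ?_
    rw [mem_thickening_iff]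
    have h5 : (0 : ℝ) ≤ τ'.re + n := by rw [hn]; push_cast; linarith [Int.floor_le τ'.re]
    have h6 : τ'.re + n ≤ 1 := by rw [hn]; push_cast; linarith [Int.lt_floor_add_one τ'.re]
    have h7 := abs_le.1 h3
    refine ⟨(b + zv k, (((τ.re + n : ℝ)) : ℂ), (((τ'.re + n : ℝ)) : ℂ)),
      ⟨(b + zv k, τ.re + n, τ'.re + n), ⟨fun j _ => hk j, ⟨by show -R ≤ _; linarith,
        by show _ ≤ R + 1; linarith⟩, h5, h6⟩, rfl⟩, ?_⟩
    have h8 : ∀ z : ℂ, dist (z + n) (((z.re + n : ℝ)) : ℂ) = |z.im| := by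
      intro z
      have : z + n - (((z.re + n : ℝ)) : ℂ) = ((z.im : ℝ) : ℂ) * I := by
        apply Complex.ext <;> simp
      rw [dist_eq_norm, this, norm_mul, norm_I, mul_one, Complex.norm_real, Real.norm_eq_abs]
    rw [Prod.dist_eq, Prod.dist_eq, dist_self, h8, h8]
    exact max_lt hδ₀ (max_lt (h1.trans_le (min_le_left _ _)) (h2.trans_le (min_le_left _ _)))
  refine ⟨min δ₀ 1, lt_min hδ₀ one_pos, fun b τ hτ => ⟨fun h0 => ?_, fun τ' hτ' heq => ?_⟩⟩
  · have h1 := hQ b τ τ hτ hτ (by simp only [sub_self, abs_zero, hR]; positivity)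
    simp only [sub_self, mul_zero, add_zero, intervalIntegral.integral_const, sub_zero,
      one_smul] at h1
    exact h1 h0
  · have h1 := hosc b τ τ' (hτ.trans_le (min_le_right _ _)).le (hτ'.trans_le (min_le_right _ _)).le
    rw [heq, sub_self, zero_sub, norm_neg, norm_mul, norm_I, mul_one] at h1
    have h2 : |τ.re - τ'.re| ≤ R := by
      have := Complex.abs_re_le_norm (τ - τ')
      rw [sub_re] at this
      linarith
    have h3 := h.sub_eq b τ τ'
    rw [heq, sub_self] at h3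
    rcases mul_eq_zero.1 h3.symm with h4 | h4
    · exact sub_eq_zero.1 h4
    · exact absurd h4 (hQ b τ τ' hτ hτ' h2)

/-- the curve in the punctured plane -/
noncomputable def Gam (P : (Fin m → ℝ) → ℂ → ℂ) (b : Fin m → ℝ) (ζ : ℂ) : ℂ := ζ * exp (P b ζ)

theorem Gam_exp (h : AF W W' P) (b : Fin m → ℝ) (τ : ℂ) :
    Gam P b (exp (2 * π * I * τ)) = exp (2 * π * W b τ) := by
  rw [Gam, ← exp_add, h.WP]

theorem exists_tau {δ : ℝ} {ζ : ℂ} (hζ : ζ ∈ ann (Real.exp (2 * π * δ))⁻¹ (Real.exp (2 * π * δ))) :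
    ∃ τ : ℂ, exp (2 * π * I * τ) = ζ ∧ |τ.im| < δ := by
  have hpi := Real.pi_pos
  have h0 : ζ ≠ 0 := by
    rintro rfl
    have := hζ.1
    rw [norm_zero] at this
    exact absurd this (not_lt.2 (inv_nonneg.2 (Real.exp_pos _).le))
  refine ⟨log ζ / (2 * π * I), ?_, ?_⟩
  · rw [mul_div_cancel₀ _ two_pi_I_ne_zero, exp_log h0]
  · have h1 : log ζ / (2 * π * I) = -(log ζ * I) / ((2 * π : ℝ) : ℂ) := by
      push_cast
      rw [div_eq_div_iff two_pi_I_ne_zero (by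
        have : (π : ℂ) ≠ 0 := by exact_mod_cast hpi.ne'
        simp [this])]
      linear_combination (log ζ * (2 * π)) * I_mul_I
    have h2 : (log ζ / (2 * π * I)).im = -(Real.log ‖ζ‖) / (2 * π) := by
      rw [h1, Complex.div_ofReal_im]
      simp [Complex.log_re]
    have h3 : 0 < ‖ζ‖ := norm_pos_iff.2 h0
    have h4 : Real.log ‖ζ‖ < 2 * π * δ := by
      rw [← Real.log_exp (2 * π * δ)]
      exact Real.log_lt_log h3 hζ.2
    have h5 : -(2 * π * δ) < Real.log ‖ζ‖ := by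
      rw [← Real.log_exp (-(2 * π * δ)), Real.exp_neg]
      exact Real.log_lt_log (inv_pos.2 (Real.exp_pos _)) hζ.1
    rw [h2, abs_lt]
    constructor
    · rw [lt_div_iff₀ (by positivity)]; linarith
    · rw [div_lt_iff₀ (by positivity)]; linarith

theorem ac (h : AF W W' P) {δ : ℝ} (hδ : 0 < δ)
    (hs : ∀ b τ, |τ.im| < δ → ∀ τ', |τ'.im| < δ → W b τ = W b τ' → τ = τ') (b : Fin m → ℝ) :
    AC (Real.exp (2 * π * δ)) (Gam P b) := by
  have hpi := Real.pi_pos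
  have hnz : ∀ ζ ∈ ann (Real.exp (2 * π * δ))⁻¹ (Real.exp (2 * π * δ)), ζ ∈ ({0}ᶜ : Set ℂ) := by
    rintro ζ hζ h0
    rw [mem_singleton_iff] at h0
    have := hζ.1
    rw [h0, norm_zero] at this
    exact absurd this (not_lt.2 (inv_nonneg.2 (Real.exp_pos _).le))
  refine ⟨Real.one_lt_exp_iff.2 (by positivity), ?_, ?_, P b, (h.Pd b).mono hnz, fun ζ _ => rfl⟩
  · exact differentiableOn_id.mul ((h.Pd b).mono hnz).cexp
  · intro ζ hζ ζ' hζ' heq
    obtain ⟨τ, hτ, hτi⟩ := exists_tau hζ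
    obtain ⟨τ', hτ', hτi'⟩ := exists_tau hζ'
    rw [← hτ, ← hτ', h.Gam_exp, h.Gam_exp, exp_eq_exp_iff_exists_int] at heq
    obtain ⟨n, hn⟩ := heq
    have h2pi : (2 * π : ℂ) ≠ 0 := by
      have : (π : ℂ) ≠ 0 := by exact_mod_cast hpi.ne'
      simp [this]
    have h1 : W b τ = W b (τ' + n) := by
      have h2 := h.Wt b τ' 0 n
      rw [show b + zv (0 : Fin m → ℤ) = b by ext j; simp [zv]] at h2
      rw [h2]
      refine mul_left_cancel₀ h2pi ?_
      rw [hn]; ring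
    have h2 := hs b τ hτi (τ' + n) (by simpa using hτi') h1
    rw [← hτ, ← hτ', h2, exp_per]

theorem Gam_unif (h : AF W W' P) (b₀ : Fin m → ℝ) {a c : ℝ} (ha : 0 < a) {ε : ℝ} (hε : 0 < ε) :
    ∀ᶠ b in 𝓝 b₀, ∀ ζ : ℂ, a ≤ ‖ζ‖ → ‖ζ‖ ≤ c → ‖Gam P b ζ - Gam P b₀ ζ‖ < ε := by
  set A : Set ℂ := {z | a ≤ ‖z‖ ∧ ‖z‖ ≤ c} with hA
  have hAc : IsCompact A := by
    refine Metric.isCompact_of_isClosed_isBounded
      ((isClosed_le continuous_const continuous_norm).inter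
        (isClosed_le continuous_norm continuous_const)) ?_
    exact (isBounded_closedBall (x := (0 : ℂ)) (r := c)).subset fun w hw =>
      mem_closedBall_zero_iff.2 hw.2
  have hA0 : A ⊆ {0}ᶜ := fun z hz h0 => by
    rw [mem_singleton_iff] at h0
    have := hz.1
    rw [h0, norm_zero] at this
    linarith
  have hcont : ContinuousOn (fun y : (Fin m → ℝ) × ℂ => Gam P y.1 y.2 - Gam P b₀ y.2)
      (univ ×ˢ {0}ᶜ) := by
    unfold Gam
    refine (continuousOn_snd.mul h.Pc.cexp).sub (continuousOn_snd.mul ?_)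
    refine ContinuousOn.cexp ?_
    exact (h.Pd b₀).continuousOn.comp continuousOn_snd fun y hy => hy.2
  have hopen : IsOpen ((univ : Set (Fin m → ℝ)) ×ˢ ({0}ᶜ : Set ℂ)) := isOpen_univ.prod isOpen_compl_singleton
  have key : ∀ ζ ∈ A, ∃ U ∈ 𝓝 ζ, ∃ N ∈ 𝓝 b₀, ∀ z ∈ U, ∀ b ∈ N,
      ‖Gam P b z - Gam P b₀ z‖ < ε := by
    intro ζ hζ
    have h1 : ContinuousAt (fun y : (Fin m → ℝ) × ℂ => ‖Gam P y.1 y.2 - Gam P b₀ y.2‖)
        (b₀, ζ) := (hcont.norm).continuousAt (hopen.mem_nhds ⟨trivial, hA0 hζ⟩)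
    have h2 : ∀ᶠ y : (Fin m → ℝ) × ℂ in 𝓝 (b₀, ζ), ‖Gam P y.1 y.2 - Gam P b₀ y.2‖ < ε := by
      refine h1.eventually_lt continuousAt_const ?_
      simpa using hε
    rw [nhds_prod_eq, Filter.eventually_prod_iff] at h2
    obtain ⟨p, hp, q, hq, hpq⟩ := h2
    exact ⟨_, hq, _, hp, fun z hz b hb => hpq hb hz⟩
  choose! U hU N hN hUN using key
  obtain ⟨t, ht, hcov⟩ := hAc.elim_nhds_subcover U hU
  have h3 : ⋂ x ∈ t, N x ∈ 𝓝 b₀ := (Filter.biInter_finset_mem t).2 fun x hx => hN x (ht x hx)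
  filter_upwards [h3] with b hb ζ h4 h5
  obtain ⟨x, hx, hζx⟩ := mem_iUnion₂.1 (hcov (show ζ ∈ A from ⟨h4, h5⟩))
  exact hUN x (ht x hx) ζ hζx b (mem_iInter₂.1 hb x hx)

end AF

end Vale.Agent.P220.H64
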