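import Vale.Agent.P220.H64.LocInv
import Vale.Agent.P220.H64.Defs

/-!
# Smooth equivariant left inverses of isotopies of embeddings of the torus
-/

open Set Filter Topology
open scoped ContDiff Real Manifold

namespace Vale.Agent.P220.H64

variable {m : ℕ}

theorem exists_loc_left_inv {E F : Type*} [NormedAddCommGroup E] [NormedSpace ℝ E]
    [FiniteDimensional ℝ E] [NormedAddCommGroup F] [NormedSpace ℝ F] [FiniteDimensional ℝ F]
    {f : E → F} (hf : ContDiff ℝ ∞ f) {x₀ : E} (hx : Function.Injective (fderiv ℝ f x₀)) :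
    ∃ U ∈ 𝓝 (f x₀), ∃ T : F → E, ContDiffOn ℝ ∞ T U ∧ ∀ᶠ x in 𝓝 x₀, T (f x) = x := by
  obtain ⟨g, hg⟩ := LinearMap.exists_leftInverse_of_injective
    (fderiv ℝ f x₀ : E →ₗ[ℝ] F) (LinearMap.ker_eq_bot.2 hx)
  set L : F →L[ℝ] E := LinearMap.toContinuousLinearMap g with hL
  have hLg : ∀ v, L (fderiv ℝ f x₀ v) = v := fun v => by
    have := LinearMap.congr_fun hg v
    exact this
  have h1 : ContDiff ℝ ∞ (fun x => L (f x)) := L.contDiff.comp hf
  have h2 : fderiv ℝ (fun x => L (f x)) x₀ = L.comp (fderiv ℝ f x₀) :=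
    (L.hasFDerivAt.comp x₀ (hf.differentiable (by simp) x₀).hasFDerivAt).fderiv
  have h3 : Function.Injective (fderiv ℝ (fun x => L (f x)) x₀) := by
    intro v v' hv
    rw [h2] at hv
    simpa only [ContinuousLinearMap.comp_apply, hLg] using hv
  obtain ⟨U, hU, T, hT, hT'⟩ := exists_loc_inv h1 h3
  refine ⟨L ⁻¹' U, L.continuous.continuousAt.preimage_mem_nhds hU, fun z => T (L z), ?_, hT'⟩
  exact hT.comp L.contDiff.contDiffOn fun z hz => hz

/-- the torus embedded in `ℂ^m × ℂ` -/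
noncomputable def ez (q : V m) : (Fin m → ℂ) × ℂ :=
  (fun j => Complex.exp (2 * π * (q.1 j : ℂ) * Complex.I), Complex.exp (2 * π * (q.2 : ℂ) * Complex.I))

theorem ez_contDiff : ContDiff ℝ ∞ (ez : V m → (Fin m → ℂ) × ℂ) := by
  have h1 : ∀ g : V m → ℝ, ContDiff ℝ ∞ g →
      ContDiff ℝ ∞ fun q => Complex.exp (2 * π * (g q : ℂ) * Complex.I) := by
    intro g hg
    have h2 : ContDiff ℝ ∞ fun q => (g q : ℂ) := Complex.ofRealCLM.contDiff.comp hg
    exact ((contDiff_const.mul h2).mul contDiff_const).cexp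
  refine ContDiff.prodMk (contDiff_pi.2 fun j => ?_) ?_
  · exact h1 (fun q => q.1 j) ((contDiff_apply ℝ ℝ j).comp contDiff_fst)
  · exact h1 (fun q => q.2) contDiff_snd

theorem exp_aux (x : ℝ) (l : ℤ) : Complex.exp (2 * π * ((x + l : ℝ) : ℂ) * Complex.I) =
    Complex.exp (2 * π * (x : ℂ) * Complex.I) := by
  rw [Complex.exp_eq_exp_iff_exists_int]
  exact ⟨l, by push_cast; ring⟩

theorem exp_aux' {x y : ℝ} (h : Complex.exp (2 * π * (x : ℂ) * Complex.I) =
    Complex.exp (2 * π * (y : ℂ) * Complex.I)) : ∃ l : ℤ, x = y + l := by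
  rw [Complex.exp_eq_exp_iff_exists_int] at h
  obtain ⟨l, hl⟩ := h
  refine ⟨l, ?_⟩
  have h1 : (2 * π * Complex.I) * (x : ℂ) = (2 * π * Complex.I) * ((y + l : ℝ) : ℂ) := by
    push_cast
    linear_combination hl
  have h2 : (2 * π * Complex.I : ℂ) ≠ 0 := by
    simp [Complex.I_ne_zero, Real.pi_ne_zero]
  exact_mod_cast mul_left_cancel₀ h2 h1

theorem ez_lat (q : V m) (k : Fin m → ℤ) (l : ℤ) : ez (q + lat k l) = ez q := by
  unfold ez lat
  refine Prod.ext (funext fun j => ?_) ?_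
  · exact exp_aux _ _
  · exact exp_aux _ _

theorem ez_eq {q q' : V m} (h : ez q = ez q') : ∃ k l, q = q' + lat k l := by
  have h1 : ∀ j, ∃ l : ℤ, q.1 j = q'.1 j + l := fun j =>
    exp_aux' (congrFun (congrArg Prod.fst h) j)
  choose k hk using h1
  obtain ⟨l, hl⟩ := exp_aux' (congrArg Prod.snd h)
  exact ⟨k, l, Prod.ext (funext fun j => hk j) hl⟩

/-- the derivative of `ez` is injective -/
theorem ez_imm (q v : V m) (h : fderiv ℝ (ez : V m → (Fin m → ℂ) × ℂ) q v = 0) : v = 0 := by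
  have h0 : ∀ (g : V m →L[ℝ] ℝ), HasFDerivAt (fun q : V m =>
      Complex.exp (2 * π * (g q : ℂ) * Complex.I))
      (Complex.exp (2 * π * (g q : ℂ) * Complex.I) •
        ((2 * π * Complex.I : ℂ) • Complex.ofRealCLM.comp g)) q := by
    intro g
    have h1 : HasFDerivAt (fun q : V m => (2 * π * (g q : ℂ) * Complex.I))
        ((2 * π * Complex.I : ℂ) • Complex.ofRealCLM.comp g) q := by
      have := ((Complex.ofRealCLM.comp g).hasFDerivAt (x := q)).const_smul (2 * π * Complex.I : ℂ)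
      refine this.congr_of_eventuallyEq (Eventually.of_forall fun y => ?_)
      show 2 * π * (g y : ℂ) * Complex.I = (2 * π * Complex.I) * (g y : ℂ)
      ring
    exact h1.cexp
  have h2 : ∀ g : V m →L[ℝ] ℝ, (Complex.exp (2 * π * (g q : ℂ) * Complex.I) •
        ((2 * π * Complex.I : ℂ) • Complex.ofRealCLM.comp g)) v = 0 → g v = 0 := by
    intro g hg
    simp only [smul_apply, ContinuousLinearMap.comp_apply,
      Complex.ofRealCLM_apply, smul_eq_mul, mul_eq_zero, Complex.exp_ne_zero, false_or,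
      Complex.I_ne_zero, or_false, Complex.ofReal_eq_zero, Real.pi_ne_zero] at hg
    simpa using hg
  have hd := (ez_contDiff (m := m)).differentiable (by simp) q
  have h3 : ∀ j, v.1 j = 0 := by
    intro j
    refine h2 ((ContinuousLinearMap.proj j).comp (ContinuousLinearMap.fst ℝ _ _)) ?_
    have h4 := (((ContinuousLinearMap.proj (R := ℝ) (φ := fun _ : Fin m => ℂ) j).comp
      (ContinuousLinearMap.fst ℝ (Fin m → ℂ) ℂ)).hasFDerivAt.comp q hd.hasFDerivAt)
    have h5 := h4.unique (h0 ((ContinuousLinearMap.proj j).comp (ContinuousLinearMap.fst ℝ _ _)))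
    rw [← h5]
    simp only [ContinuousLinearMap.comp_apply, h, map_zero]
  have h4 : v.2 = 0 := by
    refine h2 (ContinuousLinearMap.snd ℝ _ _) ?_
    have h4 := (((ContinuousLinearMap.snd ℝ (Fin m → ℂ) ℂ)).hasFDerivAt.comp q hd.hasFDerivAt)
    have h5 := h4.unique (h0 (ContinuousLinearMap.snd ℝ _ _))
    rw [← h5]
    simp only [ContinuousLinearMap.comp_apply, h, map_zero]
  exact Prod.ext (funext h3) h4

/-- integer translates into a unit box -/
theorem exists_box (x₀ x : V m) : ∃ k l, ‖x + lat k l - x₀‖ ≤ 1 / 2 := by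
  refine ⟨fun j => - round (x.1 j - x₀.1 j), - round (x.2 - x₀.2), ?_⟩
  rw [Prod.norm_def, max_le_iff, pi_norm_le_iff_of_nonneg (by norm_num)]
  refine ⟨fun j => ?_, ?_⟩
  · have h := abs_sub_round (x.1 j - x₀.1 j)
    show |x.1 j + ((- round (x.1 j - x₀.1 j) : ℤ) : ℝ) - x₀.1 j| ≤ 1 / 2
    rw [show x.1 j + ((- round (x.1 j - x₀.1 j) : ℤ) : ℝ) - x₀.1 j =
      x.1 j - x₀.1 j - round (x.1 j - x₀.1 j) by push_cast; ring]
    exact h
  · have h := abs_sub_round (x.2 - x₀.2)
    show |x.2 + ((- round (x.2 - x₀.2) : ℤ) : ℝ) - x₀.2| ≤ 1 / 2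
    rw [show x.2 + ((- round (x.2 - x₀.2) : ℤ) : ℝ) - x₀.2 =
      x.2 - x₀.2 - round (x.2 - x₀.2) by push_cast; ring]
    exact h

theorem lat_small {k : Fin m → ℤ} {l : ℤ} (h : ‖(lat k l : V m)‖ ≤ 1 / 2) :
    (lat k l : V m) = 0 := by
  rw [Prod.norm_def, max_le_iff, pi_norm_le_iff_of_nonneg (by norm_num)] at h
  have h0 : ∀ n : ℤ, ‖(n : ℝ)‖ ≤ 1 / 2 → (n : ℝ) = 0 := by
    intro n hn
    rw [Real.norm_eq_abs] at hn
    have h1 : |(n : ℝ)| < 1 := by linarith
    have h2 : |n| < 1 := by exact_mod_cast h1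
    rw [Int.abs_lt_one_iff.1 h2]
    simp
  exact Prod.ext (funext fun j => h0 _ (h.1 j)) (h0 _ h.2)

section
variable {G : Type*} [NormedAddCommGroup G] [NormedSpace ℝ G]

/-- a smooth family of embeddings of the torus into `T^{m+1} × G`, homotopic to the zero section -/
structure IsEmbFam (A : ℝ × V m → V m × G) : Prop where
  smooth : ContDiff ℝ ∞ A
  equiv : ∀ s x k l, A (s, x + lat k l) = A (s, x) + (lat k l, 0)
  inj : ∀ s x x', A (s, x) = A (s, x') → x = x'
  imm : ∀ s x, Function.Injective (fderiv ℝ (fun x => A (s, x)) x)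

/-- the quotient map -/
noncomputable def kz (y : ℝ × (V m × G)) : ℝ × (((Fin m → ℂ) × ℂ) × G) := (y.1, (ez y.2.1, y.2.2))

theorem kz_contDiff : ContDiff ℝ ∞ (kz : ℝ × (V m × G) → _) :=
  contDiff_fst.prodMk ((ez_contDiff.comp (contDiff_fst.comp contDiff_snd)).prodMk
    (contDiff_snd.comp contDiff_snd))

theorem IsEmbFam.kz_eq {A : ℝ × V m → V m × G} (hA : IsEmbFam A) {s s' : ℝ} {x x' : V m}
    (h : kz (s, A (s, x)) = kz (s', A (s', x'))) : s = s' ∧ ∃ k l, x = x' + lat k l := by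
  have h1 : s = s' := congrArg Prod.fst h
  subst h1
  obtain ⟨k, l, hkl⟩ := ez_eq (congrArg (fun z => z.2.1) h)
  refine ⟨rfl, k, l, hA.inj s _ _ ?_⟩
  rw [hA.equiv]
  refine Prod.ext hkl ?_
  rw [Prod.snd_add, add_zero]
  exact congrArg (fun z => z.2.2) h

theorem IsEmbFam.kz_lat {A : ℝ × V m → V m × G} (hA : IsEmbFam A) (s : ℝ) (x : V m)
    (k : Fin m → ℤ) (l : ℤ) : kz (s, A (s, x + lat k l)) = kz (s, A (s, x)) := by
  rw [hA.equiv]
  unfold kz
  simp only [Prod.fst_add, Prod.snd_add, add_zero, ez_lat]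

theorem IsEmbFam.kz_imm {A : ℝ × V m → V m × G} (hA : IsEmbFam A) (y : ℝ × V m) :
    Function.Injective (fderiv ℝ (fun y : ℝ × V m => kz (y.1, A y)) y) := by
  rw [injective_iff_map_eq_zero]
  intro v hv
  have hdA := (hA.smooth.differentiable (by simp) y).hasFDerivAt
  have he := ((ez_contDiff (m := m)).differentiable (by simp) (A y).1).hasFDerivAt
  have h1 : HasFDerivAt (fun y : ℝ × V m => kz (y.1, A y))
      ((ContinuousLinearMap.fst ℝ ℝ (V m)).prod
        (((fderiv ℝ ez (A y).1).comp ((ContinuousLinearMap.fst ℝ _ _).comp (fderiv ℝ A y))).prod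
          ((ContinuousLinearMap.snd ℝ _ _).comp (fderiv ℝ A y)))) y := by
    have e1 : HasFDerivAt (fun y => (A y).1)
        ((ContinuousLinearMap.fst ℝ (V m) G).comp (fderiv ℝ A y)) y :=
      ((ContinuousLinearMap.fst ℝ (V m) G).hasFDerivAt).comp y hdA
    have e2 : HasFDerivAt (fun y => (A y).2)
        ((ContinuousLinearMap.snd ℝ (V m) G).comp (fderiv ℝ A y)) y :=
      ((ContinuousLinearMap.snd ℝ (V m) G).hasFDerivAt).comp y hdA
    have e3 : HasFDerivAt (fun y => ez (A y).1) ((fderiv ℝ ez (A y).1).comp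
        ((ContinuousLinearMap.fst ℝ (V m) G).comp (fderiv ℝ A y))) y :=
      HasFDerivAt.comp (g := ez) (f := fun y => (A y).1) y he e1
    exact hasFDerivAt_fst.prodMk (e3.prodMk e2)
  rw [h1.fderiv] at hv
  have h2 : v.1 = 0 := congrArg Prod.fst hv
  have h3 : (fderiv ℝ A y v).1 = 0 := ez_imm _ _ (congrArg (fun z => z.2.1) hv)
  have h4 : (fderiv ℝ A y v).2 = 0 := congrArg (fun z => z.2.2) hv
  have h5 : fderiv ℝ A y v = 0 := Prod.ext h3 h4
  have h6 : HasFDerivAt (fun x => A (y.1, x)) ((fderiv ℝ A y).comp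
      (ContinuousLinearMap.inr ℝ ℝ (V m))) y.2 :=
    HasFDerivAt.comp (f := fun x => (y.1, x)) y.2 hdA (hasFDerivAt_prodMk_right y.1 y.2)
  have h7 : v.2 = 0 := by
    have h8 := hA.imm y.1 y.2
    rw [h6.fderiv, injective_iff_map_eq_zero] at h8
    refine h8 v.2 ?_
    rw [ContinuousLinearMap.comp_apply, ContinuousLinearMap.inr_apply, ← h2]
    exact h5
  exact Prod.ext h2 h7

/-- points near the image are near a given representative -/
theorem IsEmbFam.near {A : ℝ × V m → V m × G} (hA : IsEmbFam A)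
    (z₀ : ℝ × (((Fin m → ℂ) × ℂ) × G)) (x₀ : V m) {N : Set (ℝ × V m)} (hN : IsOpen N)
    (h : ∀ s x, kz (s, A (s, x)) = z₀ → ∃ k l, (s, x + lat k l) ∈ N ∧
      ∀ k' l', ‖x + lat k' l' - x₀‖ ≤ 1 / 2 → (s, x + lat k' l') ∈ N) :
    ∃ U ∈ 𝓝 z₀, ∀ s x, kz (s, A (s, x)) ∈ U → ∃ k l, (s, x + lat k l) ∈ N := by
  set K : Set (ℝ × V m) := (Metric.closedBall z₀.1 1 ×ˢ Metric.closedBall x₀ (1 / 2)) \ N with hK
  have hKc : IsCompact K := ((isCompact_closedBall _ _).prod (isCompact_closedBall _ _)).diff hN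
  have hc : Continuous fun y : ℝ × V m => kz (y.1, A y) :=
    kz_contDiff.continuous.comp (continuous_fst.prodMk hA.smooth.continuous)
  have hKi : IsClosed ((fun y : ℝ × V m => kz (y.1, A y)) '' K) := (hKc.image hc).isClosed
  have hz : z₀ ∉ (fun y : ℝ × V m => kz (y.1, A y)) '' K := by
    rintro ⟨⟨s, x⟩, hy, hy'⟩
    obtain ⟨k, l, _, h2⟩ := h s x hy'
    refine hy.2 ?_
    have h3 := h2 0 0 ?_
    · have h4 : (lat 0 0 : V m) = 0 := by
        unfold lat; simp; rfl
      rwa [h4, add_zero] at h3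
    · have h4 : (lat 0 0 : V m) = 0 := by
        unfold lat; simp; rfl
      rw [h4, add_zero, ← dist_eq_norm]
      exact hy.1.2
  have hb : ∀ᶠ z : ℝ × (((Fin m → ℂ) × ℂ) × G) in 𝓝 z₀, z.1 ∈ Metric.ball z₀.1 1 :=
    continuous_fst.continuousAt.eventually (Metric.isOpen_ball.mem_nhds (by simp))
  refine ⟨_, Filter.inter_mem (hKi.isOpen_compl.mem_nhds hz) hb, fun s x hs => ?_⟩
  obtain ⟨k, l, hkl⟩ := exists_box x₀ x
  refine ⟨k, l, ?_⟩
  by_contra hcon
  refine hs.1 ⟨(s, x + lat k l), ⟨⟨?_, ?_⟩, hcon⟩, hA.kz_lat s x k l⟩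
  · exact Metric.ball_subset_closedBall hs.2
  · show x + lat k l ∈ Metric.closedBall x₀ (1 / 2)
    rw [Metric.mem_closedBall, dist_eq_norm]
    exact hkl

theorem IsEmbFam.exists_tau [FiniteDimensional ℝ G] {A : ℝ × V m → V m × G} (hA : IsEmbFam A) :
    ∃ τ : ℝ × (V m × G) → V m, ContDiff ℝ ∞ τ ∧ (∀ s x, τ (s, A (s, x)) = x) ∧
      ∀ s q p k l, τ (s, (q + lat k l, p)) = τ (s, (q, p)) + lat k l := by
  set c : ℝ × V m → V m := fun y => y.2 - (A y).1 with hc
  have hcs : ContDiff ℝ ∞ c := contDiff_snd.sub (contDiff_fst.comp hA.smooth)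
  have hcl : ∀ s x k l, c (s, x + lat k l) = c (s, x) := by
    intro s x k l
    simp only [hc, hA.equiv, Prod.fst_add]
    abel
  have main : ∃ g : ContMDiffMap 𝓘(ℝ, ℝ × (((Fin m → ℂ) × ℂ) × G)) 𝓘(ℝ, V m)
      (ℝ × (((Fin m → ℂ) × ℂ) × G)) (V m) ((⊤ : ℕ∞) : WithTop ℕ∞),
      ∀ z, g z ∈ {v : V m | ∀ s x, kz (s, A (s, x)) = z → v = c (s, x)} := by
    refine exists_contMDiffMap_forall_mem_convex_of_local (n := (⊤ : ℕ∞))
      𝓘(ℝ, ℝ × (((Fin m → ℂ) × ℂ) × G)) (fun z => ?_) (fun z₀ => ?_)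
    · intro v hv v' hv' a b ha hb hab s x hsx
      rw [hv s x hsx, hv' s x hsx, ← add_smul, hab, one_smul]
    · by_cases hz : ∃ s x, kz (s, A (s, x)) = z₀
      · obtain ⟨s₀, x₀, h0⟩ := hz
        have hs : ContDiff ℝ ∞ fun y : ℝ × V m => kz (y.1, A y) :=
          kz_contDiff.comp (contDiff_fst.prodMk hA.smooth)
        obtain ⟨U, hU, T, hT, hTe⟩ := exists_loc_left_inv hs (hA.kz_imm (s₀, x₀))
        obtain ⟨N, hN, hNo, hN0⟩ := mem_nhds_iff.1 hTe
        have hU : U ∈ 𝓝 z₀ := by rw [← h0]; exact hU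
        obtain ⟨U', hU', hnear⟩ := hA.near z₀ x₀ hNo (by
          intro s x hsx
          rw [← h0] at hsx
          obtain ⟨h1, k, l, h2⟩ := hA.kz_eq hsx
          subst h1
          have h3 : x + lat (-k) (-l) = x₀ := by
            rw [h2, add_assoc]
            have : (lat k l : V m) + lat (-k) (-l) = 0 := by
              unfold lat
              refine Prod.ext (funext fun j => ?_) ?_ <;> simp
            rw [this, add_zero]
          refine ⟨-k, -l, by rw [h3]; exact hN0, fun k' l' h4 => ?_⟩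
          have h5 : x + lat k' l' - x₀ = lat (k + k') (l + l') := by
            rw [h2]
            unfold lat
            refine Prod.ext (funext fun j => ?_) ?_
            · simp
              ring
            · simp
              ring
          rw [h5] at h4
          have h6 := lat_small h4
          rw [h6, sub_eq_zero] at h5
          rw [h5]
          exact hN0)
        refine ⟨U ∩ U', Filter.inter_mem hU hU', fun z => c (T z), ?_, ?_⟩
        · exact (hcs.comp_contDiffOn (hT.mono inter_subset_left)).contMDiffOn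
        · intro z hz s x hsx
          obtain ⟨k, l, hkl⟩ := hnear s x (by rw [hsx]; exact hz.2)
          have h1 : T (kz (s, A (s, x + lat k l))) = (s, x + lat k l) := hN hkl
          rw [hA.kz_lat, hsx] at h1
          show c (T z) = _
          rw [h1, hcl]
      · obtain ⟨U, hU, hnear⟩ := hA.near z₀ 0 isOpen_empty
          (fun s x hsx => absurd ⟨s, x, hsx⟩ hz)
        refine ⟨U, hU, fun _ => 0, contMDiffOn_const, fun z hz' s x hsx => ?_⟩
        obtain ⟨k, l, hkl⟩ := hnear s x (by rw [hsx]; exact hz')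
        exact absurd hkl (Set.notMem_empty _)
  obtain ⟨g, hg⟩ := main
  have hgs : ContDiff ℝ ∞ g := g.contMDiff.contDiff
  refine ⟨fun y => y.2.1 + g (kz y), (contDiff_fst.comp contDiff_snd).add (hgs.comp kz_contDiff),
    fun s x => ?_, fun s q p k l => ?_⟩
  · have := hg (kz (s, A (s, x))) s x rfl
    show (A (s, x)).1 + g (kz (s, A (s, x))) = x
    rw [this]
    simp only [hc]
    abel
  · show q + lat k l + g (kz (s, (q + lat k l, p))) = q + g (kz (s, (q, p))) + lat k l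
    have : kz (s, (q + lat k l, p)) = kz (s, (q, p)) := by
      unfold kz
      simp only [ez_lat]
    rw [this]
    abel

end

end Vale.Agent.P220.H64
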