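import Vale.Agent.P220.H64.Stage

/-!
# Approximation of a family of curves by an analytic family
-/

open Set Complex Filter Topology
open scoped ContDiff Real

namespace Vale.Agent.P220.H64

variable {m : ℕ}

/-- trigonometric polynomial -/
noncomputable def Qp (c : ℤ →₀ ℂ) (τ : ℂ) : ℂ := ∑ k ∈ c.support, c k * exp (2 * π * I * k * τ)

/-- its primitive -/
noncomputable def Ep (c : ℤ →₀ ℂ) (τ : ℂ) : ℂ :=
  ∑ k ∈ c.support, c k / (2 * π * I * k) * exp (2 * π * I * k * τ)

/-- the primitive as a Laurent polynomial -/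
noncomputable def Lp (c : ℤ →₀ ℂ) (ζ : ℂ) : ℂ :=
  ∑ k ∈ c.support, c k / (2 * π * I * k) * ζ ^ k

theorem hasDerivAt_Ep {c : ℤ →₀ ℂ} (h0 : c 0 = 0) (τ : ℂ) : HasDerivAt (Ep c) (Qp c τ) τ := by
  unfold Ep Qp
  refine HasDerivAt.fun_sum fun k hk => ?_
  have hk0 : k ≠ 0 := by
    rintro rfl
    exact (Finsupp.mem_support_iff.1 hk) h0
  have h1 : HasDerivAt (fun τ : ℂ => 2 * π * I * k * τ) (2 * π * I * k) τ := by
    simpa using (hasDerivAt_id τ).const_mul (2 * π * I * k : ℂ)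
  have h2 := (h1.cexp).const_mul (c k / (2 * π * I * k))
  refine h2.congr_deriv ?_
  have hk0' : (2 * π * I * k : ℂ) ≠ 0 := by
    refine mul_ne_zero two_pi_I_ne_zero (Int.cast_ne_zero.2 hk0)
  field_simp

theorem Ep_eq_Lp (c : ℤ →₀ ℂ) (τ : ℂ) : Ep c τ = Lp c (exp (2 * π * I * τ)) := by
  unfold Ep Lp
  refine Finset.sum_congr rfl fun k _ => ?_
  rw [← exp_int_mul]
  congr 2
  ring

theorem exp_per (τ : ℂ) (l : ℤ) : exp (2 * π * I * (τ + l)) = exp (2 * π * I * τ) := by
  rw [mul_add, exp_add, mul_comm (2 * π * I) (l : ℂ), exp_int_mul_two_pi_mul_I, mul_one]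

theorem contDiff_Ep (c : ℤ →₀ ℂ) : ContDiff ℂ ∞ (Ep c) := by
  unfold Ep
  refine ContDiff.sum fun k _ => contDiff_const.mul ?_
  exact (contDiff_const.mul contDiff_id).cexp

theorem fourier_approx {G : ℝ → ℂ} (hc : Continuous G) (hp : ∀ t, G (t + 1) = G t)
    (h0 : ∫ t in (0 : ℝ)..1, G t = 0) {ε : ℝ} (hε : 0 < ε) :
    ∃ c : ℤ →₀ ℂ, c 0 = 0 ∧ ∀ t : ℝ, ‖G t - Qp c t‖ ≤ ε := by
  have hper : Function.Periodic G 1 := hp
  have hfc : Continuous (hper.lift : AddCircle (1 : ℝ) → ℂ) := by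
    refine (QuotientAddGroup.isQuotientMap_mk (N := AddSubgroup.zmultiples (1 : ℝ))).continuous_iff.2 ?_
    exact hc
  set f : C(AddCircle (1 : ℝ), ℂ) := ⟨hper.lift, hfc⟩ with hf
  have hft : ∀ t : ℝ, f (t : AddCircle (1 : ℝ)) = G t := fun t => hper.lift_coe t
  have : Fact ((0 : ℝ) < 1) := ⟨one_pos⟩
  have hmem : f ∈ (Submodule.span ℂ (range <| @fourier 1)).topologicalClosure := by
    rw [span_fourier_closure_eq_top]; trivial
  rw [← SetLike.mem_coe, Submodule.topologicalClosure_coe, Metric.mem_closure_iff] at hmem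
  obtain ⟨g, hg, hgf⟩ := hmem (ε / 2) (by linarith)
  obtain ⟨c, hcg⟩ := Finsupp.mem_span_range_iff_exists_finsupp.1 hg
  have hgt : ∀ t : ℝ, g (t : AddCircle (1 : ℝ)) = Qp c t := by
    intro t
    rw [← hcg, Finsupp.sum, ContinuousMap.coe_sum, Finset.sum_apply, Qp]
    refine Finset.sum_congr rfl fun k _ => ?_
    rw [ContinuousMap.smul_apply, smul_eq_mul, fourier_coe_apply]
    simp
  have hd : ∀ t : ℝ, ‖G t - Qp c t‖ ≤ ε / 2 := by
    intro t
    rw [← hft, ← hgt, ← dist_eq_norm]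
    exact (ContinuousMap.dist_apply_le_dist _).trans hgf.le
  have hQc : Continuous fun t : ℝ => Qp c t := by unfold Qp; fun_prop
  -- the mean
  set c' := c.erase 0 with hc'
  have hc'0 : c' 0 = 0 := Finsupp.erase_same
  have hQ : ∀ τ, Qp c τ = c 0 + Qp c' τ := by
    intro τ
    have h1 : Qp c τ = c.sum fun k a => a * exp (2 * π * I * k * τ) := rfl
    have h2 : Qp c' τ = c'.sum fun k a => a * exp (2 * π * I * k * τ) := rfl
    have h3 := Finsupp.add_sum_erase' c 0 (fun k a => a * exp (2 * π * I * k * τ))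
      (fun k => zero_mul _)
    rw [h1, h2, ← h3]
    simp [hc']
  have hmean : ∫ t in (0 : ℝ)..1, Qp c t = c 0 := by
    have h1 : ∀ t : ℝ, HasDerivAt (fun t : ℝ => (t : ℂ) * c 0 + Ep c' t) (Qp c t) t := by
      intro t
      have h2 : HasDerivAt (fun τ : ℂ => τ * c 0 + Ep c' τ) (1 * c 0 + Qp c' t) (t : ℂ) :=
        ((hasDerivAt_id (t : ℂ)).mul_const (c 0)).add (hasDerivAt_Ep hc'0 _)
      rw [one_mul, ← hQ] at h2
      exact h2.comp_ofReal
    rw [intervalIntegral.integral_eq_sub_of_hasDerivAt (fun t _ => h1 t)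
      (hQc.intervalIntegrable _ _)]
    have h3 : Ep c' ((1 : ℝ) : ℂ) = Ep c' ((0 : ℝ) : ℂ) := by
      rw [Ep_eq_Lp, Ep_eq_Lp]
      have := exp_per 0 1
      simp only [zero_add, Int.cast_one] at this
      simp only [Complex.ofReal_one, Complex.ofReal_zero, this]
    rw [h3]
    simp
  have hc0 : ‖c 0‖ ≤ ε / 2 := by
    have h1 : ∫ t in (0 : ℝ)..1, (Qp c t - G t) = c 0 := by
      rw [intervalIntegral.integral_sub (hQc.intervalIntegrable _ _) (hc.intervalIntegrable _ _),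
        hmean, h0, sub_zero]
    rw [← h1]
    have h2 := intervalIntegral.norm_integral_le_of_norm_le_const (a := (0 : ℝ)) (b := 1)
      (f := fun t : ℝ => Qp c t - G t) (C := ε / 2) (fun t _ => by
        rw [norm_sub_rev]; exact hd t)
    simpa using h2
  refine ⟨c', hc'0, fun t => ?_⟩
  have h1 : G t - Qp c' t = (G t - Qp c t) + c 0 := by rw [hQ]; ring
  rw [h1]
  refine (norm_add_le _ _).trans ?_
  linarith [hd t]

/-- analytic family of curves -/
structure AF (W W' P : (Fin m → ℝ) → ℂ → ℂ) : Prop where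
  Wd : ∀ b τ, HasDerivAt (W b) (W' b τ) τ
  Wc : Continuous fun y : (Fin m → ℝ) × ℂ => W' y.1 y.2
  Wt : ∀ b τ k (l : ℤ), W (b + zv k) (τ + l) = W b τ + l * I
  Ws : ∀ b, ContDiff ℂ ∞ (W b)
  Pp : ∀ b k, P (b + zv k) = P b
  Pd : ∀ b, DifferentiableOn ℂ (P b) {0}ᶜ
  Pc : ContinuousOn (fun y : (Fin m → ℝ) × ℂ => P y.1 y.2) (univ ×ˢ {0}ᶜ)
  WP : ∀ b τ, 2 * π * W b τ = 2 * π * I * τ + P b (exp (2 * π * I * τ))
  inj : ∀ b (t t' : ℝ), W b t = W b t' → t = t'
  imm : ∀ b (t : ℝ), W' b t ≠ 0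

/-- a smooth family as a constant path -/
theorem IsCurveFam.cpath {w : V m → ℂ} (hw : IsCurveFam w) :
    CPath (fun _ b t => w (b, t)) (fun _ b t => deriv (fun r => w (b, r)) t) := by
  have hd : ∀ (b : Fin m → ℝ) (t : ℝ), HasDerivAt (fun r => w (b, r))
      (fderiv ℝ w (b, t) (0, 1)) t := by
    intro b t
    have h1 : HasFDerivAt w (fderiv ℝ w (b, t)) (b, t) :=
      (hw.smooth.differentiable (by simp) _).hasFDerivAt
    have h2 : HasDerivAt (fun r : ℝ => (b, r)) ((0 : Fin m → ℝ), (1 : ℝ)) t :=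
      (hasDerivAt_const t b).prodMk (hasDerivAt_id t)
    exact h1.comp_hasDerivAt t h2
  have he : ∀ (b : Fin m → ℝ) (t : ℝ) k (l : ℤ), w (b + zv k, t + l) = w (b, t) + l * I := by
    intro b t k l
    have := hw.equiv (b, t) k l
    exact this
  refine ⟨fun b => ?_, fun _ b t => IsCurveFam.hasDerivAt hw.smooth b t, ?_, fun _ b t k l => he b t k l,
    fun _ => hw.inj, fun _ => hw.imm, fun _ _ => rfl, fun _ _ => rfl⟩
  · exact hw.smooth.comp (contDiff_const.prodMk contDiff_snd)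
  · have h1 : Continuous fun x : V m => fderiv ℝ w x (0, 1) :=
      (hw.smooth.continuous_fderiv (by simp)).clm_apply continuous_const
    have h2 : (fun y : ℝ × (Fin m → ℝ) × ℝ => deriv (fun r => w (y.2.1, r)) y.2.2) =
        fun y => fderiv ℝ w (y.2.1, y.2.2) (0, 1) := by
      funext y
      exact (hd y.2.1 y.2.2).deriv
    rw [h2]
    exact h1.comp (by fun_prop)

theorem exists_AF {w : V m → ℂ} (hw : IsCurveFam w) : ∃ W W' P : (Fin m → ℝ) → ℂ → ℂ,
    AF W W' P ∧ IsRep w (fun b t => W b t) (fun b t => W' b t) := by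
  have hpath := hw.cpath
  obtain ⟨c, hc, hE⟩ := hpath.exists_emb
  obtain ⟨δ, hδ, hu⟩ := hpath.unif (show 0 < c / 6 by linarith)
  obtain ⟨J, hJ, p, χ, h1, h2, h3, h4, h5⟩ := exists_pou m hδ
  set D : (Fin m → ℝ) → ℝ → ℂ := fun b t => deriv (fun r => w (b, r)) t with hD
  have hDc : ∀ b, Continuous (D b) := fun b =>
    hpath.cont.comp (f := fun t : ℝ => ((0 : ℝ), b, t)) (by fun_prop)
  have hFA : ∀ i, ∃ a : ℤ →₀ ℂ, a 0 = 0 ∧ ∀ t : ℝ, ‖(D (p i) t - I) - Qp a t‖ ≤ c / 6 := by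
    intro i
    refine fourier_approx (G := fun t => D (p i) t - I) ((hDc _).sub continuous_const)
      (fun t => ?_) ?_ (by linarith)
    · have := hpath.DZ 0 (p i) t 1
      simp only [Int.cast_one] at this
      rw [this]
    · have h6 : ∀ t : ℝ, HasDerivAt (fun t : ℝ => w (p i, t) - (t : ℂ) * I) (D (p i) t - I) t := by
        intro t
        have h7 : HasDerivAt (fun t : ℝ => (t : ℂ) * I) (1 * I) t :=
          HasDerivAt.mul_const (Complex.ofRealCLM.hasDerivAt) I
        rw [one_mul] at h7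
        exact (IsCurveFam.hasDerivAt hw.smooth (p i) t).sub h7
      rw [intervalIntegral.integral_eq_sub_of_hasDerivAt (fun t _ => h6 t)
        (((hDc _).sub continuous_const).intervalIntegrable _ _)]
      have h8 := hpath.eqZ 0 (p i) 0 1
      simp only [zero_add, Int.cast_one, one_mul] at h8
      rw [h8]
      push_cast
      ring
  choose a ha0 ha using hFA
  set W : (Fin m → ℝ) → ℂ → ℂ := fun b τ => I * τ + ∑ i, ((χ i b : ℝ) : ℂ) * Ep (a i) τ with hW
  set W' : (Fin m → ℝ) → ℂ → ℂ := fun b τ => I + ∑ i, ((χ i b : ℝ) : ℂ) * Qp (a i) τ with hW'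
  set P : (Fin m → ℝ) → ℂ → ℂ := fun b ζ => 2 * π * ∑ i, ((χ i b : ℝ) : ℂ) * Lp (a i) ζ with hP
  have hWd : ∀ b τ, HasDerivAt (W b) (W' b τ) τ := by
    intro b τ
    have h6 : HasDerivAt (fun τ : ℂ => I * τ) I τ := by
      simpa using (hasDerivAt_id τ).const_mul I
    exact h6.add (HasDerivAt.fun_sum fun i _ =>
      (hasDerivAt_Ep (ha0 i) τ).const_mul ((χ i b : ℝ) : ℂ))
  have hcl : ∀ b (t : ℝ), ‖W' b t - D b t‖ ≤ c / 3 := by
    intro b t
    have h6 : W' b t - D b t = ∑ i, ((χ i b : ℝ) : ℂ) * ((D (p i) t - D b t) -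
        ((D (p i) t - I) - Qp (a i) t)) := by
      have h7 : ∀ i, ((χ i b : ℝ) : ℂ) * ((D (p i) t - D b t) -
        ((D (p i) t - I) - Qp (a i) t)) = ((χ i b : ℝ) : ℂ) * Qp (a i) t +
          ((χ i b : ℝ) : ℂ) * (I - D b t) := fun i => by ring
      simp only [h7, Finset.sum_add_distrib, ← Finset.sum_mul]
      rw [← Complex.ofReal_sum, h3 b, hW']
      simp only [Complex.ofReal_one]
      ring
    rw [h6]
    refine (norm_sum_le _ _).trans ?_
    have h7 : ∀ i ∈ Finset.univ, ‖((χ i b : ℝ) : ℂ) * ((D (p i) t - D b t) -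
        ((D (p i) t - I) - Qp (a i) t))‖ ≤ χ i b * (c / 3) := by
      intro i _
      rw [norm_mul, Complex.norm_real, Real.norm_of_nonneg (h2 i b)]
      by_cases hi : χ i b = 0
      · rw [hi]; simp
      · obtain ⟨k, hk⟩ := h5 i b hi
        refine mul_le_mul_of_nonneg_left ?_ (h2 i b)
        have h8 : ‖D (p i) t - D b t‖ ≤ c / 6 := by
          rw [norm_sub_rev]
          have h9 : ‖D b t - D (p i + zv k) t‖ ≤ c / 6 := hu 0 b (p i + zv k) t hk
          rwa [hpath.DB 0 (p i) k] at h9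
        refine (norm_sub_le _ _).trans ?_
        linarith [ha i t]
    refine (Finset.sum_le_sum h7).trans ?_
    rw [← Finset.sum_mul, h3 b, one_mul]
  have hWr : ∀ b (t : ℝ), HasDerivAt (fun t : ℝ => W b t) (W' b t) t := fun b t =>
    (hWd b t).comp_ofReal
  have hE' : ∀ b, Emb (c - c / 3) (fun t : ℝ => W b t) := fun b =>
    emb_of_close (hE 0 b) (hpath.hd 0 b) (hWr b) (hcl b)
  have hc3 : 0 < c - c / 3 := by linarith
  refine ⟨W, W', P, ⟨hWd, ?_, ?_, ?_, ?_, ?_, ?_, ?_, ?_, ?_⟩, hw, c - c / 3, hc3, hE', ?_⟩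
  · refine continuous_const.add (continuous_finsetSum _ fun i _ => ?_)
    refine (Complex.continuous_ofReal.comp ((h1 i).continuous.comp continuous_fst)).mul ?_
    have : Continuous (Qp (a i)) := by unfold Qp; fun_prop
    exact this.comp continuous_snd
  · intro b τ k l
    have h6 : ∀ i, Ep (a i) (τ + l) = Ep (a i) τ := fun i => by
      rw [Ep_eq_Lp, Ep_eq_Lp, exp_per]
    simp only [hW, h4, h6]
    ring
  · intro b
    refine (contDiff_const.mul contDiff_id).add (ContDiff.sum fun i _ => ?_)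
    exact contDiff_const.mul (contDiff_Ep _)
  · intro b k
    simp only [hP, h4]
  · intro b
    refine DifferentiableOn.const_mul (DifferentiableOn.fun_sum fun i _ =>
      DifferentiableOn.const_mul ?_ _) _
    unfold Lp
    refine DifferentiableOn.fun_sum fun k _ => DifferentiableOn.const_mul ?_ _
    intro ζ hζ
    exact (differentiableAt_zpow.2 (Or.inl hζ)).differentiableWithinAt
  · refine ContinuousOn.mul continuousOn_const (continuousOn_finsetSum _ fun i _ => ?_)
    refine ContinuousOn.mul (Complex.continuous_ofReal.comp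
      ((h1 i).continuous.comp continuous_fst)).continuousOn ?_
    unfold Lp
    refine continuousOn_finsetSum _ fun k _ => ContinuousOn.mul continuousOn_const ?_
    exact ContinuousOn.zpow₀ continuousOn_snd k fun y hy => Or.inl hy.2
  · intro b τ
    simp only [hW, hP, Ep_eq_Lp]
    ring
  · intro b t t' h
    exact (hE' b).inj hc3 h
  · intro b t h
    have h6 := (hE' b).deriv_le (hWr b t)
    rw [h, norm_zero] at h6
    linarith
  · intro b t
    rw [norm_sub_rev]
    refine (hcl b t).trans ?_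
    linarith

end Vale.Agent.P220.H64
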